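import Vale.Agent.P143.Uniform

set_option autoImplicit false

noncomputable section
open scoped Classical
open MeasureTheory Filter Topology
open Vale.Agent.P161 (PP unif clip proj Tq Fq gg aa CC)

namespace Vale.Agent.P143

variable {E : Type*}

lemma intervalIntegral_indicator {A : Set ℝ} (hA : MeasurableSet A) :
    ∫ x in (0 : ℝ)..1, A.indicator (fun _ => (1 : ℝ)) x = (unif A).toReal := by
  rw [intervalIntegral.integral_of_le zero_le_one, integral_Ioc_eq_integral_Ioo,
    ← integral_Icc_eq_integral_Ioo]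
  change ∫ x, A.indicator (fun _ => (1 : ℝ)) x ∂unif = _
  rw [integral_indicator hA]
  simp [Measure.real]

section law

variable [Countable E] {μ : Measure (E → Bool)} [IsProbabilityMeasure μ]

/-- The encoded noise is i.i.d. uniform. -/
theorem map_zz (ℓ : E → ℝ) (hℓ : Function.Injective ℓ) (B : E → ℕ → Finset E)
    (hB : ∀ f, Monotone (B f)) (hBex : ∀ f g, ∃ k, g ∈ B f k) :
    Measure.map (fun ω c => zzY (mt μ B) ℓ (yy ω) c) (μ.prod (PP (E × ℕ))) = PP (E × ℕ) := by
  have hmm : ∀ f, Measurable (mt μ B f) := fun f => measurable_mt μ B f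
  have hZ : Measurable (fun (ω : (E → Bool) × (E × ℕ → ℝ)) c => zzY (mt μ B) ℓ (yy ω) c) :=
    measurable_pi_iff.2 fun c => (measurable_zzY hmm ℓ c).comp measurable_yy
  refine Measure.eq_infinitePi (fun _ : E × ℕ => unif) ?_
  intro s t ht
  have hbox : MeasurableSet (Set.pi (s : Set (E × ℕ)) t) :=
    MeasurableSet.pi s.countable_toSet (fun c _ => ht c)
  rw [Measure.map_apply hZ hbox]
  set A := (fun (ω : (E → Bool) × (E × ℕ → ℝ)) c => zzY (mt μ B) ℓ (yy ω) c) ⁻¹'
    Set.pi (s : Set (E × ℕ)) t with hAdef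
  have hA : MeasurableSet A := hZ hbox
  have hlaw := law_box (μ := μ) ℓ hℓ B hB hBex (fun c => (t c).indicator (fun _ => (1 : ℝ)))
    (fun c => measurable_const.indicator (ht c))
    (fun c x => by
      by_cases h : x ∈ t c <;> simp [h]) s
  have e1 : ∀ ω : (E → Bool) × (E × ℕ → ℝ),
      ∏ c ∈ s, (t c).indicator (fun _ => (1 : ℝ)) (zzY (mt μ B) ℓ (yy ω) c)
        = A.indicator (fun _ => (1 : ℝ)) ω := by
    intro ω
    by_cases h : ω ∈ A
    · rw [Set.indicator_of_mem h]
      refine Finset.prod_eq_one (fun c hc => ?_)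
      exact Set.indicator_of_mem (h c (by exact_mod_cast hc)) _
    · rw [Set.indicator_of_notMem h]
      have : ∃ c ∈ s, zzY (mt μ B) ℓ (yy ω) c ∉ t c := by
        by_contra hc
        push Not at hc
        exact h (fun c hc' => hc c (by exact_mod_cast hc'))
      obtain ⟨c, hc, hc'⟩ := this
      exact Finset.prod_eq_zero hc (Set.indicator_of_notMem hc' _)
  simp only [e1] at hlaw
  rw [integral_indicator hA] at hlaw
  simp only [intervalIntegral_indicator (ht _)] at hlaw
  have hreal : ((μ.prod (PP (E × ℕ))) A).toReal = (∏ c ∈ s, unif (t c)).toReal := by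
    rw [ENNReal.toReal_prod, ← hlaw]
    simp [Measure.real]
  have hfin1 : (μ.prod (PP (E × ℕ))) A ≠ ⊤ := measure_ne_top _ _
  have hfin2 : (∏ c ∈ s, unif (t c)) ≠ ⊤ :=
    ENNReal.prod_ne_top (fun c _ => measure_ne_top _ _)
  exact (ENNReal.toReal_eq_toReal_iff' hfin1 hfin2).1 hreal

end law

/-- Summable expectations force almost sure convergence to `0`. -/
lemma ae_tendsto_zero_of_summable {Ω : Type*} [MeasurableSpace Ω] {P : Measure Ω}
    [IsFiniteMeasure P] (F : ℕ → Ω → ℝ) (hm : ∀ i, Measurable (F i)) (h0 : ∀ i x, 0 ≤ F i x)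
    (hi : ∀ i, Integrable (F i) P) (c : ℕ → ℝ) (hc : Summable c)
    (hle : ∀ i, ∫ x, F i x ∂P ≤ c i) : ∀ᵐ x ∂P, Tendsto (fun i => F i x) atTop (𝓝 0) := by
  have hmeas : ∀ i, Measurable (fun x => ENNReal.ofReal (F i x)) :=
    fun i => (hm i).ennreal_ofReal
  have h1 : ∫⁻ x, ∑' i, ENNReal.ofReal (F i x) ∂P ≠ ⊤ := by
    rw [lintegral_tsum (fun i => (hmeas i).aemeasurable)]
    have h2 : ∀ i, ∫⁻ x, ENNReal.ofReal (F i x) ∂P ≤ ENNReal.ofReal (c i) := by
      intro i
      rw [← ofReal_integral_eq_lintegral_ofReal (hi i)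
        (Filter.Eventually.of_forall (fun x => h0 i x))]
      exact ENNReal.ofReal_le_ofReal (hle i)
    refine ne_top_of_le_ne_top hc.tsum_ofReal_ne_top (ENNReal.tsum_le_tsum h2)
  have h3 := ae_lt_top (Measurable.tsum hmeas) h1
  filter_upwards [h3] with x hx
  have h4 := ENNReal.tendsto_atTop_zero_of_tsum_ne_top hx.ne
  have h5 := (ENNReal.tendsto_toReal ENNReal.zero_ne_top).comp h4
  simp only [ENNReal.toReal_zero] at h5
  refine h5.congr (fun i => ?_)
  simp [Function.comp, ENNReal.toReal_ofReal (h0 i x)]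

lemma tendsto_of_sq_sub {u : ℕ → ℝ} {s : ℝ} (h : Tendsto (fun i => (u i - s) ^ 2) atTop (𝓝 0)) :
    Tendsto u atTop (𝓝 s) := by
  have h1 := (Real.continuous_sqrt.tendsto 0).comp h
  simp only [Real.sqrt_zero] at h1
  rw [tendsto_iff_dist_tendsto_zero]
  refine h1.congr (fun i => ?_)
  simp [Function.comp, Real.sqrt_sq_eq_abs, Real.dist_eq]

section planted

variable [Countable E] {μ : Measure (E → Bool)} [IsProbabilityMeasure μ]

lemma summable_bound : Summable (fun i : ℕ => 4 / (((2 ^ i : ℕ) : ℝ) * kapD dl ^ 2)) := by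
  have hk := kapD_pos (δ := dl) dl_pos dl_le
  have h1 : Summable (fun i : ℕ => (4 / kapD dl ^ 2) * (1 / 2 : ℝ) ^ i) :=
    (summable_geometric_of_lt_one (by norm_num) (by norm_num)).mul_left _
  refine h1.congr (fun i => ?_)
  push_cast
  field_simp
  rw [← mul_pow]
  norm_num

/-- The law of large numbers for the planted observations. -/
theorem ae_planted_conv :
    ∀ᵐ ω ∂(μ.prod (PP (E × ℕ))), ∀ f, Tendsto (fun i => clip (Kd i * hY (yy ω) (2 ^ i) f)) atTop
      (𝓝 (spin (ω.1 f))) := by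
  rw [ae_all_iff]
  intro f
  set F : ℕ → (E → Bool) × (E × ℕ → ℝ) → ℝ := fun i ω =>
    (clip (Kd i * hY (yy ω) (2 ^ i) f) - spin (ω.1 f)) ^ 2 with hF
  have hm : ∀ i, Measurable (F i) := by
    intro i
    have h1 : Measurable (fun ω : (E → Bool) × (E × ℕ → ℝ) => hY (yy ω) (2 ^ i) f) :=
      (measurable_hY _ f).comp measurable_yy
    have h2 : Measurable (fun ω : (E → Bool) × (E × ℕ → ℝ) => spin (ω.1 f)) :=
      (measurable_spin_apply f).comp measurable_fst
    exact (((Vale.Agent.P161.continuous_clip.measurable.comp (h1.const_mul _))).sub h2).pow_const 2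
  have hb : ∀ i ω, |F i ω| ≤ (1 + 1) ^ 2 := by
    intro i ω
    simp only [hF]
    rw [abs_pow]
    refine pow_le_pow_left₀ (abs_nonneg _) ?_ 2
    refine (abs_sub _ _).trans (add_le_add (Vale.Agent.P161.abs_clip_le _) (abs_spin _).le)
  have hi : ∀ i, Integrable (F i) (μ.prod (PP (E × ℕ))) := fun i => integrable_bdd (hm i) (hb i)
  have hle : ∀ i, ∫ ω, F i ω ∂(μ.prod (PP (E × ℕ))) ≤ 4 / (((2 ^ i : ℕ) : ℝ) * kapD dl ^ 2) := by
    intro i
    rw [integral_prod _ (hi i)]
    have hinner : ∀ σ : E → Bool, ∫ w, F i (σ, w) ∂(PP (E × ℕ))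
        ≤ 4 / (((2 ^ i : ℕ) : ℝ) * kapD dl ^ 2) := by
      intro σ
      have h := planted_variance (δ := dl) (V := E) dl_pos dl_le (spin_cases (σ f)) f
        (n := 2 ^ i) (Nat.one_le_two_pow)
      exact h
    have h2 := integral_mono_of_nonneg (μ := μ)
      (f := fun σ => ∫ w, F i (σ, w) ∂(PP (E × ℕ)))
      (g := fun _ => 4 / (((2 ^ i : ℕ) : ℝ) * kapD dl ^ 2))
      (Filter.Eventually.of_forall (fun σ => integral_nonneg (fun w => by
        simp only [hF]; positivity)))
      (integrable_const _) (Filter.Eventually.of_forall hinner)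
    simpa using h2
  have h0 : ∀ i ω, 0 ≤ F i ω := fun i ω => by simp only [hF]; positivity
  have := ae_tendsto_zero_of_summable F hm h0 hi _ summable_bound hle
  filter_upwards [this] with ω hω
  exact tendsto_of_sq_sub hω

/-- **The abstract theorem.** A measure on `{±1}^E` whose tilted means are uniformly Lipschitz in
the field is the image of i.i.d. uniform noise under the scheme, for every injective labelling. -/
theorem law_Out (hTL : TiltLip μ) (B : E → ℕ → Finset E) (hB : ∀ f, Monotone (B f))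
    (hBex : ∀ f g, ∃ k, g ∈ B f k) (ℓ : E → ℝ) (hℓ : Function.Injective ℓ) :
    Measure.map (Out (mt μ B) ℓ) (PP (E × ℕ)) = μ := by
  have hmm : ∀ f, Measurable (mt μ B f) := fun f => measurable_mt μ B f
  have hOut : Measurable (Out (mt μ B) ℓ) := by
    have := measurable_Out (X := E × ℕ → ℝ) (m := fun _ => mt μ B) (ℓ := fun _ => ℓ)
      (z := fun z => z) (fun f => (hmm f).comp measurable_snd) (fun _ => measurable_const)
      (fun c => measurable_pi_apply c)
    exact this
  have hZ : Measurable (fun (ω : (E → Bool) × (E × ℕ → ℝ)) c => zzY (mt μ B) ℓ (yy ω) c) :=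
    measurable_pi_iff.2 fun c => (measurable_zzY hmm ℓ c).comp measurable_yy
  conv_lhs => rw [← map_zz (μ := μ) ℓ hℓ B hB hBex]
  rw [Measure.map_map hOut hZ]
  have hae : (Out (mt μ B) ℓ ∘ fun (ω : (E → Bool) × (E × ℕ → ℝ)) c => zzY (mt μ B) ℓ (yy ω) c)
      =ᵐ[μ.prod (PP (E × ℕ))] Prod.fst := by
    filter_upwards [ae_planted_conv (μ := μ)] with ω hω
    exact Out_zzY (lip2_mt B hTL) ℓ (yy_mem ω) hω
  rw [Measure.map_congr hae, Measure.map_fst_prod]
  simp

end planted

end Vale.Agent.P143
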