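import Mathlib

set_option autoImplicit false

noncomputable section
open MeasureTheory Filter Topology

namespace Vale.Agent.P143

variable {V : Type*}

/-- `T` is a spanning tree of the subgraph `H`: a subgraph of `H` with the same vertex set which,
as a graph in its own right, is a tree. -/
def IsSpanningTree {G : SimpleGraph V} (H T : G.Subgraph) : Prop :=
  T ≤ H ∧ T.verts = H.verts ∧ T.coe.IsTree

/-- The probability that the uniform spanning tree of `H` meets the finite set `D` of pairs of
vertices exactly in the pattern `p`: the number of such spanning trees over the number of all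
spanning trees. -/
def ustCyl {G : SimpleGraph V} (H : G.Subgraph) (D : Finset (Sym2 V)) (p : Sym2 V → Bool) : ℝ :=
  (({T : G.Subgraph | IsSpanningTree H T ∧ ∀ e ∈ D, (e ∈ T.edgeSet ↔ p e = true)}).ncard : ℝ) /
    (({T : G.Subgraph | IsSpanningTree H T}).ncard : ℝ)

/-- `F` is an increasing sequence of finite connected subgraphs of `G` with union `G`. -/
structure IsExhaustion (G : SimpleGraph V) (F : ℕ → G.Subgraph) : Prop where
  finite_verts : ∀ n, (F n).verts.Finite
  connected : ∀ n, (F n).Connected
  mono : Monotone F
  exhausts_verts : ∀ v, ∃ n, v ∈ (F n).verts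
  exhausts_edges : ∀ e ∈ G.edgeSet, ∃ n, e ∈ (F n).edgeSet

/-- `μ` is the free uniform spanning forest of `G`: a probability measure on edge configurations
(subsets of the pairs of vertices, given by their indicator functions) which is the weak limit of
the uniform spanning trees along every exhaustion of `G`; weak convergence is tested on the
cylinder events `{ω | ω = p on D}`, `D` finite. -/
structure IsFUSF (G : SimpleGraph V) (μ : Measure (Sym2 V → Bool)) : Prop where
  prob : IsProbabilityMeasure μ
  limit : ∀ F, IsExhaustion G F → ∀ (D : Finset (Sym2 V)) (p : Sym2 V → Bool),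
    Tendsto (fun n => ustCyl (F n) D p) atTop (𝓝 (μ {ω | ∀ e ∈ D, ω e = p e}).toReal)

open scoped Classical in
/-- The indicator code of a graph, on all pairs of vertices. -/
def code (G : SimpleGraph V) (e : Sym2 V) : Bool := decide (e ∈ G.edgeSet)

end Vale.Agent.P143
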