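import Vale.Agent.P143.UstDefs
import Vale.Agent.P143.Defs

set_option autoImplicit false

noncomputable section
open scoped Classical

namespace Vale.Agent.P143

variable {V : Type*}

/-- The neighbours of `x` in the coded graph `g`, when they are finitely many. -/
def nbr (g : Sym2 V → Bool) (x : V) : Finset V :=
  if h : {y | y ≠ x ∧ g s(x, y) = true}.Finite then h.toFinset else ∅

/-- The ball of radius `n` around `x` in the coded graph `g`. -/
def wball (g : Sym2 V → Bool) (x : V) : ℕ → Finset V
  | 0 => {x}
  | n + 1 => wball g x n ∪ (wball g x n).biUnion (nbr g)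

/-- The edges of the coded graph `g` inside the finite vertex set `W`. -/
def edgesIn (g : Sym2 V → Bool) (W : Finset V) : Finset (Sym2 V) :=
  W.sym2.filter (fun e => g e = true ∧ ¬ e.IsDiag)

/-- The uniform-spanning-tree probability of a cylinder on the finite graph `(W, F)`. -/
def ustC (W : Finset V) (F D : Finset (Sym2 V)) (p : Sym2 V → Bool) : ℝ :=
  (((treesOf W F).filter (fun T => ∀ e ∈ D, (e ∈ T ↔ p e = true))).card : ℝ) /
    ((treesOf W F).card : ℝ)

end Vale.Agent.P143
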