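import Vale.Agent.P143.GraphFacts

set_option autoImplicit false

noncomputable section
open scoped Classical
open MeasureTheory Filter Topology
open Vale.Agent.P161 (PP unif splitU exists_noise_map)

namespace Vale.Agent.P143

section cayley

variable {Γ : Type*} [Group Γ]

/-- Left translation is a homomorphism of Cayley graphs. -/
def cayleyHom (s : Set Γ) (d : Γ) : SimpleGraph.mulCayley s →g SimpleGraph.mulCayley s where
  toFun x := d * x
  map_rel' h := (SimpleGraph.mulCayley_adj_mul_iff_right).2 h

lemma cayley_reach_mul (s : Set Γ) (d : Γ) {u v : Γ} (h : (SimpleGraph.mulCayley s).Reachable u v) :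
    (SimpleGraph.mulCayley s).Reachable (d * u) (d * v) :=
  h.map (cayleyHom s d)

lemma cayley_connected {s : Set Γ} (hs : Subgroup.closure s = ⊤) :
    (SimpleGraph.mulCayley s).Connected := by
  rw [SimpleGraph.connected_iff_exists_forall_reachable]
  refine ⟨1, fun x => ?_⟩
  have hx : x ∈ Subgroup.closure s := by rw [hs]; trivial
  induction hx using Subgroup.closure_induction with
  | mem x hx =>
    by_cases h1 : x = 1
    · rw [h1]
    · refine SimpleGraph.Adj.reachable ?_
      rw [SimpleGraph.mulCayley_adj']
      exact ⟨fun e => h1 e.symm, x, hx, Or.inl (one_mul x)⟩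
  | one => exact SimpleGraph.Reachable.refl _
  | mul x y _ _ ihx ihy =>
    refine ihx.trans ?_
    have := cayley_reach_mul s x ihy
    simpa using this
  | inv x _ ihx =>
    have := cayley_reach_mul s x⁻¹ ihx
    simp only [mul_one, inv_mul_cancel] at this
    exact this.symm

lemma cayley_locallyFinite {s : Set Γ} (hs : s.Finite) (v : Γ) :
    ((SimpleGraph.mulCayley s).neighborSet v).Finite := by
  refine ((hs.image (fun g => v * g)).union (hs.image (fun g => v * g⁻¹))).subset ?_
  intro w hw
  rw [SimpleGraph.mem_neighborSet, SimpleGraph.mulCayley_adj'] at hw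
  obtain ⟨_, g, hg, h | h⟩ := hw
  · exact Or.inl ⟨g, hg, h⟩
  · refine Or.inr ⟨g, hg, ?_⟩
    show v * g⁻¹ = w
    rw [h]
    simp

lemma cayley_map (s : Set Γ) (γ : Γ) :
    (SimpleGraph.mulCayley s).map (Equiv.mulLeft γ).toEmbedding = SimpleGraph.mulCayley s := by
  ext x y
  rw [SimpleGraph.map_adj]
  constructor
  · rintro ⟨a, b, hab, rfl, rfl⟩
    exact (SimpleGraph.mulCayley_adj_mul_iff_right).2 hab
  · intro h
    refine ⟨γ⁻¹ * x, γ⁻¹ * y, (SimpleGraph.mulCayley_adj_mul_iff_right).2 h, ?_, ?_⟩ <;> simp

lemma countable_of_connected {V : Type*} {G : SimpleGraph V} (hc : G.Connected)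
    (hlf : ∀ v, (G.neighborSet v).Finite) : Countable V := by
  obtain ⟨o⟩ := hc.nonempty
  have h : (Set.univ : Set V) = ⋃ n, (wball (code G) o n : Set V) := by
    ext y
    simp only [Set.mem_univ, Set.mem_iUnion, Finset.mem_coe, true_iff]
    exact exists_mem_wball hc hlf o y
  rw [← Set.countable_univ_iff, h]
  exact Set.countable_iUnion (fun n => (wball (code G) o n).countable_toSet)

end cayley

end Vale.Agent.P143
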