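import Vale.Agent.P161.Channel
import Vale.Agent.P161.Noise

set_option autoImplicit false

noncomputable section
open scoped Classical
open Finset MeasureTheory

open Vale.Agent.P161

namespace Vale.Agent.P143

variable {V : Type*} {δ : ℝ}

/-- The mean channel response to a `+1` spin. -/
def kapD (δ : ℝ) : ℝ := ∫ t in (0 : ℝ)..1, aa δ (Tq δ 1 t)

lemma gg_one_sub (x : ℝ) : gg (1 - x) = - gg x := by
  unfold gg
  rw [proj_one_sub]
  ring

lemma aa_one_sub (x : ℝ) : aa δ (1 - x) = - aa δ x := by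
  unfold aa
  rw [gg_one_sub]
  have e1 : 1 + δ * -gg x = 1 - δ * gg x := by ring
  have e2 : 1 - δ * -gg x = 1 + δ * gg x := by ring
  rw [e1, e2]
  ring

lemma integral_aa_zero : ∫ x in (0 : ℝ)..1, aa δ x = 0 := by
  have h1 : ∫ x in (0 : ℝ)..1, aa δ (1 - x) = ∫ x in (0 : ℝ)..1, aa δ x := by
    rw [intervalIntegral.integral_comp_sub_left (fun x => aa δ x) 1]
    norm_num
  have h2 : ∫ x in (0 : ℝ)..1, aa δ (1 - x) = - ∫ x in (0 : ℝ)..1, aa δ x := by
    simp only [aa_one_sub]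
    exact intervalIntegral.integral_neg
  linarith

/-- The correlation integral. -/
def kap₀ (δ : ℝ) : ℝ := ∫ x in (0 : ℝ)..1, δ * (2 * x - 1) * aa δ x

lemma integral_resp (h0 : 0 ≤ δ) (h1 : δ ≤ 1 / 2) {m : ℝ} (hm : |m| ≤ 1) :
    ∫ t in (0 : ℝ)..1, aa δ (Tq δ m t) = m * kap₀ δ := by
  rw [integral_Tq h0 h1 hm]
  have hc := continuous_aa h0 h1
  have e : ∀ x : ℝ, (1 + δ * m * (2 * x - 1)) * aa δ x
      = aa δ x + m * (δ * (2 * x - 1) * aa δ x) := fun x => by ring
  simp only [e]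
  rw [intervalIntegral.integral_add (hc.intervalIntegrable _ _)
    (Continuous.intervalIntegrable (by fun_prop) _ _), integral_aa_zero,
    intervalIntegral.integral_const_mul, zero_add]
  rfl

lemma kapD_eq (h0 : 0 ≤ δ) (h1 : δ ≤ 1 / 2) : kapD δ = kap₀ δ := by
  unfold kapD
  rw [integral_resp h0 h1 (by norm_num : |(1 : ℝ)| ≤ 1), one_mul]

theorem integral_aa_Tq (h0 : 0 ≤ δ) (h1 : δ ≤ 1 / 2) {σ : ℝ} (hσ : σ = 1 ∨ σ = -1) :
    ∫ t in (0 : ℝ)..1, aa δ (Tq δ σ t) = σ * kapD δ := by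
  have hm : |σ| ≤ 1 := by rcases hσ with rfl | rfl <;> norm_num
  rw [integral_resp h0 h1 hm, kapD_eq h0 h1]

lemma mul_log_ge {u : ℝ} (hu : |u| ≤ 1 / 2) :
    u ^ 2 ≤ u * (Real.log (1 + u) - Real.log (1 - u)) := by
  obtain ⟨h1, h2⟩ := abs_le.mp hu
  have hp : 0 < 1 + u := by linarith
  have hq : 0 < 1 - u := by linarith
  rcases le_total 0 u with h | h
  · have h3 : Real.log (1 - u) ≤ (1 - u) - 1 := Real.log_le_sub_one_of_pos hq
    have h4 : 0 ≤ Real.log (1 + u) := Real.log_nonneg (by linarith)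
    have h5 : u ≤ Real.log (1 + u) - Real.log (1 - u) := by linarith
    nlinarith
  · have h3 : Real.log (1 + u) ≤ (1 + u) - 1 := Real.log_le_sub_one_of_pos hp
    have h4 : 0 ≤ Real.log (1 - u) := Real.log_nonneg (by linarith)
    have h5 : Real.log (1 + u) - Real.log (1 - u) ≤ u := by linarith
    nlinarith

lemma integral_sq_centered : ∫ x in (0 : ℝ)..1, (2 * x - 1) ^ 2 = 1 / 3 := by
  have hd : ∀ x ∈ Set.uIcc (0 : ℝ) 1,
      HasDerivAt (fun x : ℝ => (2 * x - 1) ^ 3 / 6) ((2 * x - 1) ^ 2) x := by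
    intro x _
    have h1 : HasDerivAt (fun x : ℝ => 2 * x - 1) 2 x := by
      simpa using ((hasDerivAt_id' x).const_mul (2 : ℝ)).sub_const 1
    have h2 := (h1.fun_pow 3).div_const 6
    exact h2.congr_deriv (by norm_num; ring)
  rw [intervalIntegral.integral_eq_sub_of_hasDerivAt hd
    (Continuous.intervalIntegrable (by fun_prop) _ _)]
  norm_num

theorem kapD_pos (h0 : 0 < δ) (h1 : δ ≤ 1 / 2) : 0 < kapD δ := by
  rw [kapD_eq h0.le h1]
  have hc := continuous_aa h0.le h1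
  have hpt : ∀ x ∈ Set.Icc (0 : ℝ) 1,
      δ ^ 2 / 2 * (2 * x - 1) ^ 2 ≤ δ * (2 * x - 1) * aa δ x := by
    intro x hx
    have hg : gg x = 2 * x - 1 := by
      unfold gg
      rw [proj_of_mem hx.1 hx.2]
    have hu : |δ * gg x| ≤ 1 / 2 := (abs_dg_le h0.le x).trans h1
    have h2 := mul_log_ge hu
    unfold aa
    rw [hg] at h2 ⊢
    nlinarith
  have hle : ∫ x in (0 : ℝ)..1, δ ^ 2 / 2 * (2 * x - 1) ^ 2 ≤ kap₀ δ := by
    unfold kap₀
    refine intervalIntegral.integral_mono_on zero_le_one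
      (Continuous.intervalIntegrable (by fun_prop) _ _)
      (Continuous.intervalIntegrable (by fun_prop) _ _) hpt
  rw [intervalIntegral.integral_const_mul, integral_sq_centered] at hle
  have : 0 < δ ^ 2 / 2 * (1 / 3) := by positivity
  linarith

theorem kapD_le_one (h0 : 0 ≤ δ) (h1 : δ ≤ 1 / 2) : kapD δ ≤ 1 := by
  unfold kapD
  have := intervalIntegral.norm_integral_le_of_norm_le_const (a := (0 : ℝ)) (b := 1)
    (f := fun t => aa δ (Tq δ 1 t)) (C := 1)
    (fun t _ => by simpa using abs_aa_le h0 h1 (Tq δ 1 t))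
  have h2 := (le_abs_self _).trans this
  simpa using h2

section planted

variable [Countable V]

/-- The `j`-th centred response at `v`. -/
def xiD (δ σ : ℝ) (v : V) (j : ℕ) (z : V × ℕ → ℝ) : ℝ :=
  aa δ (Tq δ σ (z (v, j))) - σ * kapD δ

omit [Countable V] in
lemma continuous_resp (h0 : 0 ≤ δ) (h1 : δ ≤ 1 / 2) (σ : ℝ) (v : V) (j : ℕ) :
    Continuous (fun z : V × ℕ → ℝ => aa δ (Tq δ σ (z (v, j)))) :=
  (continuous_aa h0 h1).comp
    ((continuous_Tq h0 h1).comp (continuous_const.prodMk (continuous_apply (v, j))))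

lemma continuous_xiD (h0 : 0 ≤ δ) (h1 : δ ≤ 1 / 2) (σ : ℝ) (v : V) (j : ℕ) :
    Continuous (xiD δ σ v j) :=
  (continuous_resp h0 h1 σ v j).sub continuous_const

omit [Countable V] in
lemma abs_xiD_le (h0 : 0 < δ) (h1 : δ ≤ 1 / 2) {σ : ℝ} (hσ : σ = 1 ∨ σ = -1) (v : V) (j : ℕ)
    (z : V × ℕ → ℝ) : |xiD δ σ v j z| ≤ 2 := by
  unfold xiD
  have h2 := abs_aa_le h0.le h1 (Tq δ σ (z (v, j)))
  have h3 : |σ * kapD δ| ≤ 1 := by
    have hk := kapD_pos h0 h1
    have hk1 := kapD_le_one h0.le h1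
    rcases hσ with rfl | rfl
    · rw [one_mul, abs_of_pos hk]; exact hk1
    · rw [neg_one_mul, abs_neg, abs_of_pos hk]; exact hk1
  have := abs_sub (aa δ (Tq δ σ (z (v, j)))) (σ * kapD δ)
  linarith

/-- The partial sums of the centred responses. -/
def sumD (δ σ : ℝ) (v : V) (n : ℕ) (z : V × ℕ → ℝ) : ℝ :=
  ∑ j ∈ Finset.range n, xiD δ σ v j z

lemma continuous_sumD (h0 : 0 ≤ δ) (h1 : δ ≤ 1 / 2) (σ : ℝ) (v : V) (n : ℕ) :
    Continuous (sumD δ σ v n) := by
  unfold sumD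
  exact continuous_finsetSum _ (fun j _ => continuous_xiD h0 h1 σ v j)

lemma abs_sumD_le (h0 : 0 < δ) (h1 : δ ≤ 1 / 2) {σ : ℝ} (hσ : σ = 1 ∨ σ = -1) (v : V) (n : ℕ)
    (z : V × ℕ → ℝ) : |sumD δ σ v n z| ≤ 2 * n := by
  unfold sumD
  refine (Finset.abs_sum_le_sum_abs _ _).trans ?_
  refine (Finset.sum_le_sum (fun j _ => abs_xiD_le h0 h1 hσ v j z)).trans ?_
  simp [mul_comm]

lemma cross_term_zero (h0 : 0 < δ) (h1 : δ ≤ 1 / 2) {σ : ℝ} (hσ : σ = 1 ∨ σ = -1) (v : V)
    (n : ℕ) : ∫ z, sumD δ σ v n z * xiD δ σ v n z ∂(PP (V × ℕ)) = 0 := by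
  have hS := continuous_sumD h0.le h1 σ v n
  have hX := continuous_xiD h0.le h1 σ v n
  have hbS := abs_sumD_le h0 h1 hσ v n
  have hbX := abs_xiD_le h0 h1 hσ v n
  have hmul : Continuous (fun z => sumD δ σ v n z * xiD δ σ v n z) := hS.mul hX
  have hmb : ∀ z, |sumD δ σ v n z * xiD δ σ v n z| ≤ 2 * n * 2 := by
    intro z
    rw [abs_mul]
    exact mul_le_mul (hbS z) (hbX z) (abs_nonneg _) (by positivity)
  rw [← integral_Pl [((v, n) : V × ℕ)] hmul hmb]
  have hind : ∀ c ∈ [((v, n) : V × ℕ)], IndepOf c (sumD δ σ v n) := by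
    intro c hc z t
    have hc' : c = (v, n) := by simpa using hc
    subst hc'
    unfold sumD
    refine Finset.sum_congr rfl (fun j hj => ?_)
    have hne : ((v, j) : V × ℕ) ≠ (v, n) := by
      intro e
      have : j = n := (Prod.mk.inj e).2
      subst this
      exact absurd (Finset.mem_range.1 hj) (lt_irrefl _)
    unfold xiD
    rw [Function.update_of_ne hne]
  rw [Pl_mul_indep _ hind]
  have hzero : ∀ z : V × ℕ → ℝ, Pl [((v, n) : V × ℕ)] (xiD δ σ v n) z = 0 := by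
    intro z
    have e1 : Pl [((v, n) : V × ℕ)] (xiD δ σ v n) z
        = ∫ t in (0 : ℝ)..1, xiD δ σ v n (Function.update z (v, n) t) := rfl
    rw [e1]
    have e2 : ∀ t : ℝ, xiD δ σ v n (Function.update z (v, n) t)
        = aa δ (Tq δ σ t) - σ * kapD δ := by
      intro t
      unfold xiD
      rw [Function.update_self]
    simp only [e2]
    have hc : Continuous (fun t : ℝ => aa δ (Tq δ σ t)) :=
      (continuous_aa h0.le h1).comp ((continuous_Tq h0.le h1).comp
        (continuous_const.prodMk continuous_id))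
    rw [intervalIntegral.integral_sub (hc.intervalIntegrable _ _)
      (continuous_const.intervalIntegrable _ _), integral_aa_Tq h0.le h1 hσ]
    simp
  simp [hzero]

lemma sum_variance (h0 : 0 < δ) (h1 : δ ≤ 1 / 2) {σ : ℝ} (hσ : σ = 1 ∨ σ = -1) (v : V) (n : ℕ) :
    ∫ z, sumD δ σ v n z ^ 2 ∂(PP (V × ℕ)) ≤ 4 * n := by
  induction n with
  | zero => simp [sumD]
  | succ n ih =>
    have hS := continuous_sumD h0.le h1 σ v n
    have hX := continuous_xiD h0.le h1 σ v n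
    have hbS := abs_sumD_le h0 h1 hσ v n
    have hbX := abs_xiD_le h0 h1 hσ v n
    have e : ∀ z, sumD δ σ v (n + 1) z ^ 2 = sumD δ σ v n z ^ 2
        + 2 * (sumD δ σ v n z * xiD δ σ v n z) + xiD δ σ v n z ^ 2 := by
      intro z
      have : sumD δ σ v (n + 1) z = sumD δ σ v n z + xiD δ σ v n z := by
        unfold sumD
        rw [Finset.sum_range_succ]
      rw [this]
      ring
    have hI1 : Integrable (fun z => sumD δ σ v n z ^ 2) (PP (V × ℕ)) := by
      refine integrable_of_cont_bdd (hS.pow 2) (C := (2 * (n : ℝ)) ^ 2) (fun z => ?_)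
      rw [abs_pow]
      exact pow_le_pow_left₀ (abs_nonneg _) (hbS z) 2
    have hI2 : Integrable (fun z => sumD δ σ v n z * xiD δ σ v n z) (PP (V × ℕ)) := by
      refine integrable_of_cont_bdd (hS.mul hX) (C := 2 * (n : ℝ) * 2) (fun z => ?_)
      rw [abs_mul]
      exact mul_le_mul (hbS z) (hbX z) (abs_nonneg _) (by positivity)
    have hI3 : Integrable (fun z => xiD δ σ v n z ^ 2) (PP (V × ℕ)) := by
      refine integrable_of_cont_bdd (hX.pow 2) (C := (2 : ℝ) ^ 2) (fun z => ?_)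
      rw [abs_pow]
      exact pow_le_pow_left₀ (abs_nonneg _) (hbX z) 2
    have hle3 : ∫ z, xiD δ σ v n z ^ 2 ∂(PP (V × ℕ)) ≤ 4 := by
      have h2 : ∫ z, xiD δ σ v n z ^ 2 ∂(PP (V × ℕ)) ≤ ∫ _z : V × ℕ → ℝ, (4 : ℝ) ∂(PP (V × ℕ)) := by
        refine integral_mono hI3 (integrable_const _) (fun z => ?_)
        have := pow_le_pow_left₀ (abs_nonneg _) (hbX z) 2
        rw [sq_abs] at this
        norm_num at this
        exact this
      simpa using h2
    simp only [e]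
    have h1' := integral_add (hI1.add (hI2.const_mul 2)) hI3
    have h2' := integral_add hI1 (hI2.const_mul 2)
    have h3' : ∫ z, 2 * (sumD δ σ v n z * xiD δ σ v n z) ∂(PP (V × ℕ))
        = 2 * ∫ z, sumD δ σ v n z * xiD δ σ v n z ∂(PP (V × ℕ)) := integral_const_mul _ _
    simp only [Pi.add_apply] at h1' h2'
    rw [h1', h2', h3', cross_term_zero h0 h1 hσ v n]
    push_cast
    linarith

/-- Law of large numbers for the planted array, at one site. -/
theorem planted_variance (h0 : 0 < δ) (h1 : δ ≤ 1 / 2) {σ : ℝ}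
    (hσ : σ = 1 ∨ σ = -1) (v : V) {n : ℕ} (hn : 1 ≤ n) :
    ∫ z, (clip (1 / (n * kapD δ) * ∑ j ∈ Finset.range n, aa δ (Tq δ σ (z (v, j)))) - σ) ^ 2
        ∂(PP (V × ℕ)) ≤ 4 / (n * kapD δ ^ 2) := by
  have hk := kapD_pos h0 h1
  have hnpos : (0 : ℝ) < n := by exact_mod_cast hn
  set K : ℝ := 1 / (n * kapD δ) with hK
  have hKpos : 0 < K := by rw [hK]; positivity
  have hcl : clip σ = σ := clip_of_abs_le (by rcases hσ with rfl | rfl <;> norm_num)
  have hpt : ∀ z : V × ℕ → ℝ,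
      (clip (K * ∑ j ∈ Finset.range n, aa δ (Tq δ σ (z (v, j)))) - σ) ^ 2
        ≤ K ^ 2 * sumD δ σ v n z ^ 2 := by
    intro z
    have hsum : ∑ j ∈ Finset.range n, aa δ (Tq δ σ (z (v, j)))
        = sumD δ σ v n z + n * (σ * kapD δ) := by
      unfold sumD xiD
      rw [Finset.sum_sub_distrib]
      simp
    have hlin : K * ∑ j ∈ Finset.range n, aa δ (Tq δ σ (z (v, j))) - σ = K * sumD δ σ v n z := by
      rw [hsum, hK]
      field_simp
      ring
    have h2 := abs_clip_sub_le (K * ∑ j ∈ Finset.range n, aa δ (Tq δ σ (z (v, j)))) σ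
    rw [hcl, hlin] at h2
    have h3 := pow_le_pow_left₀ (abs_nonneg _) h2 2
    rw [sq_abs, sq_abs, mul_pow] at h3
    exact h3
  have hInt : Integrable (fun z : V × ℕ → ℝ => K ^ 2 * sumD δ σ v n z ^ 2) (PP (V × ℕ)) := by
    refine (integrable_of_cont_bdd (G := fun z => sumD δ σ v n z ^ 2)
      ((continuous_sumD h0.le h1 σ v n).pow 2)
      (C := (2 * (n : ℝ)) ^ 2) (fun z => ?_)).const_mul _
    rw [abs_pow]
    exact pow_le_pow_left₀ (abs_nonneg _) (abs_sumD_le h0 h1 hσ v n z) 2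
  have hInt2 : Integrable (fun z : V × ℕ → ℝ =>
      (clip (K * ∑ j ∈ Finset.range n, aa δ (Tq δ σ (z (v, j)))) - σ) ^ 2) (PP (V × ℕ)) := by
    have hc : Continuous (fun z : V × ℕ → ℝ =>
        (clip (K * ∑ j ∈ Finset.range n, aa δ (Tq δ σ (z (v, j)))) - σ) ^ 2) := by
      refine ((continuous_clip.comp (continuous_const.mul ?_)).sub continuous_const).pow 2
      exact continuous_finsetSum _ (fun j _ => continuous_resp h0.le h1 σ v j)
    refine integrable_of_cont_bdd hc (C := (1 + 1) ^ 2) (fun z => ?_)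
    rw [abs_pow]
    refine pow_le_pow_left₀ (abs_nonneg _) ?_ 2
    have h3 : |σ| ≤ 1 := by rcases hσ with rfl | rfl <;> norm_num
    exact (abs_sub _ _).trans (add_le_add (abs_clip_le _) h3)
  have hmono := integral_mono hInt2 hInt hpt
  rw [integral_const_mul] at hmono
  have hv := sum_variance h0 h1 hσ v n
  calc _ ≤ K ^ 2 * ∫ z, sumD δ σ v n z ^ 2 ∂(PP (V × ℕ)) := hmono
    _ ≤ K ^ 2 * (4 * n) := mul_le_mul_of_nonneg_left hv (by positivity)
    _ = 4 / (n * kapD δ ^ 2) := by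
      rw [hK]
      field_simp

end planted

end Vale.Agent.P143
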