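import Vale.Agent.P143.Scheme

set_option autoImplicit false

noncomputable section
open scoped Classical
open MeasureTheory Filter Topology
open Vale.Agent.P161 (PP unif clip proj Tq Fq gg aa CC)

namespace Vale.Agent.P143

variable {E : Type*}

section equiv

variable (ρ : E ≃ E) {m m' : E → (E → ℝ) → ℝ}

/-- Transport of the scheme along a bijection of the sites. -/
lemma pastField_equiv (ℓ H A : E → ℝ) (f : E) :
    pastField (ℓ ∘ ρ.symm) (H ∘ ρ.symm) (A ∘ ρ.symm) (ρ f) = pastField ℓ H A f ∘ ρ.symm := by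
  funext g
  simp [pastField]

lemma pic_equiv (hm : ∀ f h, m' (ρ f) (h ∘ ρ.symm) = m f h) (ℓ H zj : E → ℝ) (k : ℕ) :
    ∀ f, pic m' (ℓ ∘ ρ.symm) (H ∘ ρ.symm) (zj ∘ ρ.symm) k (ρ f) = pic m ℓ H zj k f := by
  induction k with
  | zero => intro f; rfl
  | succ k ih =>
    intro f
    have e : pic m' (ℓ ∘ ρ.symm) (H ∘ ρ.symm) (zj ∘ ρ.symm) k = pic m ℓ H zj k ∘ ρ.symm := by
      funext g
      have := ih (ρ.symm g)
      simpa using this
    show resp m' (ℓ ∘ ρ.symm) (H ∘ ρ.symm) (zj ∘ ρ.symm)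
        (pic m' (ℓ ∘ ρ.symm) (H ∘ ρ.symm) (zj ∘ ρ.symm) k) (ρ f)
      = resp m ℓ H zj (pic m ℓ H zj k) f
    rw [e]
    unfold resp
    rw [pastField_equiv, hm]
    simp

lemma incr_equiv (hm : ∀ f h, m' (ρ f) (h ∘ ρ.symm) = m f h) (ℓ H zj : E → ℝ) (f : E) :
    incr m' (ℓ ∘ ρ.symm) (H ∘ ρ.symm) (zj ∘ ρ.symm) (ρ f) = incr m ℓ H zj f := by
  unfold incr
  simp only [pic_equiv ρ hm]

/-- The noise moved along `ρ`. -/
def zTrans (z : E × ℕ → ℝ) : E × ℕ → ℝ := fun c => z (ρ.symm c.1, c.2)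

lemma hrun_equiv (hm : ∀ f h, m' (ρ f) (h ∘ ρ.symm) = m f h) (ℓ : E → ℝ) (z : E × ℕ → ℝ) (j : ℕ) :
    ∀ f, hrun m' (ℓ ∘ ρ.symm) (zTrans ρ z) j (ρ f) = hrun m ℓ z j f := by
  induction j with
  | zero => intro f; rfl
  | succ j ih =>
    intro f
    have e : hrun m' (ℓ ∘ ρ.symm) (zTrans ρ z) j = hrun m ℓ z j ∘ ρ.symm := by
      funext g
      have := ih (ρ.symm g)
      simpa using this
    show hrun m' (ℓ ∘ ρ.symm) (zTrans ρ z) j (ρ f)
        + incr m' (ℓ ∘ ρ.symm) (hrun m' (ℓ ∘ ρ.symm) (zTrans ρ z) j)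
          (fun g => zTrans ρ z (g, j)) (ρ f)
      = hrun m ℓ z j f + incr m ℓ (hrun m ℓ z j) (fun g => z (g, j)) f
    rw [ih f, e]
    have e2 : (fun g => zTrans ρ z (g, j)) = (fun g => z (g, j)) ∘ ρ.symm := rfl
    rw [e2, incr_equiv ρ hm]

/-- The scheme is equivariant under bijections of the sites. -/
theorem Out_equiv (hm : ∀ f h, m' (ρ f) (h ∘ ρ.symm) = m f h) (ℓ : E → ℝ) (z : E × ℕ → ℝ) (f : E) :
    Out m' (ℓ ∘ ρ.symm) (zTrans ρ z) (ρ f) = Out m ℓ z f := by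
  unfold Out decR
  simp only [hrun_equiv ρ hm]

end equiv

end Vale.Agent.P143
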