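import Vale.Agent.P143.NoiseLaw
import Vale.Agent.P143.SchemeEquiv

set_option autoImplicit false

noncomputable section
open scoped Classical
open MeasureTheory Filter Topology
open Vale.Agent.P161 (PP unif splitU)

namespace Vale.Agent.P143

variable {V : Type*}

/-- The bijection of pairs of vertices induced by a bijection of vertices. -/
def sym2Equiv (π : V ≃ V) : Sym2 V ≃ Sym2 V where
  toFun := Sym2.map π
  invFun := Sym2.map π.symm
  left_inv e := by
    induction e using Sym2.ind with
    | _ a b => simp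
  right_inv e := by
    induction e using Sym2.ind with
    | _ a b => simp

@[simp] lemma sym2Equiv_mk (π : V ≃ V) (a b : V) : sym2Equiv π s(a, b) = s(π a, π b) := rfl
@[simp] lemma sym2Equiv_symm_mk (π : V ≃ V) (a b : V) :
    (sym2Equiv π).symm s(a, b) = s(π.symm a, π.symm b) := rfl

/-- The code of the graph moved by `π`. -/
def pushCode (π : V ≃ V) (g : Sym2 V → Bool) : Sym2 V → Bool := g ∘ (sym2Equiv π).symm

lemma nbr_push (π : V ≃ V) (g : Sym2 V → Bool) (x : V) :
    nbr (pushCode π g) (π x) = (nbr g x).map π.toEmbedding := by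
  have hset : {y | y ≠ π x ∧ pushCode π g s(π x, y) = true}
      = π '' {y | y ≠ x ∧ g s(x, y) = true} := by
    ext y
    simp only [Set.mem_ofPred_eq, Set.mem_image, pushCode, Function.comp, sym2Equiv_symm_mk,
      Equiv.symm_apply_apply]
    constructor
    · rintro ⟨h1, h2⟩
      refine ⟨π.symm y, ⟨fun e => h1 ?_, h2⟩, by simp⟩
      rw [← e]; simp
    · rintro ⟨z, ⟨h1, h2⟩, rfl⟩
      refine ⟨fun e => h1 (π.injective e), ?_⟩
      simpa using h2
  unfold nbr
  by_cases hfin : {y | y ≠ x ∧ g s(x, y) = true}.Finite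
  · have hfin' : {y | y ≠ π x ∧ pushCode π g s(π x, y) = true}.Finite := by
      rw [hset]; exact hfin.image _
    rw [dif_pos hfin, dif_pos hfin']
    ext y
    simp only [Set.Finite.mem_toFinset, Finset.mem_map, Equiv.coe_toEmbedding]
    rw [hset]
    simp only [Set.mem_image, Set.mem_ofPred_eq]
  · have hfin' : ¬ {y | y ≠ π x ∧ pushCode π g s(π x, y) = true}.Finite := by
      rw [hset]
      exact fun h => hfin (h.of_finite_image (π.injective.injOn))
    rw [dif_neg hfin, dif_neg hfin']
    simp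

lemma wball_push (π : V ≃ V) (g : Sym2 V → Bool) (x : V) (n : ℕ) :
    wball (pushCode π g) (π x) n = (wball g x n).map π.toEmbedding := by
  induction n with
  | zero => simp [wball]
  | succ n ih =>
    show wball (pushCode π g) (π x) n ∪ (wball (pushCode π g) (π x) n).biUnion (nbr (pushCode π g))
      = (wball g x n ∪ (wball g x n).biUnion (nbr g)).map π.toEmbedding
    rw [ih, Finset.map_union]
    congr 1
    ext y
    simp only [Finset.mem_biUnion, Finset.mem_map, Equiv.coe_toEmbedding]
    constructor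
    · rintro ⟨_, ⟨a, ha, rfl⟩, hy⟩
      rw [nbr_push, Finset.mem_map] at hy
      obtain ⟨z, hz, rfl⟩ := hy
      exact ⟨z, ⟨a, ha, hz⟩, rfl⟩
    · rintro ⟨z, ⟨a, ha, hz⟩, rfl⟩
      refine ⟨π a, ⟨a, ha, rfl⟩, ?_⟩
      rw [nbr_push, Finset.mem_map]
      exact ⟨z, hz, rfl⟩

lemma stage_push (π : V ≃ V) (g : Sym2 V → Bool) (x y : V) :
    stage (pushCode π g) (π x) (π y) = stage g x y := by
  unfold stage
  congr 1
  ext n
  simp only [Set.mem_ofPred_eq, wball_push]
  simp

lemma cnt_push (π : V ≃ V) (g : Sym2 V → Bool) (L : V → ℝ) (x y : V) :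
    cnt (pushCode π g) (L ∘ π.symm) (π x) (π y) = cnt g L x y := by
  unfold cnt
  rw [stage_push, wball_push, Finset.filter_map, Finset.card_map]
  congr 1
  ext w
  simp

lemma rnk_push (π : V ≃ V) (g : Sym2 V → Bool) (L : V → ℝ) (x y : V) :
    rnk (pushCode π g) (L ∘ π.symm) (π x) (π y) = rnk g L x y := by
  unfold rnk
  rw [stage_push, cnt_push]

/-- The noise streams moved by `π`. -/
def xiTrans (π : V ≃ V) (ξ : V × ℕ → ℝ) : V × ℕ → ℝ := fun c => ξ (π.symm c.1, c.2)

lemma ue_push (π : V ≃ V) (g : Sym2 V → Bool) (L : V → ℝ) (ξ : V × ℕ → ℝ) (e : Sym2 V) :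
    ue (pushCode π g) (L ∘ π.symm) (xiTrans π ξ) (sym2Equiv π e) = ue g L ξ e := by
  induction e using Sym2.ind with
  | _ a b =>
    rw [sym2Equiv_mk, ue_mk, ue_mk]
    unfold ue0
    simp only [Function.comp, Equiv.symm_apply_apply, rnk_push, xiTrans, EmbeddingLike.apply_eq_iff_eq]

lemma Bg_push (π : V ≃ V) (g : Sym2 V → Bool) (f : Sym2 V) (k : ℕ) :
    Bg (pushCode π g) (sym2Equiv π f) k = (Bg g f k).map (sym2Equiv π).toEmbedding := by
  induction f using Sym2.ind with
  | _ a b =>
    rw [sym2Equiv_mk, Bg_mk, Bg_mk, wball_push, wball_push, ← Finset.map_union]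
    ext e
    simp only [Finset.mem_map, Equiv.coe_toEmbedding, Finset.mem_sym2_iff]
    constructor
    · intro h
      refine ⟨(sym2Equiv π).symm e, ?_, by simp⟩
      induction e using Sym2.ind with
      | _ x y =>
        intro v hv
        rw [sym2Equiv_symm_mk] at hv
        have hx := h x (Sym2.mem_mk_left _ _)
        have hy := h y (Sym2.mem_mk_right _ _)
        obtain ⟨x', hx', rfl⟩ := hx
        obtain ⟨y', hy', rfl⟩ := hy
        rcases Sym2.mem_iff.1 hv with rfl | rfl
        · simpa using hx'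
        · simpa using hy'
    · rintro ⟨e', he', rfl⟩
      induction e' using Sym2.ind with
      | _ x y =>
        intro v hv
        rw [sym2Equiv_mk] at hv
        rcases Sym2.mem_iff.1 hv with rfl | rfl
        · exact ⟨x, he' x (Sym2.mem_mk_left _ _), rfl⟩
        · exact ⟨y, he' y (Sym2.mem_mk_right _ _), rfl⟩

section sites

variable {E : Type*} (ρ : E ≃ E)

lemma tiltExp_map (S : Finset E) (a : E → ℝ) (ω : E → Bool) :
    tiltExp (S.map ρ.toEmbedding) (a ∘ ρ.symm) (ω ∘ ρ.symm) = tiltExp S a ω := by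
  unfold tiltExp
  simp [Finset.sum_map]

lemma tiltMean_map {μ : Measure (E → Bool)} (S : Finset E) (a : E → ℝ) (e : E) :
    tiltMean (μ.map (fun ω => ω ∘ ρ.symm)) (S.map ρ.toEmbedding) (a ∘ ρ.symm) (ρ e)
      = tiltMean μ S a e := by
  have hm : Measurable (fun ω : E → Bool => ω ∘ ρ.symm) :=
    measurable_pi_iff.2 (fun f => measurable_pi_apply _)
  unfold tiltMean
  rw [integral_map hm.aemeasurable, integral_map hm.aemeasurable]
  · simp only [tiltExp_map, Function.comp, Equiv.symm_apply_apply]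
  · exact (measurable_tiltExp_right _ _).aestronglyMeasurable
  · exact ((measurable_spin_apply _).mul (measurable_tiltExp_right _ _)).aestronglyMeasurable

lemma mt_map {μ : Measure (E → Bool)} {B B' : E → ℕ → Finset E}
    (hB : ∀ f k, B' (ρ f) k = (B f k).map ρ.toEmbedding) (f : E) (h : E → ℝ) :
    mt (μ.map (fun ω => ω ∘ ρ.symm)) B' (ρ f) (h ∘ ρ.symm) = mt μ B f h := by
  unfold mt
  simp only [hB, tiltMean_map]

/-- The scheme on the noise of pairs is equivariant. -/
lemma OutP_equiv {m m' : E → (E → ℝ) → ℝ} (hm : ∀ f h, m' (ρ f) (h ∘ ρ.symm) = m f h)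
    (S : ℝ → ℕ → ℝ) (u : E → ℝ) (f : E) :
    Out m' (splitU S (u ∘ ρ.symm)).1 (splitU S (u ∘ ρ.symm)).2 (ρ f)
      = Out m (splitU S u).1 (splitU S u).2 f := by
  have := Out_equiv ρ hm (splitU S u).1 (splitU S u).2 f
  exact this

end sites

/-- The universal factor map. -/
def Phi [Countable V] (o : V) (S : ℝ → ℕ → ℝ) (g : Sym2 V → Bool) (U : V → ℝ) : Sym2 V → Bool :=
  OutP (mU o g) S (ue g (lab S U) (tailN S U))

/-- Joint measurability of the universal factor map. -/
theorem measurable_Phi [Countable V] (o : V) {S : ℝ → ℕ → ℝ} (hS : Measurable S) :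
    Measurable (fun q : (Sym2 V → Bool) × (V → ℝ) => Phi o S q.1 q.2) := by
  unfold Phi OutP
  have hu : ∀ e, Measurable (fun q : (Sym2 V → Bool) × (V → ℝ) =>
      ue q.1 (lab S q.2) (tailN S q.2) e) := fun e => measurable_ue hS e
  refine measurable_Out (X := (Sym2 V → Bool) × (V → ℝ)) (m := fun q => mU o q.1)
    (ℓ := fun q => (splitU S (ue q.1 (lab S q.2) (tailN S q.2))).1)
    (z := fun q => (splitU S (ue q.1 (lab S q.2) (tailN S q.2))).2) ?_ ?_ ?_
  · intro f
    have h : Measurable (fun p : ((Sym2 V → Bool) × (V → ℝ)) × (Sym2 V → ℝ) =>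
        ((p.1.1, p.2) : (Sym2 V → Bool) × (Sym2 V → ℝ))) :=
      (measurable_fst.comp measurable_fst).prodMk measurable_snd
    have h2 := (measurable_mU o f).comp h
    exact h2
  · intro e
    exact (measurable_pi_apply 0).comp (hS.comp (hu e))
  · intro c
    exact (measurable_pi_apply (c.2 + 1)).comp (hS.comp (hu c.1))

/-- `Phi` is the scheme of the measure `μ` whenever the limit cylinder probabilities are those
of `μ`. -/
lemma mU_eq_mt [Countable V] {o : V} {g : Sym2 V → Bool} {μ : Measure (Sym2 V → Bool)}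
    [IsProbabilityMeasure μ] (hq : ∀ D p, cylU o g D p = (μ (cylS D p)).toReal) :
    mU o g = mt μ (Bg g) := by
  funext f h
  unfold mU mt
  have e : cylU o g = fun D p => (μ (cylS D p)).toReal := by
    funext D p
    exact hq D p
  simp only [e, tiltMean_eq_tmF μ]

end Vale.Agent.P143
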