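import Vale.Agent.P143.Tilt
import Vale.Agent.P143.Balls

set_option autoImplicit false

noncomputable section
open scoped Classical
open MeasureTheory Filter Topology

namespace Vale.Agent.P143

variable {E : Type*}

/-- The configuration which is `true` exactly on `p`. -/
def pat (p : Finset E) : E → Bool := fun e => decide (e ∈ p)

/-- The cylinder event: `ω` agrees with `p` on `D`. -/
def cylS (D : Finset E) (p : E → Bool) : Set (E → Bool) := {ω | ∀ e ∈ D, ω e = p e}

lemma measurableSet_cylS (D : Finset E) (p : E → Bool) : MeasurableSet (cylS D p) := by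
  have : cylS D p = ⋂ e ∈ D, {ω | ω e = p e} := by
    ext ω
    simp [cylS]
  rw [this]
  refine Finset.measurableSet_biInter _ (fun e _ => ?_)
  have hm : Measurable (fun ω : E → Bool => ω e) := measurable_pi_apply e
  exact hm (measurableSet_singleton (p e))

/-- The integral of a function of finitely many spins, as a finite sum over patterns. -/
theorem integral_of_finite_dep (μ : Measure (E → Bool)) [IsFiniteMeasure μ] (D : Finset E)
    (ψ : (E → Bool) → ℝ) (hψ : ∀ ω ω' : E → Bool, (∀ e ∈ D, ω e = ω' e) → ψ ω = ψ ω') :
    ∫ ω, ψ ω ∂μ = ∑ p ∈ D.powerset, (μ (cylS D (pat p))).toReal * ψ (pat p) := by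
  have hpt : ∀ ω : E → Bool, ψ ω
      = ∑ p ∈ D.powerset, (cylS D (pat p)).indicator (fun _ => ψ (pat p)) ω := by
    intro ω
    set p₀ := D.filter (fun e => ω e = true) with hp₀
    have hmem : p₀ ∈ D.powerset := Finset.mem_powerset.2 (Finset.filter_subset _ _)
    have hω : ∀ e ∈ D, ω e = pat p₀ e := by
      intro e he
      simp only [pat, hp₀, Finset.mem_filter, he, true_and]
      cases h : ω e <;> simp
    rw [Finset.sum_eq_single p₀]
    · rw [Set.indicator_of_mem (show ω ∈ cylS D (pat p₀) from hω)]
      exact hψ _ _ hω
    · intro p hp hne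
      refine Set.indicator_of_notMem (fun hc => hne ?_) _
      have hsub := Finset.mem_powerset.1 hp
      ext e
      by_cases he : e ∈ D
      · have h1 := hc e he
        have h2 := hω e he
        rw [h1] at h2
        simpa [pat] using h2
      · constructor
        · exact fun h => absurd (hsub h) he
        · exact fun h => absurd (Finset.filter_subset _ _ h) he
    · exact fun h => absurd hmem h
  calc ∫ ω, ψ ω ∂μ
      = ∫ ω, ∑ p ∈ D.powerset, (cylS D (pat p)).indicator (fun _ => ψ (pat p)) ω ∂μ := by
        simp only [← hpt]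
    _ = ∑ p ∈ D.powerset, ∫ ω, (cylS D (pat p)).indicator (fun _ => ψ (pat p)) ω ∂μ := by
        refine integral_finsetSum _ (fun p _ => ?_)
        exact (integrable_const _).indicator (measurableSet_cylS _ _)
    _ = ∑ p ∈ D.powerset, (μ (cylS D (pat p))).toReal * ψ (pat p) := by
        refine Finset.sum_congr rfl (fun p _ => ?_)
        rw [integral_indicator (measurableSet_cylS _ _), integral_const]
        simp [Measure.real, smul_eq_mul]

/-- The finite set `S` together with the site `e`. -/
def insD (e : E) (S : Finset E) : Finset E := insert e S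

lemma mem_insD_self (e : E) (S : Finset E) : e ∈ insD e S := Finset.mem_insert_self _ _

lemma subset_insD (e : E) (S : Finset E) : S ⊆ insD e S := Finset.subset_insert _ _

/-- The tilted mean as a function of the cylinder probabilities `q`. -/
def tmF (q : Finset E → (E → Bool) → ℝ) (S : Finset E) (a : E → ℝ) (e : E) : ℝ :=
  (∑ p ∈ (insD e S).powerset, q (insD e S) (pat p) * (spin (pat p e) * tiltExp S a (pat p))) /
    ∑ p ∈ (insD e S).powerset, q (insD e S) (pat p) * tiltExp S a (pat p)

lemma tiltExp_dep {S D : Finset E} (h : S ⊆ D) (a : E → ℝ) {ω ω' : E → Bool}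
    (hω : ∀ e ∈ D, ω e = ω' e) : tiltExp S a ω = tiltExp S a ω' := by
  unfold tiltExp
  congr 1
  refine Finset.sum_congr rfl (fun f hf => ?_)
  rw [hω f (h hf)]

/-- The tilted mean of a probability measure, from its cylinder probabilities. -/
theorem tiltMean_eq_tmF (μ : Measure (E → Bool)) [IsProbabilityMeasure μ] (S : Finset E)
    (a : E → ℝ) (e : E) :
    tiltMean μ S a e = tmF (fun D p => (μ (cylS D p)).toReal) S a e := by
  unfold tiltMean tmF
  rw [integral_of_finite_dep μ (insD e S) (fun ω => spin (ω e) * tiltExp S a ω) (fun ω ω' h => by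
      show spin (ω e) * tiltExp S a ω = spin (ω' e) * tiltExp S a ω'
      rw [h e (mem_insD_self _ _), tiltExp_dep (subset_insD _ _) a h]),
    integral_of_finite_dep μ (insD e S) (fun ω => tiltExp S a ω) (fun ω ω' h => by
      exact tiltExp_dep (subset_insD _ _) a h)]

end Vale.Agent.P143
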