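import Vale.Agent.P143.Equivar

set_option autoImplicit false

noncomputable section
open scoped Classical
open MeasureTheory Filter Topology
open Vale.Agent.P161 (PP unif splitU)

namespace Vale.Agent.P143

variable {V : Type*} {G : SimpleGraph V}

lemma code_eq_true {e : Sym2 V} : code G e = true ↔ e ∈ G.edgeSet := by
  simp [code]

lemma code_mk_eq_true {x y : V} : code G s(x, y) = true ↔ G.Adj x y := by
  rw [code_eq_true, SimpleGraph.mem_edgeSet]

lemma nbrSet_code (x : V) : {y | y ≠ x ∧ code G s(x, y) = true} = G.neighborSet x := by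
  ext y
  simp only [Set.mem_ofPred_eq, code_mk_eq_true, SimpleGraph.mem_neighborSet]
  exact ⟨fun h => h.2, fun h => ⟨h.ne', h⟩⟩

lemma mem_nbr_code (hlf : ∀ v, (G.neighborSet v).Finite) {x y : V} :
    y ∈ nbr (code G) x ↔ G.Adj x y := by
  have hfin : {y | y ≠ x ∧ code G s(x, y) = true}.Finite := by
    rw [nbrSet_code]; exact hlf x
  unfold nbr
  rw [dif_pos hfin, Set.Finite.mem_toFinset, nbrSet_code]
  rfl

/-- Every vertex lies in a ball around every other vertex. -/
lemma exists_mem_wball (hc : G.Connected) (hlf : ∀ v, (G.neighborSet v).Finite) (x y : V) :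
    ∃ n, y ∈ wball (code G) x n := by
  have h := (SimpleGraph.reachable_iff_reflTransGen x y).1 (hc.preconnected x y)
  induction h with
  | refl => exact ⟨0, by simp [wball]⟩
  | tail _ hadj ih =>
    obtain ⟨n, hn⟩ := ih
    refine ⟨n + 1, ?_⟩
    show _ ∈ wball (code G) x n ∪ (wball (code G) x n).biUnion (nbr (code G))
    rw [Finset.mem_union, Finset.mem_biUnion]
    exact Or.inr ⟨_, hn, (mem_nbr_code hlf).2 hadj⟩

lemma code_map (π : V ≃ V) : code (G.map π.toEmbedding) = pushCode π (code G) := by
  funext e
  induction e using Sym2.ind with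
  | _ a b =>
    have h : (G.map π.toEmbedding).Adj a b ↔ G.Adj (π.symm a) (π.symm b) := by
      rw [SimpleGraph.map_adj]
      constructor
      · rintro ⟨u, v, huv, rfl, rfl⟩
        simpa using huv
      · intro h
        exact ⟨_, _, h, by simp, by simp⟩
    have h1 : code (G.map π.toEmbedding) s(a, b) = true ↔ pushCode π (code G) s(a, b) = true := by
      rw [code_mk_eq_true, h]
      simp only [pushCode, Function.comp, sym2Equiv_symm_mk]
      rw [code_mk_eq_true]
    cases h2 : code (G.map π.toEmbedding) s(a, b) <;>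
      cases h3 : pushCode π (code G) s(a, b) <;> simp_all

lemma connected_map (hc : G.Connected) (π : V ≃ V) : (G.map π.toEmbedding).Connected :=
  (SimpleGraph.Iso.connected_iff (SimpleGraph.Iso.map π G)).1 hc

lemma locallyFinite_map (hlf : ∀ v, (G.neighborSet v).Finite) (π : V ≃ V) (v : V) :
    ((G.map π.toEmbedding).neighborSet v).Finite := by
  have : (G.map π.toEmbedding).neighborSet v = π '' G.neighborSet (π.symm v) := by
    ext y
    simp only [SimpleGraph.mem_neighborSet, SimpleGraph.map_adj, Set.mem_image]
    constructor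
    · rintro ⟨a, b, hab, rfl, rfl⟩
      exact ⟨b, by simpa using hab, rfl⟩
    · rintro ⟨b, hb, rfl⟩
      exact ⟨π.symm v, b, hb, by simp, rfl⟩
  rw [this]
  exact (hlf _).image _

end Vale.Agent.P143
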