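import Vale.Agent.P143.LimitConv

set_option autoImplicit false

noncomputable section
open scoped Classical
open MeasureTheory Filter Topology

namespace Vale.Agent.P143

variable {V : Type*} {G : SimpleGraph V}

/-- The subgraph induced on the ball of radius `n` around `o`. -/
def ballSub (G : SimpleGraph V) (o : V) (n : ℕ) : G.Subgraph :=
  (⊤ : G.Subgraph).induce (wball (code G) o n : Set V)

lemma ballSub_verts (o : V) (n : ℕ) : ((wball (code G) o n : Finset V) : Set V) = (ballSub G o n).verts :=
  rfl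

lemma ballSub_adj {o : V} {n : ℕ} {x y : V} :
    (ballSub G o n).Adj x y ↔ x ∈ wball (code G) o n ∧ y ∈ wball (code G) o n ∧ G.Adj x y := by
  simp [ballSub]

lemma ballSub_mono (o : V) : Monotone (ballSub G o) := by
  intro m n h
  exact SimpleGraph.Subgraph.induce_mono_right (by exact_mod_cast wball_mono (code G) o h)

lemma self_mem_wball (o : V) (n : ℕ) : o ∈ wball (code G) o n :=
  wball_mono (code G) o (Nat.zero_le n) (by simp [wball])

/-- Balls are connected. -/
lemma ballSub_reach (hlf : ∀ v, (G.neighborSet v).Finite) (o : V) (n : ℕ) :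
    ∀ (y : V) (hy : y ∈ wball (code G) o n) (m : ℕ) (hm : n ≤ m),
      (ballSub G o m).coe.Reachable ⟨o, self_mem_wball o m⟩ ⟨y, wball_mono (code G) o hm hy⟩ := by
  induction n with
  | zero =>
    intro y hy m _
    have : y = o := by simpa [wball] using hy
    subst this
    exact SimpleGraph.Reachable.refl _
  | succ n ih =>
    intro y hy m hm
    rcases Finset.mem_union.1 hy with h | h
    · exact ih y h m (by omega)
    · obtain ⟨x, hx, hxy⟩ := Finset.mem_biUnion.1 h
      have hadj : G.Adj x y := (mem_nbr_code hlf).1 hxy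
      refine (ih x hx m (by omega)).trans (SimpleGraph.Adj.reachable ?_)
      rw [SimpleGraph.Subgraph.coe_adj, ballSub_adj]
      exact ⟨wball_mono (code G) o (by omega) hx, wball_mono (code G) o hm hy, hadj⟩

lemma ballSub_connected (hlf : ∀ v, (G.neighborSet v).Finite) (o : V) (n : ℕ) :
    (ballSub G o n).Connected := by
  refine ⟨?_⟩
  rw [SimpleGraph.connected_iff_exists_forall_reachable]
  refine ⟨⟨o, self_mem_wball o n⟩, ?_⟩
  rintro ⟨y, hy⟩
  exact ballSub_reach hlf o n y hy n le_rfl

/-- The balls form an exhaustion. -/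
theorem ballSub_exhaustion (hc : G.Connected) (hlf : ∀ v, (G.neighborSet v).Finite) (o : V) :
    IsExhaustion G (ballSub G o) where
  finite_verts n := (wball (code G) o n).finite_toSet
  connected n := ballSub_connected hlf o n
  mono := ballSub_mono o
  exhausts_verts v := exists_mem_wball hc hlf o v
  exhausts_edges e he := by
    induction e using Sym2.ind with
    | _ x y =>
      obtain ⟨k₁, h₁⟩ := exists_mem_wball hc hlf o x
      obtain ⟨k₂, h₂⟩ := exists_mem_wball hc hlf o y
      refine ⟨max k₁ k₂, ?_⟩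
      rw [SimpleGraph.Subgraph.mem_edgeSet, ballSub_adj]
      exact ⟨wball_mono (code G) o (le_max_left _ _) h₁, wball_mono (code G) o (le_max_right _ _) h₂, he⟩

lemma eFin_ballSub (o : V) (n : ℕ) :
    eFin (wball (code G) o n) (ballSub G o n) = edgesIn (code G) (wball (code G) o n) := by
  ext e
  unfold eFin tauF edgesIn
  simp only [Finset.mem_filter]
  refine and_congr_right (fun he => ?_)
  rw [Finset.mem_sym2_iff] at he
  induction e using Sym2.ind with
  | _ x y =>
    rw [SimpleGraph.Subgraph.mem_edgeSet, ballSub_adj, code_mk_eq_true]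
    constructor
    · rintro ⟨_, _, h⟩
      exact ⟨h, by simpa using h.ne⟩
    · rintro ⟨h, _⟩
      exact ⟨he x (Sym2.mem_mk_left _ _), he y (Sym2.mem_mk_right _ _), h⟩

/-- The cylinder probabilities of the balls converge to those of the free forest. -/
theorem tendsto_ustC {μ : Measure (Sym2 V → Bool)} (hμ : IsFUSF G μ)
    (hc : G.Connected) (hlf : ∀ v, (G.neighborSet v).Finite) (o : V) (D : Finset (Sym2 V))
    (p : Sym2 V → Bool) :
    Tendsto (fun n => ustC (wball (code G) o n) (edgesIn (code G) (wball (code G) o n)) D p) atTop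
      (𝓝 (μ {ω | ∀ e ∈ D, ω e = p e}).toReal) := by
  have h := hμ.limit _ (ballSub_exhaustion hc hlf o) D p
  refine h.congr (fun n => ?_)
  rw [ustCyl_eq (ballSub_verts o n), eFin_ballSub]

/-- The number of members of the family with a given pattern on `D`. -/
def cntP (𝒯 : Finset (Finset (Sym2 V))) (D : Finset (Sym2 V)) (p : Sym2 V → Bool) : ℕ :=
  (𝒯.filter (fun T => ∀ e ∈ D, (e ∈ T ↔ p e = true))).card

/-- The pattern frequencies of a finite family. -/
def freq (𝒯 : Finset (Finset (Sym2 V))) (D : Finset (Sym2 V)) (p : Sym2 V → Bool) : ℝ :=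
  (cntP 𝒯 D p : ℝ) / (𝒯.card : ℝ)

/-- A sum over a family of edge sets of a function of the trace on `D`, grouped by patterns. -/
lemma sum_by_pattern (𝒯 : Finset (Finset (Sym2 V))) (D : Finset (Sym2 V))
    (Ψ : Finset (Sym2 V) → ℝ) (hΨ : ∀ T T' : Finset (Sym2 V), (∀ e ∈ D, (e ∈ T ↔ e ∈ T')) → Ψ T = Ψ T') :
    ∑ T ∈ 𝒯, Ψ T = ∑ p ∈ D.powerset, (cntP 𝒯 D (pat p) : ℝ) * Ψ p := by
  have hmaps : ∀ T ∈ 𝒯, D.filter (· ∈ T) ∈ D.powerset := fun T _ =>
    Finset.mem_powerset.2 (Finset.filter_subset _ _)
  rw [← Finset.sum_fiberwise_of_maps_to hmaps]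
  refine Finset.sum_congr rfl (fun p hp => ?_)
  have hsub := Finset.mem_powerset.1 hp
  have hfilt : 𝒯.filter (fun T => D.filter (· ∈ T) = p)
      = 𝒯.filter (fun T => ∀ e ∈ D, (e ∈ T ↔ pat p e = true)) := by
    ext T
    simp only [Finset.mem_filter]
    refine and_congr_right (fun _ => ?_)
    constructor
    · rintro rfl e he
      simp [pat, he]
    · intro h
      ext e
      simp only [Finset.mem_filter]
      constructor
      · rintro ⟨he, heT⟩
        have := (h e he).1 heT
        simpa [pat] using this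
      · intro he
        have he' := hsub he
        refine ⟨he', (h e he').2 ?_⟩
        simpa [pat] using he
  have h1 : ∀ T ∈ 𝒯.filter (fun T => D.filter (· ∈ T) = p), Ψ T = Ψ p := by
    intro T hT
    refine hΨ T p (fun e he => ?_)
    have h2 := (Finset.mem_filter.1 hT).2
    rw [← h2, Finset.mem_filter]
    simp [he]
  rw [Finset.sum_congr rfl h1, Finset.sum_const, nsmul_eq_mul, hfilt]
  rfl

lemma spT_eq (f : Sym2 V) (T : Finset (Sym2 V)) : spT f T = spin (pat T f) := by
  unfold spT spin pat
  by_cases h : f ∈ T <;> simp [h]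

lemma wtT_eq (S : Finset (Sym2 V)) (a : Sym2 V → ℝ) (T : Finset (Sym2 V)) :
    wtT S a T = tiltExp S a (pat T) := by
  unfold wtT tiltExp
  simp only [spT_eq]

lemma spT_congr {f : Sym2 V} {T T' : Finset (Sym2 V)} (h : f ∈ T ↔ f ∈ T') : spT f T = spT f T' := by
  unfold spT
  by_cases hh : f ∈ T'
  · simp [hh, h.2 hh]
  · have : f ∉ T := fun h' => hh (h.1 h')
    simp [hh, this]

/-- The tilted mean of a family of edge sets, from its pattern frequencies. -/
theorem tmean_eq_tmF {𝒯 : Finset (Finset (Sym2 V))} (h𝒯 : 𝒯.Nonempty) (S : Finset (Sym2 V))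
    (a : Sym2 V → ℝ) (e : Sym2 V) : tmean 𝒯 S a e = tmF (freq 𝒯) S a e := by
  have hcard : (0 : ℝ) < 𝒯.card := by exact_mod_cast Finset.card_pos.2 h𝒯
  unfold tmean tmF freq
  have hdep : ∀ (T T' : Finset (Sym2 V)), (∀ f ∈ insD e S, (f ∈ T ↔ f ∈ T')) →
      wtT S a T = wtT S a T' := by
    intro T T' h
    unfold wtT
    congr 1
    refine Finset.sum_congr rfl (fun f hf => ?_)
    rw [spT_congr (h f (subset_insD _ _ hf))]
  have hs : ∀ (T T' : Finset (Sym2 V)), (∀ f ∈ insD e S, (f ∈ T ↔ f ∈ T')) →
      spT e T = spT e T' := fun T T' h => spT_congr (h e (mem_insD_self _ _))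
  rw [sum_by_pattern 𝒯 (insD e S) (fun T => spT e T * wtT S a T) (fun T T' h => by
      show spT e T * wtT S a T = spT e T' * wtT S a T'
      rw [hdep T T' h, hs T T' h]),
    sum_by_pattern 𝒯 (insD e S) (fun T => wtT S a T) hdep]
  have e1 : ∀ p : Finset (Sym2 V), (cntP 𝒯 (insD e S) (pat p) : ℝ) / (𝒯.card : ℝ)
        * (spin (pat p e) * tiltExp S a (pat p))
      = (cntP 𝒯 (insD e S) (pat p) : ℝ) * (spT e p * wtT S a p) / (𝒯.card : ℝ) := by
    intro p
    rw [spT_eq, wtT_eq]
    ring
  have e2 : ∀ p : Finset (Sym2 V), (cntP 𝒯 (insD e S) (pat p) : ℝ) / (𝒯.card : ℝ)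
        * tiltExp S a (pat p)
      = (cntP 𝒯 (insD e S) (pat p) : ℝ) * wtT S a p / (𝒯.card : ℝ) := by
    intro p
    rw [wtT_eq]
    ring
  simp only [e1, e2]
  rw [← Finset.sum_div, ← Finset.sum_div, div_div_div_cancel_right₀ hcard.ne']

lemma freq_treesOf (W : Finset V) (F D : Finset (Sym2 V)) (p : Sym2 V → Bool) :
    freq (treesOf W F) D p = ustC W F D p := rfl

/-- The limiting tilted means are Lipschitz. -/
theorem tiltLip_of_isFUSF {μ : Measure (Sym2 V → Bool)} (hμ : IsFUSF G μ)
    (hc : G.Connected) (hlf : ∀ v, (G.neighborSet v).Finite) : TiltLip μ := by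
  intro S a a' e M hM h
  have hprob := hμ.prob
  obtain ⟨o⟩ := hc.nonempty
  -- the quantities at level n
  set q : ℕ → Finset (Sym2 V) → (Sym2 V → Bool) → ℝ := fun n D p =>
    ustC (wball (code G) o n) (edgesIn (code G) (wball (code G) o n)) D p with hq
  have hlim : ∀ D p, Tendsto (fun n => q n D p) atTop (𝓝 (μ (cylS D p)).toReal) :=
    fun D p => tendsto_ustC hμ hc hlf o D p
  -- convergence of tmF
  have hconv : ∀ b : Sym2 V → ℝ, Tendsto (fun n => tmF (q n) S b e) atTop
      (𝓝 (tiltMean μ S b e)) := by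
    intro b
    rw [tiltMean_eq_tmF μ]
    unfold tmF
    refine Tendsto.div ?_ ?_ ?_
    · exact tendsto_finsetSum _ (fun p _ => (hlim _ _).mul_const _)
    · exact tendsto_finsetSum _ (fun p _ => (hlim _ _).mul_const _)
    · have hd := tiltDen_pos μ S b
      rw [integral_of_finite_dep μ (insD e S) (fun ω => tiltExp S b ω) (fun ω ω' h => by
        exact tiltExp_dep (subset_insD _ _) b h)] at hd
      exact hd.ne'
  have hbound : ∀ n, |tmF (q n) S a e - tmF (q n) S a' e| ≤ 2 * M := by
    intro n
    have hW := ballSub_verts (G := G) o n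
    have hne : (treesOf (wball (code G) o n) (edgesIn (code G) (wball (code G) o n))).Nonempty := by
      rw [← eFin_ballSub]
      exact treesOf_nonempty hW (ballSub_connected hlf o n)
    have hF : ∀ f ∈ edgesIn (code G) (wball (code G) o n), ¬ f.IsDiag := by
      intro f hf
      rw [← eFin_ballSub] at hf
      exact eFin_not_diag hf
    have hWF : ∀ f ∈ edgesIn (code G) (wball (code G) o n), ∀ v ∈ f, v ∈ wball (code G) o n := by
      intro f hf
      rw [← eFin_ballSub] at hf
      exact eFin_inside hf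
    have := tmean_lip _ _ hF hWF hne S a a' e M hM h
    rw [tmean_eq_tmF hne, tmean_eq_tmF hne] at this
    have e1 : freq (treesOf (wball (code G) o n) (edgesIn (code G) (wball (code G) o n))) = q n := by
      funext D p
      exact freq_treesOf _ _ _ _
    rw [e1] at this
    exact this
  exact le_of_tendsto (((hconv a).sub (hconv a')).abs) (Filter.Eventually.of_forall hbound)

end Vale.Agent.P143
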