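import Vale.Agent.P143.UstMono
import Vale.Agent.P143.GraphFacts

set_option autoImplicit false

noncomputable section
open scoped Classical
open MeasureTheory Filter Topology

namespace Vale.Agent.P143

variable {V : Type*} {G : SimpleGraph V}

/-- The edges of the subgraph `T` inside the finite vertex set `W`. -/
def tauF (W : Finset V) (T : G.Subgraph) : Finset (Sym2 V) := W.sym2.filter (· ∈ T.edgeSet)

lemma mem_tauF_of_verts {W : Finset V} {T : G.Subgraph} (hT : T.verts ⊆ W) {e : Sym2 V} :
    e ∈ tauF W T ↔ e ∈ T.edgeSet := by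
  unfold tauF
  rw [Finset.mem_filter, Finset.mem_sym2_iff]
  constructor
  · exact fun h => h.2
  · exact fun h => ⟨fun v hv => hT (T.mem_verts_of_mem_edge h hv), h⟩

/-- The edge set of a subgraph as a finset, given a finite vertex set. -/
lemma tauF_not_diag {W : Finset V} {T : G.Subgraph} {e : Sym2 V} (h : e ∈ tauF W T) : ¬ e.IsDiag := by
  have h2 : e ∈ T.edgeSet := (Finset.mem_filter.1 h).2
  exact G.not_isDiag_of_mem_edgeSet (T.edgeSet_subset h2)

lemma tauF_inside (W : Finset V) (T : G.Subgraph) {e : Sym2 V} (h : e ∈ tauF W T) :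
    ∀ v ∈ e, v ∈ W :=
  Finset.mem_sym2_iff.1 (Finset.mem_filter.1 h).1

/-- A spanning tree subgraph gives a spanning tree in the sense of edge sets. -/
lemma isSpT_tauF {H T : G.Subgraph} {W : Finset V} (hW : (W : Set V) = H.verts)
    (hT : IsSpanningTree H T) : IsSpT W (tauF W T) := by
  obtain ⟨_, hv, htree⟩ := hT
  have hW' : (W : Set V) = T.verts := hW.trans hv.symm
  refine ⟨fun e he => tauF_inside W T he, ?_⟩
  have iso : ((SimpleGraph.fromEdgeSet (tauF W T : Set (Sym2 V))).induce (W : Set V)) ≃g T.coe :=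
    { toEquiv := Equiv.setCongr hW'
      map_rel_iff' := by
        intro a b
        have hsub : T.verts ⊆ (W : Set V) := hW'.symm.subset
        simp only [Equiv.setCongr_apply, SimpleGraph.Subgraph.coe_adj, SimpleGraph.comap_adj,
          Function.Embedding.subtype_apply, SimpleGraph.fromEdgeSet_adj, Finset.mem_coe]
        rw [mem_tauF_of_verts hsub, SimpleGraph.Subgraph.mem_edgeSet]
        constructor
        · intro h
          exact ⟨h, (T.adj_sub h).ne⟩
        · exact fun h => h.1 }
  exact (SimpleGraph.Iso.isTree_iff iso).2 htree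

/-- The subgraph with the vertices of `H` and the edges `T'`. -/
def subOf (H : G.Subgraph) (T' : Finset (Sym2 V)) (hT' : ∀ e ∈ T', e ∈ H.edgeSet) : G.Subgraph where
  verts := H.verts
  Adj x y := s(x, y) ∈ T'
  adj_sub h := H.adj_sub ((SimpleGraph.Subgraph.mem_edgeSet).1 (hT' _ h))
  edge_vert h := H.edge_vert ((SimpleGraph.Subgraph.mem_edgeSet).1 (hT' _ h))
  symm := ⟨fun x y h => by
    show s(y, x) ∈ T'
    rwa [Sym2.eq_swap]⟩

lemma edgeSet_subOf (H : G.Subgraph) (T' : Finset (Sym2 V)) (hT' : ∀ e ∈ T', e ∈ H.edgeSet)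
    {e : Sym2 V} : e ∈ (subOf H T' hT').edgeSet ↔ e ∈ T' := by
  induction e using Sym2.ind with
  | _ x y =>
    rw [SimpleGraph.Subgraph.mem_edgeSet]
    rfl

/-- An edge-set spanning tree gives a spanning tree subgraph. -/
lemma isSpanningTree_subOf {H : G.Subgraph} {W : Finset V} (hW : (W : Set V) = H.verts)
    {T' : Finset (Sym2 V)} (hT' : ∀ e ∈ T', e ∈ H.edgeSet) (h : IsSpT W T') :
    IsSpanningTree H (subOf H T' hT') := by
  refine ⟨⟨le_rfl, fun x y hxy => ?_⟩, rfl, ?_⟩
  · exact (SimpleGraph.Subgraph.mem_edgeSet).1 (hT' _ hxy)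
  · have iso : ((SimpleGraph.fromEdgeSet (T' : Set (Sym2 V))).induce (W : Set V))
        ≃g (subOf H T' hT').coe :=
      { toEquiv := Equiv.setCongr hW
        map_rel_iff' := by
          intro a b
          simp only [SimpleGraph.Subgraph.coe_adj, SimpleGraph.comap_adj,
            Function.Embedding.subtype_apply, SimpleGraph.fromEdgeSet_adj, Finset.mem_coe]
          constructor
          · intro hab
            refine ⟨hab, fun e => ?_⟩
            have h1 : s(a.1, b.1) ∈ H.edgeSet := hT' _ hab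
            rw [SimpleGraph.Subgraph.mem_edgeSet] at h1
            exact (H.adj_sub h1).ne e
          · exact fun hab => hab.1 }
    exact (SimpleGraph.Iso.isTree_iff iso).1 h.2

/-- The edges of `H` as a finset of pairs. -/
def eFin (W : Finset V) (H : G.Subgraph) : Finset (Sym2 V) := tauF W H

/-- Spanning tree subgraphs are in bijection with the spanning trees of the edge-set model. -/
theorem ncard_trees {H : G.Subgraph} {W : Finset V} (hW : (W : Set V) = H.verts)
    (Q : Set (Sym2 V) → Prop) :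
    {T : G.Subgraph | IsSpanningTree H T ∧ Q T.edgeSet}.ncard
      = ((treesOf W (eFin W H)).filter (fun T' : Finset (Sym2 V) => Q (T' : Set (Sym2 V)))).card := by
  rw [← Set.ncard_coe_finset]
  have hsub : H.verts ⊆ (W : Set V) := hW.symm.subset
  have hedge : ∀ {T : G.Subgraph}, IsSpanningTree H T → ((tauF W T : Finset (Sym2 V)) : Set (Sym2 V))
      = T.edgeSet := by
    intro T hT
    ext e
    have hv : T.verts ⊆ (W : Set V) := by rw [hT.2.1]; exact hsub
    simp only [Finset.mem_coe]
    exact mem_tauF_of_verts hv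
  refine Set.ncard_congr (fun T _ => tauF W T) ?_ ?_ ?_
  · rintro T ⟨hT, hQ⟩
    refine Finset.mem_coe.2 (Finset.mem_filter.2 ⟨mem_treesOf.2 ⟨?_, isSpT_tauF hW hT⟩, ?_⟩)
    · intro e he
      have he' : e ∈ T.edgeSet := (Finset.mem_filter.1 he).2
      exact Finset.mem_filter.2 ⟨(Finset.mem_filter.1 he).1,
        SimpleGraph.Subgraph.edgeSet_mono hT.1 he'⟩
    · rw [hedge hT]; exact hQ
  · rintro T₁ T₂ ⟨hT₁, _⟩ ⟨hT₂, _⟩ h
    have h1 := hedge hT₁
    have h2 := hedge hT₂
    rw [h] at h1
    have he : T₁.edgeSet = T₂.edgeSet := h1.symm.trans h2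
    refine SimpleGraph.Subgraph.ext ?_ ?_
    · exact hT₁.2.1.trans hT₂.2.1.symm
    · funext x y
      apply propext
      rw [← SimpleGraph.Subgraph.mem_edgeSet, ← SimpleGraph.Subgraph.mem_edgeSet, he]
  · intro T' hT'
    obtain ⟨hT1, hQ⟩ := Finset.mem_filter.1 (Finset.mem_coe.1 hT')
    obtain ⟨hsubF, hsp⟩ := mem_treesOf.1 hT1
    have hT'e : ∀ e ∈ T', e ∈ H.edgeSet := fun e he => (Finset.mem_filter.1 (hsubF he)).2
    have hS := isSpanningTree_subOf hW hT'e hsp
    have hee : (subOf H T' hT'e).edgeSet = (T' : Set (Sym2 V)) := by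
      ext e
      exact edgeSet_subOf H T' hT'e
    refine ⟨subOf H T' hT'e, ⟨hS, by rw [hee]; exact hQ⟩, ?_⟩
    ext e
    have hv : (subOf H T' hT'e).verts ⊆ (W : Set V) := hsub
    rw [mem_tauF_of_verts hv, edgeSet_subOf]

/-- The cylinder probabilities of a uniform spanning tree of a subgraph. -/
theorem ustCyl_eq {H : G.Subgraph} {W : Finset V} (hW : (W : Set V) = H.verts)
    (D : Finset (Sym2 V)) (p : Sym2 V → Bool) :
    ustCyl H D p = ustC W (eFin W H) D p := by
  unfold ustCyl ustC
  have h1 := ncard_trees hW (fun E => ∀ e ∈ D, (e ∈ E ↔ p e = true))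
  have h2 := ncard_trees hW (fun _ => True)
  simp only [and_true, Finset.filter_true] at h2
  simp only [Finset.mem_coe] at h1
  rw [h1, h2]
  refine congrArg₂ (· / ·) (congrArg _ (congrArg _ ?_)) rfl
  ext T
  simp only [Finset.mem_filter]

/-- A connected finite subgraph has a spanning tree. -/
theorem treesOf_nonempty {H : G.Subgraph} {W : Finset V} (hW : (W : Set V) = H.verts)
    (hc : H.Connected) : (treesOf W (eFin W H)).Nonempty := by
  have : Finite H.verts := by rw [← hW]; exact W.finite_toSet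
  obtain ⟨T₀, hT₀, htree⟩ := hc.coe.exists_isTree_le
  let T : G.Subgraph :=
    { verts := H.verts
      Adj := fun x y => ∃ (hx : x ∈ H.verts) (hy : y ∈ H.verts), T₀.Adj ⟨x, hx⟩ ⟨y, hy⟩
      adj_sub := by
        rintro x y ⟨hx, hy, h⟩
        exact H.adj_sub (hT₀ h)
      edge_vert := by
        rintro x y ⟨hx, _, _⟩
        exact hx
      symm := by
        exact ⟨fun x y ⟨hx, hy, h⟩ => ⟨hy, hx, h.symm⟩⟩ }
  have hTH : IsSpanningTree H T := by
    refine ⟨⟨le_rfl, ?_⟩, rfl, ?_⟩
    · rintro x y ⟨hx, hy, h⟩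
      exact hT₀ h
    · have iso : T₀ ≃g T.coe :=
        { toEquiv := Equiv.refl _
          map_rel_iff' := by
            rintro ⟨a, ha⟩ ⟨b, hb⟩
            simp only [Equiv.refl_apply, SimpleGraph.Subgraph.coe_adj]
            constructor
            · rintro ⟨_, _, h⟩
              exact h
            · intro h
              exact ⟨ha, hb, h⟩ }
      exact (SimpleGraph.Iso.isTree_iff iso).1 htree
  have h := ncard_trees hW (fun _ => True)
  simp only [and_true, Finset.filter_true] at h
  have hne : {T : G.Subgraph | IsSpanningTree H T}.Nonempty := ⟨T, hTH⟩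
  have hfinite : {T : G.Subgraph | IsSpanningTree H T}.Finite := by
    by_contra hinf
    have h0 : {T : G.Subgraph | IsSpanningTree H T}.ncard = 0 := Set.Infinite.ncard hinf
    rw [h0] at h
    have hemp : treesOf W (eFin W H) = ∅ := Finset.card_eq_zero.1 h.symm
    have hmem : tauF W T ∈ treesOf W (eFin W H) := by
      rw [mem_treesOf]
      refine ⟨?_, isSpT_tauF hW hTH⟩
      intro e he
      have he' : e ∈ T.edgeSet := (Finset.mem_filter.1 he).2
      exact Finset.mem_filter.2 ⟨(Finset.mem_filter.1 he).1,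
        SimpleGraph.Subgraph.edgeSet_mono hTH.1 he'⟩
    rw [hemp] at hmem
    simp at hmem
  have hpos : 0 < {T : G.Subgraph | IsSpanningTree H T}.ncard := (Set.ncard_pos hfinite).2 hne
  rw [h] at hpos
  exact Finset.card_pos.1 hpos

lemma eFin_not_diag {W : Finset V} {H : G.Subgraph} {e : Sym2 V} (h : e ∈ eFin W H) : ¬ e.IsDiag :=
  tauF_not_diag h

lemma eFin_inside {W : Finset V} {H : G.Subgraph} {e : Sym2 V} (h : e ∈ eFin W H) :
    ∀ v ∈ e, v ∈ W := tauF_inside W H h

end Vale.Agent.P143
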