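import Vale.Agent.P143.LimitBall

set_option autoImplicit false

/-! Existence of the free uniform spanning forest (the limit layer, **L1**). -/

noncomputable section
open scoped Classical ENNReal
open MeasureTheory Filter Topology

namespace Vale.Agent.P143

variable {V : Type*} {G : SimpleGraph V}

/-! ### Inclusion-exclusion for cylinders -/

/-- Inclusion-exclusion on a family of edge sets. -/
lemma card_cyl_eq (𝒯 : Finset (Finset (Sym2 V))) (D : Finset (Sym2 V)) (p : Sym2 V → Bool) :
    (((𝒯.filter (fun T => ∀ e ∈ D, (e ∈ T ↔ p e = true))).card : ℝ)) =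
      ∑ B ∈ (D.filter (fun e => p e = false)).powerset, (-1 : ℝ) ^ B.card *
        ((𝒯.filter (fun T => (D.filter (fun e => p e = true)) ∪ B ⊆ T)).card : ℝ) := by
  set P := D.filter (fun e => p e = true) with hP
  set Q := D.filter (fun e => p e = false) with hQ
  have hL : (((𝒯.filter (fun T => ∀ e ∈ D, (e ∈ T ↔ p e = true))).card : ℝ)) =
      ∑ T ∈ 𝒯, if (∀ e ∈ D, (e ∈ T ↔ p e = true)) then (1 : ℝ) else 0 := by
    rw [Finset.sum_boole]
    congr!
  have hR : ∀ B : Finset (Sym2 V), (-1 : ℝ) ^ B.card *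
      ((𝒯.filter (fun T => P ∪ B ⊆ T)).card : ℝ) =
      ∑ T ∈ 𝒯, (-1 : ℝ) ^ B.card * (if P ∪ B ⊆ T then (1 : ℝ) else 0) := by
    intro B
    rw [← Finset.mul_sum, Finset.sum_boole]
  rw [hL, Finset.sum_congr rfl (fun B _ => hR B), Finset.sum_comm]
  refine Finset.sum_congr rfl fun T _ => ?_
  by_cases hPT : P ⊆ T
  · have h1 : ∀ B ∈ Q.powerset, (-1 : ℝ) ^ B.card * (if P ∪ B ⊆ T then (1 : ℝ) else 0) =
        if B ⊆ T then (-1 : ℝ) ^ B.card else 0 := by
      intro B _
      by_cases hB : B ⊆ T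
      · rw [if_pos (Finset.union_subset hPT hB), if_pos hB, mul_one]
      · have : ¬ P ∪ B ⊆ T := fun h => hB (Finset.union_subset_right h)
        rw [if_neg this, if_neg hB, mul_zero]
    rw [Finset.sum_congr rfl h1, ← Finset.sum_filter]
    have h2 : Q.powerset.filter (fun B => B ⊆ T) = (Q ∩ T).powerset := by
      ext B
      simp only [Finset.mem_filter, Finset.mem_powerset, Finset.subset_inter_iff]
    rw [h2]
    have h3 := Finset.sum_powerset_neg_one_pow_card (x := Q ∩ T)
    have h4 : ∑ m ∈ (Q ∩ T).powerset, (-1 : ℝ) ^ m.card =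
        ((∑ m ∈ (Q ∩ T).powerset, (-1 : ℤ) ^ m.card : ℤ) : ℝ) := by
      push_cast
      rfl
    rw [h4, h3]
    by_cases hemp : Q ∩ T = ∅
    · rw [if_pos hemp]
      rw [if_pos]
      · simp
      · intro e he
        cases hpe : p e with
        | true =>
          simp only [iff_true]
          exact hPT (Finset.mem_filter.2 ⟨he, hpe⟩)
        | false =>
          simp only [Bool.false_eq_true, iff_false]
          intro heT
          have : e ∈ Q ∩ T := Finset.mem_inter.2 ⟨Finset.mem_filter.2 ⟨he, hpe⟩, heT⟩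
          rw [hemp] at this
          simp at this
    · rw [if_neg hemp, if_neg]
      · simp
      · intro hall
        obtain ⟨e, he⟩ := Finset.nonempty_iff_ne_empty.2 hemp
        obtain ⟨h5, h6⟩ := Finset.mem_inter.1 he
        obtain ⟨h7, h8⟩ := Finset.mem_filter.1 h5
        have := (hall e h7).1 h6
        rw [h8] at this
        exact Bool.false_ne_true this
  · have h1 : ¬ ∀ e ∈ D, (e ∈ T ↔ p e = true) := by
      intro hall
      apply hPT
      intro e he
      obtain ⟨h7, h8⟩ := Finset.mem_filter.1 he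
      exact (hall e h7).2 h8
    rw [if_neg h1]
    symm
    apply Finset.sum_eq_zero
    intro B _
    rw [if_neg (fun h => hPT (Finset.union_subset_left h)), mul_zero]

/-- The cylinder probabilities are signed sums of inclusion probabilities. -/
lemma ustC_eq_sum (W : Finset V) (F D : Finset (Sym2 V)) (p : Sym2 V → Bool) :
    ustC W F D p = ∑ B ∈ (D.filter (fun e => p e = false)).powerset, (-1 : ℝ) ^ B.card *
        incP (treesOf W F) ((D.filter (fun e => p e = true)) ∪ B) := by
  unfold ustC incP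
  rw [card_cyl_eq, Finset.sum_div]
  refine Finset.sum_congr rfl fun B _ => ?_
  rw [mul_div_assoc]

/-! ### Inclusion probabilities along exhaustions -/

lemma mem_eFin {W : Finset V} {H : G.Subgraph} (hW : (W : Set V) = H.verts) {e : Sym2 V} :
    e ∈ eFin W H ↔ e ∈ H.edgeSet :=
  mem_tauF_of_verts (T := H) hW.symm.subset

lemma incP_eFin_mono {H H' : G.Subgraph} {W W' : Finset V} (hW : (W : Set V) = H.verts)
    (hW' : (W' : Set V) = H'.verts) (hc : H.Connected) (hc' : H'.Connected)
    (hV : H.verts ⊆ H'.verts) (hE : H.edgeSet ⊆ H'.edgeSet) (A : Finset (Sym2 V))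
    (hA : A ⊆ eFin W H) :
    incP (treesOf W' (eFin W' H')) A ≤ incP (treesOf W (eFin W H)) A := by
  have hWW' : W ⊆ W' := by
    intro v hv
    have h1 : v ∈ (W : Set V) := hv
    rw [hW] at h1
    have h2 : v ∈ (W' : Set V) := by rw [hW']; exact hV h1
    exact h2
  have hEE : eFin W H ⊆ eFin W' H' := by
    intro e he
    rw [mem_eFin hW'] 
    exact hE ((mem_eFin hW).1 he)
  exact ust_mono W W' (eFin W H) (eFin W' H') hWW' hEE (fun e he => eFin_not_diag he)
    (fun e he => eFin_inside he) (fun e he => eFin_inside he) (treesOf_nonempty hW hc)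
    (treesOf_nonempty hW' hc') A hA

lemma incP_nonneg (𝒯 : Finset (Finset (Sym2 V))) (A : Finset (Sym2 V)) : 0 ≤ incP 𝒯 A := by
  unfold incP
  positivity

lemma incP_eq_zero {W : Finset V} {F A : Finset (Sym2 V)} (hA : ¬ A ⊆ F) :
    incP (treesOf W F) A = 0 := by
  unfold incP
  have : (treesOf W F).filter (fun T => A ⊆ T) = ∅ := by
    apply Finset.filter_eq_empty_iff.2
    intro T hT hAT
    exact hA (hAT.trans (mem_treesOf.1 hT).1)
  rw [this]
  simp

section Exh

variable {F : ℕ → G.Subgraph} (hF : IsExhaustion G F)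

/-- The vertex set of a member of the exhaustion. -/
def wF (n : ℕ) : Finset V := (hF.finite_verts n).toFinset

lemma coe_wF (n : ℕ) : (wF hF n : Set V) = (F n).verts := Set.Finite.coe_toFinset _

/-- The edge set of a member of the exhaustion. -/
def eF (n : ℕ) : Finset (Sym2 V) := eFin (wF hF n) (F n)

lemma mem_eF {n : ℕ} {e : Sym2 V} : e ∈ eF hF n ↔ e ∈ (F n).edgeSet := mem_eFin (coe_wF hF n)

/-- The inclusion probability at stage `n`. -/
def incS (A : Finset (Sym2 V)) (n : ℕ) : ℝ := incP (treesOf (wF hF n) (eF hF n)) A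

lemma incS_nonneg (A : Finset (Sym2 V)) (n : ℕ) : 0 ≤ incS hF A n := incP_nonneg _ _

include hF in
lemma eventually_sub (S : Finset V) (E : Finset (Sym2 V)) (hE : ∀ e ∈ E, e ∈ G.edgeSet) :
    ∀ᶠ n in atTop, (S : Set V) ⊆ (F n).verts ∧ (E : Set (Sym2 V)) ⊆ (F n).edgeSet := by
  have h1 : ∀ᶠ n in atTop, ∀ v ∈ S, v ∈ (F n).verts := by
    rw [Filter.eventually_all_finset]
    intro v _
    obtain ⟨N, hN⟩ := hF.exhausts_verts v
    exact Filter.eventually_atTop.2 ⟨N, fun n hn => (hF.mono hn).1 hN⟩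
  have h2 : ∀ᶠ n in atTop, ∀ e ∈ E, e ∈ (F n).edgeSet := by
    rw [Filter.eventually_all_finset]
    intro e he
    obtain ⟨N, hN⟩ := hF.exhausts_edges e (hE e he)
    exact Filter.eventually_atTop.2 ⟨N, fun n hn => SimpleGraph.Subgraph.edgeSet_mono (hF.mono hn) hN⟩
  filter_upwards [h1, h2] with n h3 h4
  exact ⟨fun v hv => h3 v hv, fun e he => h4 e he⟩

lemma incS_le_of_le {A : Finset (Sym2 V)} {N m n : ℕ} (hN : A ⊆ eF hF N) (h1 : N ≤ m) (h2 : m ≤ n) :
    incS hF A n ≤ incS hF A m := by
  have hA : A ⊆ eF hF m := fun e he => (mem_eF hF).2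
    (SimpleGraph.Subgraph.edgeSet_mono (hF.mono h1) ((mem_eF hF).1 (hN he)))
  exact incP_eFin_mono (coe_wF hF m) (coe_wF hF n) (hF.connected m) (hF.connected n)
    (hF.mono h2).1 (SimpleGraph.Subgraph.edgeSet_mono (hF.mono h2)) A hA

lemma incS_zero {A : Finset (Sym2 V)} (hA : ¬ ∀ e ∈ A, e ∈ G.edgeSet) (n : ℕ) :
    incS hF A n = 0 := by
  apply incP_eq_zero
  intro h
  exact hA fun e he => (F n).edgeSet_subset ((mem_eF hF).1 (h he))

lemma exists_sub {A : Finset (Sym2 V)} (hA : ∀ e ∈ A, e ∈ G.edgeSet) : ∃ N, A ⊆ eF hF N := by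
  obtain ⟨N, hN⟩ := (eventually_sub hF ∅ A hA).exists
  exact ⟨N, fun e he => (mem_eF hF).2 (hN.2 he)⟩

theorem incS_tendsto (A : Finset (Sym2 V)) : ∃ L, Tendsto (incS hF A) atTop (𝓝 L) := by
  by_cases hA : ∀ e ∈ A, e ∈ G.edgeSet
  · obtain ⟨N, hN⟩ := exists_sub hF hA
    have hanti : Antitone (fun k => incS hF A (k + N)) := by
      intro a b hab
      exact incS_le_of_le hF hN (Nat.le_add_left _ _) (by omega)
    have hbdd : BddBelow (Set.range (fun k => incS hF A (k + N))) :=
      ⟨0, by rintro _ ⟨k, rfl⟩; exact incS_nonneg hF A _⟩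
    exact ⟨_, (tendsto_add_atTop_iff_nat N).1 (tendsto_atTop_ciInf hanti hbdd)⟩
  · refine ⟨0, ?_⟩
    have : incS hF A = fun _ => 0 := funext (incS_zero hF hA)
    rw [this]
    exact tendsto_const_nhds

end Exh

/-- The limit along one exhaustion is at most the limit along any other. -/
theorem limit_le {F F' : ℕ → G.Subgraph} (hF : IsExhaustion G F) (hF' : IsExhaustion G F')
    (A : Finset (Sym2 V)) {L L' : ℝ} (hL : Tendsto (incS hF A) atTop (𝓝 L))
    (hL' : Tendsto (incS hF' A) atTop (𝓝 L')) : L ≤ L' := by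
  by_cases hA : ∀ e ∈ A, e ∈ G.edgeSet
  · obtain ⟨N, hN⟩ := exists_sub hF' hA
    refine ge_of_tendsto hL' ?_
    filter_upwards [eventually_ge_atTop N] with m hm
    refine le_of_tendsto hL ?_
    have hEm : ∀ e ∈ eF hF' m, e ∈ G.edgeSet := fun e he =>
      (F' m).edgeSet_subset ((mem_eF hF').1 he)
    filter_upwards [eventually_sub hF (wF hF' m) (eF hF' m) hEm] with n hn
    have hAm : A ⊆ eF hF' m := fun e he => (mem_eF hF').2
      (SimpleGraph.Subgraph.edgeSet_mono (hF'.mono hm) ((mem_eF hF').1 (hN he)))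
    refine incP_eFin_mono (coe_wF hF' m) (coe_wF hF n) (hF'.connected m) (hF.connected n) ?_ ?_ A hAm
    · rw [← coe_wF hF' m]; exact hn.1
    · intro e he
      exact hn.2 ((mem_eF hF').2 he)
  · have h0 : L = 0 := by
      have : incS hF A = fun _ => 0 := funext (incS_zero hF hA)
      rw [this] at hL
      exact tendsto_nhds_unique hL tendsto_const_nhds
    rw [h0]
    exact ge_of_tendsto' hL' (incS_nonneg hF' A)

/-- Cylinder probabilities along an exhaustion, through inclusion probabilities. -/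
lemma ustCyl_eq_sum {F : ℕ → G.Subgraph} (hF : IsExhaustion G F) (D : Finset (Sym2 V))
    (p : Sym2 V → Bool) (n : ℕ) :
    ustCyl (F n) D p = ∑ B ∈ (D.filter (fun e => p e = false)).powerset, (-1 : ℝ) ^ B.card *
        incS hF ((D.filter (fun e => p e = true)) ∪ B) n := by
  rw [ustCyl_eq (coe_wF hF n), ustC_eq_sum]
  rfl

/-- Two exhaustions give the same limit for every cylinder. -/
theorem ustCyl_tendsto_same {F F' : ℕ → G.Subgraph} (hF : IsExhaustion G F)
    (hF' : IsExhaustion G F') (D : Finset (Sym2 V)) (p : Sym2 V → Bool) :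
    ∃ L, Tendsto (fun n => ustCyl (F n) D p) atTop (𝓝 L) ∧
      Tendsto (fun n => ustCyl (F' n) D p) atTop (𝓝 L) := by
  have hlim : ∀ A, ∃ L, Tendsto (incS hF A) atTop (𝓝 L) ∧ Tendsto (incS hF' A) atTop (𝓝 L) := by
    intro A
    obtain ⟨L, hL⟩ := incS_tendsto hF A
    obtain ⟨L', hL'⟩ := incS_tendsto hF' A
    have : L = L' := le_antisymm (limit_le hF hF' A hL hL') (limit_le hF' hF A hL' hL)
    exact ⟨L, hL, this ▸ hL'⟩
  choose ℓ h1 h2 using hlim
  refine ⟨∑ B ∈ (D.filter (fun e => p e = false)).powerset, (-1 : ℝ) ^ B.card *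
        ℓ ((D.filter (fun e => p e = true)) ∪ B), ?_, ?_⟩
  · have : (fun n => ustCyl (F n) D p) = _ := funext (ustCyl_eq_sum hF D p)
    rw [this]
    exact tendsto_finsetSum _ fun B _ => (h1 _).const_mul _
  · have : (fun n => ustCyl (F' n) D p) = _ := funext (ustCyl_eq_sum hF' D p)
    rw [this]
    exact tendsto_finsetSum _ fun B _ => (h2 _).const_mul _

/-! ### The uniform measure on a finite family, and the cluster point -/

/-- The indicator function of a finite edge set. -/
def indT (T : Finset (Sym2 V)) : Sym2 V → Bool := fun e => decide (e ∈ T)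

/-- The uniform probability measure on a finite family of edge sets. -/
def ustM (𝒯 : Finset (Finset (Sym2 V))) : Measure (Sym2 V → Bool) :=
  ((𝒯.card : ℝ≥0∞)⁻¹) • ∑ T ∈ 𝒯, Measure.dirac (indT T)

lemma ustM_apply (𝒯 : Finset (Finset (Sym2 V))) {S : Set (Sym2 V → Bool)} (hS : MeasurableSet S) :
    ustM 𝒯 S = ((𝒯.card : ℝ≥0∞)⁻¹) * ((𝒯.filter (fun T => indT T ∈ S)).card : ℝ≥0∞) := by
  unfold ustM
  rw [Measure.smul_apply, smul_eq_mul, Measure.finsetSum_apply]
  congr 1
  have : ∀ T ∈ 𝒯, Measure.dirac (indT T) S = if indT T ∈ S then (1 : ℝ≥0∞) else 0 := by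
    intro T _
    rw [Measure.dirac_apply' _ hS]
    by_cases h : indT T ∈ S <;> simp [h]
  rw [Finset.sum_congr rfl this, Finset.sum_boole]

lemma ustM_prob {𝒯 : Finset (Finset (Sym2 V))} (h : 𝒯.Nonempty) : IsProbabilityMeasure (ustM 𝒯) := by
  constructor
  rw [ustM_apply 𝒯 MeasurableSet.univ]
  simp only [Set.mem_univ, Finset.filter_true]
  apply ENNReal.inv_mul_cancel
  · exact_mod_cast (Finset.card_pos.2 h).ne'
  · exact ENNReal.natCast_ne_top _

/-- The cylinder event. -/
def cylE (D : Finset (Sym2 V)) (p : Sym2 V → Bool) : Set (Sym2 V → Bool) :=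
  {ω | ∀ e ∈ D, ω e = p e}

lemma cylE_eq (D : Finset (Sym2 V)) (p : Sym2 V → Bool) :
    cylE D p = ⋂ e ∈ D, (fun ω : Sym2 V → Bool => ω e) ⁻¹' {p e} := by
  ext ω
  simp [cylE]

lemma measurableSet_cylE (D : Finset (Sym2 V)) (p : Sym2 V → Bool) :
    MeasurableSet (cylE D p) := by
  rw [cylE_eq]
  exact Finset.measurableSet_biInter _ fun e _ => (measurable_pi_apply e) (measurableSet_singleton _)

lemma isClopen_cylE (D : Finset (Sym2 V)) (p : Sym2 V → Bool) : IsClopen (cylE D p) := by
  rw [cylE_eq]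
  exact Set.Finite.isClopen_biInter D.finite_toSet fun e _ =>
    (isClopen_discrete {p e}).preimage (continuous_apply e)

lemma ustM_cyl (W : Finset V) (F D : Finset (Sym2 V)) (p : Sym2 V → Bool) :
    (ustM (treesOf W F) (cylE D p)).toReal = ustC W F D p := by
  rw [ustM_apply _ (measurableSet_cylE D p)]
  unfold ustC
  rw [ENNReal.toReal_mul, ENNReal.toReal_inv, ENNReal.toReal_natCast, ENNReal.toReal_natCast,
    div_eq_inv_mul]
  congr 3
  have hiff : ∀ T : Finset (Sym2 V), indT T ∈ cylE D p ↔ ∀ e ∈ D, (e ∈ T ↔ p e = true) := by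
    intro T
    show (∀ e ∈ D, indT T e = p e) ↔ _
    refine forall₂_congr fun e _ => ?_
    unfold indT
    cases hpe : p e <;> simp
  ext T
  simp only [Finset.mem_filter]
  exact and_congr_right fun _ => hiff T

/-- **L1**: the free uniform spanning forest exists. -/
theorem exists_isFUSF [Countable V] (G : SimpleGraph V) (hc : G.Connected)
    (hlf : ∀ v, (G.neighborSet v).Finite) : ∃ μ, IsFUSF G μ := by
  have : Countable (Sym2 V) := by
    unfold Sym2
    infer_instance
  have := hc.nonempty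
  obtain ⟨o⟩ := ‹Nonempty V›
  have hB := ballSub_exhaustion hc hlf o
  -- the approximating measures
  have hprob : ∀ n, IsProbabilityMeasure (ustM (treesOf (wF hB n) (eF hB n))) := fun n =>
    ustM_prob (treesOf_nonempty (coe_wF hB n) (hB.connected n))
  let μs : ℕ → ProbabilityMeasure (Sym2 V → Bool) := fun n =>
    ⟨ustM (treesOf (wF hB n) (eF hB n)), hprob n⟩
  -- an ultrafilter limit
  let U : Ultrafilter ℕ := Ultrafilter.of atTop
  have hU : (U : Filter ℕ) ≤ atTop := Ultrafilter.of_le _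
  let ν : ProbabilityMeasure (Sym2 V → Bool) := (U.map μs).lim
  have hν : Tendsto μs U (𝓝 ν) := (U.map μs).le_nhds_lim
  -- the value of the limit on cylinders
  have key : ∀ (D : Finset (Sym2 V)) (p : Sym2 V → Bool),
      Tendsto (fun n => ustCyl (ballSub G o n) D p) atTop
        (𝓝 ((ν : Measure (Sym2 V → Bool)) (cylE D p)).toReal) := by
    intro D p
    obtain ⟨L, hL, -⟩ := ustCyl_tendsto_same hB hB D p
    have hcl := isClopen_cylE D p
    let f : BoundedContinuousFunction (Sym2 V → Bool) ℝ :=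
      BoundedContinuousFunction.ofNormedAddCommGroup ((cylE D p).indicator (fun _ => (1 : ℝ)))
        (continuous_const.indicator (by simp [hcl.frontier_eq])) 1
        (fun x => by
          by_cases h : x ∈ cylE D p <;> simp [h])
    have hint : ∀ μ : ProbabilityMeasure (Sym2 V → Bool),
        ∫ ω, f ω ∂(μ : Measure (Sym2 V → Bool)) =
          ((μ : Measure (Sym2 V → Bool)) (cylE D p)).toReal := by
      intro μ
      show ∫ ω, (cylE D p).indicator (fun _ => (1 : ℝ)) ω ∂(μ : Measure (Sym2 V → Bool)) = _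
      rw [integral_indicator (measurableSet_cylE D p)]
      simp [Measure.real]
    have h1 := (ProbabilityMeasure.tendsto_iff_forall_integral_tendsto.1 hν) f
    simp only [hint] at h1
    have h2 : ∀ n, ((μs n : Measure (Sym2 V → Bool)) (cylE D p)).toReal =
        ustCyl (ballSub G o n) D p := by
      intro n
      rw [ustCyl_eq (coe_wF hB n)]
      exact ustM_cyl _ _ D p
    simp only [h2] at h1
    have h3 : L = ((ν : Measure (Sym2 V → Bool)) (cylE D p)).toReal :=
      tendsto_nhds_unique (hL.mono_left hU) h1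
    rw [← h3]
    exact hL
  refine ⟨(ν : Measure (Sym2 V → Bool)), ⟨inferInstance, ?_⟩⟩
  intro F hF D p
  obtain ⟨L, hL, hL'⟩ := ustCyl_tendsto_same hF hB D p
  have h := tendsto_nhds_unique hL' (key D p)
  rw [h] at hL
  exact hL

end Vale.Agent.P143
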