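import Vale.Agent.P143.LimitConv

set_option autoImplicit false

noncomputable section
open scoped Classical
open MeasureTheory Filter Topology

namespace Vale.Agent.P143

variable {V : Type*} {G G' : SimpleGraph V}

/-- Transport of a subgraph along a bijection of the vertices mapping edges to edges. -/
def transSub (π : V ≃ V) (hπ : ∀ x y, G.Adj x y → G'.Adj (π x) (π y)) (H : G.Subgraph) : G'.Subgraph where
  verts := π '' H.verts
  Adj x y := H.Adj (π.symm x) (π.symm y)
  adj_sub h := by
    have := hπ _ _ (H.adj_sub h)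
    simpa using this
  edge_vert h := ⟨_, H.edge_vert h, by simp⟩
  symm := ⟨fun _ _ h => H.adj_symm h⟩

variable {π : V ≃ V} {hπ : ∀ x y, G.Adj x y → G'.Adj (π x) (π y)}

@[simp] lemma transSub_adj {H : G.Subgraph} {x y : V} :
    (transSub π hπ H).Adj x y ↔ H.Adj (π.symm x) (π.symm y) := Iff.rfl

@[simp] lemma transSub_verts {H : G.Subgraph} : (transSub π hπ H).verts = π '' H.verts := rfl

lemma mem_transSub_edgeSet {H : G.Subgraph} {e : Sym2 V} :
    e ∈ (transSub π hπ H).edgeSet ↔ (sym2Equiv π).symm e ∈ H.edgeSet := by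
  induction e using Sym2.ind with
  | _ x y =>
    rw [SimpleGraph.Subgraph.mem_edgeSet, sym2Equiv_symm_mk, SimpleGraph.Subgraph.mem_edgeSet]
    rfl

lemma transSub_mono {H₁ H₂ : G.Subgraph} (h : H₁ ≤ H₂) : transSub π hπ H₁ ≤ transSub π hπ H₂ :=
  ⟨Set.image_mono h.1, fun _ _ hxy => h.2 hxy⟩

/-- A subgraph and its transport are isomorphic. -/
def coeIso (H : G.Subgraph) : H.coe ≃g (transSub π hπ H).coe where
  toFun x := ⟨π x.1, x.1, x.2, rfl⟩
  invFun y := ⟨π.symm y.1, by
    obtain ⟨y, x, hx, rfl⟩ := y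
    simpa using hx⟩
  left_inv x := Subtype.ext (by simp)
  right_inv y := Subtype.ext (by simp)
  map_rel_iff' := by
    intro a b
    show H.Adj (π.symm (π a.1)) (π.symm (π b.1)) ↔ H.Adj a.1 b.1
    simp

lemma transSub_connected {H : G.Subgraph} (h : H.Connected) : (transSub π hπ H).Connected :=
  ⟨(SimpleGraph.Iso.connected_iff (coeIso H)).1 h.coe⟩

lemma transSub_tree {H T : G.Subgraph} (h : IsSpanningTree H T) :
    IsSpanningTree (transSub π hπ H) (transSub π hπ T) := by
  obtain ⟨h1, h2, h3⟩ := h
  refine ⟨transSub_mono h1, by simp [h2], ?_⟩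
  exact (SimpleGraph.Iso.isTree_iff (coeIso T)).1 h3

/-- The inverse bijection maps edges back. -/
lemma transSub_symm {hπ' : ∀ x y, G'.Adj x y → G.Adj (π.symm x) (π.symm y)} (H : G.Subgraph) :
    transSub π.symm hπ' (transSub π hπ H) = H := by
  refine SimpleGraph.Subgraph.ext ?_ ?_
  · ext x
    simp
  · funext x y
    apply propext
    simp

lemma transSub_symm' {hπ' : ∀ x y, G'.Adj x y → G.Adj (π.symm x) (π.symm y)} (H : G'.Subgraph) :
    transSub π hπ (transSub π.symm hπ' H) = H := by
  refine SimpleGraph.Subgraph.ext ?_ ?_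
  · ext x
    simp
  · funext x y
    apply propext
    simp

/-- The number of spanning trees with a property is invariant under transport. -/
lemma ncard_trans (hπ' : ∀ x y, G'.Adj x y → G.Adj (π.symm x) (π.symm y)) (H : G.Subgraph)
    {R : G'.Subgraph → Prop} {R' : G.Subgraph → Prop}
    (hR : ∀ T, R (transSub π hπ T) ↔ R' T) :
    {T | IsSpanningTree (transSub π hπ H) T ∧ R T}.ncard = {T | IsSpanningTree H T ∧ R' T}.ncard := by
  symm
  refine Set.ncard_congr (fun T _ => transSub π hπ T) ?_ ?_ ?_
  · rintro T ⟨h1, h2⟩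
    exact ⟨transSub_tree h1, (hR T).2 h2⟩
  · rintro T₁ T₂ _ _ h
    have h1 := congrArg (transSub π.symm hπ') h
    rwa [transSub_symm, transSub_symm] at h1
  · rintro T' ⟨h1, h2⟩
    refine ⟨transSub π.symm hπ' T', ⟨?_, ?_⟩, transSub_symm' T'⟩
    · have h3 := transSub_tree (π := π.symm) (hπ := hπ') h1
      rwa [transSub_symm] at h3
    · rw [← hR, transSub_symm']
      exact h2

/-- The cylinder probabilities are invariant under transport. -/
lemma ustCyl_trans (hπ' : ∀ x y, G'.Adj x y → G.Adj (π.symm x) (π.symm y)) (H : G.Subgraph)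
    (D : Finset (Sym2 V)) (p : Sym2 V → Bool) :
    ustCyl (transSub π hπ H) (D.map (sym2Equiv π).toEmbedding) (p ∘ (sym2Equiv π).symm)
      = ustCyl H D p := by
  unfold ustCyl
  have h1 := ncard_trans (hπ := hπ) hπ' H
    (R := fun T => ∀ e ∈ D.map (sym2Equiv π).toEmbedding,
      (e ∈ T.edgeSet ↔ (p ∘ (sym2Equiv π).symm) e = true))
    (R' := fun T => ∀ e ∈ D, (e ∈ T.edgeSet ↔ p e = true)) (fun T => by
      constructor
      · intro h e he
        have := h (sym2Equiv π e) (Finset.mem_map_of_mem _ he)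
        rw [mem_transSub_edgeSet] at this
        simpa using this
      · intro h e he
        obtain ⟨e', he', rfl⟩ := Finset.mem_map.1 he
        rw [mem_transSub_edgeSet]
        simpa using h e' he')
  have h2 := ncard_trans (hπ := hπ) hπ' H (R := fun _ => True) (R' := fun _ => True)
    (fun _ => Iff.rfl)
  simp only [and_true] at h2
  rw [h1, h2]

/-- **Transport of the free forest along a bijection of the vertices.** -/
theorem isFUSF_map {μ : Measure (Sym2 V → Bool)} (π : V ≃ V) (hμ : IsFUSF G μ) :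
    IsFUSF (G.map π.toEmbedding) (μ.map (fun ω e => ω (e.map π.symm))) := by
  have hprob := hμ.prob
  have hΘ : Measurable (fun (ω : Sym2 V → Bool) (e : Sym2 V) => ω (e.map π.symm)) :=
    measurable_pi_iff.2 (fun e => measurable_pi_apply _)
  have hπ1 : ∀ x y, G.Adj x y → (G.map π.toEmbedding).Adj (π x) (π y) := by
    intro x y h
    rw [SimpleGraph.map_adj]
    exact ⟨x, y, h, rfl, rfl⟩
  have hπ2 : ∀ x y, (G.map π.toEmbedding).Adj x y → G.Adj (π.symm x) (π.symm y) := by
    intro x y h
    rw [SimpleGraph.map_adj] at h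
    obtain ⟨a, b, hab, rfl, rfl⟩ := h
    simpa using hab
  refine ⟨Measure.isProbabilityMeasure_map hΘ.aemeasurable, ?_⟩
  intro F' hF' D' p'
  -- the pulled back exhaustion
  set F : ℕ → G.Subgraph := fun n => transSub π.symm hπ2 (F' n) with hFdef
  have hF : IsExhaustion G F := by
    refine ⟨fun n => (hF'.finite_verts n).image _, fun n => transSub_connected (hF'.connected n),
      fun m n h => transSub_mono (hF'.mono h), fun v => ?_, fun e he => ?_⟩
    · obtain ⟨n, hn⟩ := hF'.exhausts_verts (π v)
      exact ⟨n, π v, hn, by simp⟩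
    · have he' : sym2Equiv π e ∈ (G.map π.toEmbedding).edgeSet := by
        induction e using Sym2.ind with
        | _ x y => exact hπ1 x y he
      obtain ⟨n, hn⟩ := hF'.exhausts_edges _ he'
      refine ⟨n, ?_⟩
      rw [mem_transSub_edgeSet]
      exact hn
  set D := D'.map (sym2Equiv π).symm.toEmbedding with hD
  set p := p' ∘ sym2Equiv π with hp
  have hlim := hμ.limit F hF D p
  have hD' : D.map (sym2Equiv π).toEmbedding = D' := by
    ext e
    simp [hD]
  have hp' : p ∘ (sym2Equiv π).symm = p' := by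
    funext e
    simp [hp]
  have hcyl : ∀ n, ustCyl (F' n) D' p' = ustCyl (F n) D p := by
    intro n
    have h1 := ustCyl_trans (π := π) (hπ := hπ1) hπ2 (F n) D p
    rw [hD', hp'] at h1
    rw [← h1]
    simp only [hFdef]
    rw [transSub_symm']
  have hmeas : (μ.map (fun ω e => ω (e.map π.symm))) {ω | ∀ e ∈ D', ω e = p' e}
      = μ {ω | ∀ e ∈ D, ω e = p e} := by
    rw [show {ω : Sym2 V → Bool | ∀ e ∈ D', ω e = p' e} = cylS D' p' from rfl,
      Measure.map_apply hΘ (measurableSet_cylS D' p')]
    congr 1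
    ext ω
    simp only [Set.mem_preimage, Set.mem_ofPred_eq]
    constructor
    · intro h e he
      obtain ⟨e', he', rfl⟩ := Finset.mem_map.1 he
      show ω ((sym2Equiv π).symm e') = p' (sym2Equiv π ((sym2Equiv π).symm e'))
      rw [Equiv.apply_symm_apply]
      exact h e' he'
    · intro h e he
      have h1 := h ((sym2Equiv π).symm e) (Finset.mem_map_of_mem _ he)
      have h2 : p ((sym2Equiv π).symm e) = p' e := by simp [hp]
      exact h1.trans h2
  rw [hmeas]
  exact hlim.congr (fun n => (hcyl n).symm)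

end Vale.Agent.P143
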