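import Vale.Agent.P143.LimitBall
import Vale.Agent.P143.LimitMap
import Vale.Agent.P143.CayleyFacts

set_option autoImplicit false

noncomputable section
open scoped Classical
open MeasureTheory Filter Topology
open Vale.Agent.P161 (PP unif splitU exists_noise_map)

namespace Vale.Agent.P143

variable {V : Type*}

lemma cylU_eq {G : SimpleGraph V} {μ : Measure (Sym2 V → Bool)} (hμ : IsFUSF G μ)
    (hc : G.Connected) (hlf : ∀ v, (G.neighborSet v).Finite) (o : V) (D : Finset (Sym2 V))
    (p : Sym2 V → Bool) : cylU o (code G) D p = (μ (cylS D p)).toReal :=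
  (tendsto_ustC hμ hc hlf o D p).limsup_eq

/-- The law and the equivariance of the universal factor map. -/
theorem Phi_spec [Countable V] {S : ℝ → ℕ → ℝ} (hS : Measurable S)
    (hS' : Measure.map S unif = PP ℕ) (o : V) {G : SimpleGraph V} (hc : G.Connected)
    (hlf : ∀ v, (G.neighborSet v).Finite) {μ : Measure (Sym2 V → Bool)} (hμ : IsFUSF G μ) :
    Measure.map (Phi o S (code G)) (PP V) = μ ∧
      ∀ (π : V ≃ V) (U : V → ℝ) (e : Sym2 V),
        Phi o S (code (G.map π.toEmbedding)) (U ∘ π.symm) (e.map π) = Phi o S (code G) U e := by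
  have hprob := hμ.prob
  have hTL := tiltLip_of_isFUSF hμ hc hlf
  refine ⟨?_, ?_⟩
  · have hmU := mU_eq_mt (o := o) (g := code G) (μ := μ) (cylU_eq hμ hc hlf o)
    have hlaw := law_factor hS hS' (exists_mem_wball hc hlf) hTL
    rw [← hmU] at hlaw
    exact hlaw
  · intro π U e
    set ρ := sym2Equiv π with hρ
    have hμ' := isFUSF_map π hμ
    have hprob' := hμ'.prob
    have hmap : (μ.map (fun ω e => ω (e.map π.symm))) = μ.map (fun ω => ω ∘ ρ.symm) := rfl
    have hmU := mU_eq_mt (o := o) (g := code G) (μ := μ) (cylU_eq hμ hc hlf o)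
    have hc' := connected_map hc π
    have hlf' := locallyFinite_map hlf π
    have hmU' := mU_eq_mt (o := o) (g := code (G.map π.toEmbedding))
      (μ := μ.map (fun ω e => ω (e.map π.symm))) (cylU_eq hμ' hc' hlf' o)
    have hm : ∀ f h, mU o (code (G.map π.toEmbedding)) (ρ f) (h ∘ ρ.symm) = mU o (code G) f h := by
      intro f h
      rw [hmU, hmU', hmap, code_map]
      exact mt_map ρ (fun f k => Bg_push π (code G) f k) f h
    unfold Phi OutP
    have hue : ue (code (G.map π.toEmbedding)) (lab S (U ∘ π.symm)) (tailN S (U ∘ π.symm))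
        = (ue (code G) (lab S U) (tailN S U)) ∘ ρ.symm := by
      funext e'
      have h := ue_push π (code G) (lab S U) (tailN S U) (ρ.symm e')
      simp only [Equiv.apply_symm_apply, hρ] at h
      rw [code_map]
      exact h
    rw [hue]
    exact OutP_equiv ρ hm S _ e

/-- The universal factor map, for the free forest given as a limit measure. -/
theorem universal_factor_given (V : Type*) [Countable V] [Nonempty V] :
    ∃ Φ : (Sym2 V → Bool) → (V → ℝ) → Sym2 V → Bool,
      Measurable (fun q : (Sym2 V → Bool) × (V → ℝ) => Φ q.1 q.2) ∧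
      ∀ G : SimpleGraph V, G.Connected → (∀ v, (G.neighborSet v).Finite) →
        ∀ μ, IsFUSF G μ → Measure.map (Φ (code G)) (PP V) = μ ∧
          ∀ (π : V ≃ V) (U : V → ℝ) (e : Sym2 V),
            Φ (code (G.map π.toEmbedding)) (U ∘ π.symm) (e.map π) = Φ (code G) U e := by
  obtain ⟨S, hS, hS'⟩ := exists_noise_map
  obtain ⟨o⟩ := (inferInstance : Nonempty V)
  exact ⟨Phi o S, measurable_Phi o hS, fun G hc hlf μ hμ => Phi_spec hS hS' o hc hlf hμ⟩

/-- The Cayley graph statement, for the free forest given as a limit measure. -/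
theorem cayley_factor_given (Γ : Type*) [Group Γ] (s : Finset Γ)
    (hs : Subgroup.closure (s : Set Γ) = ⊤) :
    ∃ Φ : (Γ → ℝ) → Sym2 Γ → Bool, Measurable Φ ∧
      ∀ μ, IsFUSF (SimpleGraph.mulCayley (s : Set Γ)) μ → Measure.map Φ (PP Γ) = μ ∧
        ∀ (γ : Γ) (U : Γ → ℝ) (e : Sym2 Γ),
          Φ (fun v => U (γ⁻¹ * v)) (e.map (fun v => γ * v)) = Φ U e := by
  have hc : (SimpleGraph.mulCayley (s : Set Γ)).Connected := cayley_connected hs
  have hlf : ∀ v, ((SimpleGraph.mulCayley (s : Set Γ)).neighborSet v).Finite :=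
    cayley_locallyFinite s.finite_toSet
  have hcount : Countable Γ := countable_of_connected hc hlf
  obtain ⟨S, hS, hS'⟩ := exists_noise_map
  set G := SimpleGraph.mulCayley (s : Set Γ) with hG
  have hm : Measurable (Phi (1 : Γ) S (code G)) := by
    have h := measurable_Phi (1 : Γ) hS
    have h2 := h.comp (measurable_const.prodMk measurable_id :
      Measurable (fun U : Γ → ℝ => ((code G, U) : (Sym2 Γ → Bool) × (Γ → ℝ))))
    exact h2
  refine ⟨Phi (1 : Γ) S (code G), hm, fun μ hμ => ?_⟩
  obtain ⟨h1, h2⟩ := Phi_spec hS hS' (1 : Γ) hc hlf hμ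
  refine ⟨h1, fun γ U e => ?_⟩
  have h3 := h2 (Equiv.mulLeft γ) U e
  rw [hG, cayley_map] at h3
  exact h3

end Vale.Agent.P143
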