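import Vale.Agent.P143.Main
import Vale.Agent.P143.LimitExists

set_option autoImplicit false

noncomputable section
open scoped Classical
open MeasureTheory Filter Topology
open Vale.Agent.P161 (PP unif splitU exists_noise_map)

namespace Vale.Agent.P143

/-- The universal factor map: every connected locally finite graph has a free
forest, and the map produces it from independent uniform labels. -/
theorem universal_factor (V : Type*) [Countable V] [Nonempty V] :
    ∃ Φ : (Sym2 V → Bool) → (V → ℝ) → Sym2 V → Bool,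
      Measurable (fun q : (Sym2 V → Bool) × (V → ℝ) => Φ q.1 q.2) ∧
      ∀ G : SimpleGraph V, G.Connected → (∀ v, (G.neighborSet v).Finite) →
        ∃ μ, IsFUSF G μ ∧ Measure.map (Φ (code G)) (PP V) = μ ∧
          ∀ (π : V ≃ V) (U : V → ℝ) (e : Sym2 V),
            Φ (code (G.map π.toEmbedding)) (U ∘ π.symm) (e.map π) = Φ (code G) U e := by
  obtain ⟨Φ, hΦ, h⟩ := universal_factor_given V
  refine ⟨Φ, hΦ, fun G hc hlf => ?_⟩
  obtain ⟨μ, hμ⟩ := exists_isFUSF G hc hlf
  exact ⟨μ, hμ, h G hc hlf μ hμ⟩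

/-- The Cayley graph statement. -/
theorem cayley_factor (Γ : Type*) [Group Γ] (s : Finset Γ)
    (hs : Subgroup.closure (s : Set Γ) = ⊤) :
    ∃ μ, IsFUSF (SimpleGraph.mulCayley (s : Set Γ)) μ ∧
      ∃ Φ : (Γ → ℝ) → Sym2 Γ → Bool, Measurable Φ ∧ Measure.map Φ (PP Γ) = μ ∧
        ∀ (γ : Γ) (U : Γ → ℝ) (e : Sym2 Γ),
          Φ (fun v => U (γ⁻¹ * v)) (e.map (fun v => γ * v)) = Φ U e := by
  have hc : (SimpleGraph.mulCayley (s : Set Γ)).Connected := cayley_connected hs
  have hlf : ∀ v, ((SimpleGraph.mulCayley (s : Set Γ)).neighborSet v).Finite :=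
    cayley_locallyFinite s.finite_toSet
  have hcount : Countable Γ := countable_of_connected hc hlf
  obtain ⟨μ, hμ⟩ := exists_isFUSF _ hc hlf
  obtain ⟨Φ, hΦ, h⟩ := cayley_factor_given Γ s hs
  obtain ⟨h1, h2⟩ := h μ hμ
  exact ⟨μ, hμ, Φ, hΦ, h1, h2⟩

end Vale.Agent.P143
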