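import Vale.Agent.P143.Universal
import Vale.Agent.P143.Abstract

set_option autoImplicit false

noncomputable section
open scoped Classical
open MeasureTheory Filter Topology
open Vale.Agent.P161 (PP unif splitU map_splitU ae_injective_label)

namespace Vale.Agent.P143

/-- Reindexing by an injective map preserves the i.i.d. law. -/
theorem PP_map_comp_injective {I J : Type*} {ρ : I → J} (hρ : Function.Injective ρ) :
    Measure.map (fun ω : J → ℝ => ω ∘ ρ) (PP J) = PP I := by
  have hm : Measurable (fun ω : J → ℝ => ω ∘ ρ) :=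
    measurable_pi_iff.2 (fun i => measurable_pi_apply (ρ i))
  refine Measure.eq_infinitePi (fun _ : I => unif) ?_
  intro s t ht
  have hbox : MeasurableSet (Set.pi (s : Set I) t) :=
    MeasurableSet.pi s.countable_toSet (fun c _ => ht c)
  rw [Measure.map_apply hm hbox]
  set t' : J → Set ℝ := fun c => if h : ∃ i, ρ i = c then t h.choose else Set.univ with ht'
  have ht'ρ : ∀ i, t' (ρ i) = t i := by
    intro i
    have h : ∃ i', ρ i' = ρ i := ⟨i, rfl⟩
    simp only [ht', dif_pos h]
    rw [hρ h.choose_spec]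
  have ht'm : ∀ c, MeasurableSet (t' c) := by
    intro c
    simp only [ht']
    by_cases h : ∃ i, ρ i = c
    · rw [dif_pos h]; exact ht _
    · rw [dif_neg h]; exact MeasurableSet.univ
  have hset : (fun ω : J → ℝ => ω ∘ ρ) ⁻¹' Set.pi (s : Set I) t
      = Set.pi ((s.image ρ : Finset J) : Set J) t' := by
    ext ω
    simp only [Set.mem_preimage, Set.mem_pi, Finset.mem_coe, Finset.mem_image, Function.comp]
    constructor
    · rintro h c ⟨i, hi, rfl⟩
      rw [ht'ρ]
      exact h i hi
    · intro h i hi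
      have := h (ρ i) ⟨i, hi, rfl⟩
      rwa [ht'ρ] at this
  rw [hset]
  unfold PP
  rw [Measure.infinitePi_pi _ (fun c _ => ht'm c), Finset.prod_image (fun a _ b _ e => hρ e)]
  exact Finset.prod_congr rfl (fun i _ => by rw [ht'ρ])

/-- A product measure pushed by a map whose sections all have the same law. -/
theorem map_prod_of_ae_map {α β γ : Type*} [MeasurableSpace α] [MeasurableSpace β]
    [MeasurableSpace γ] (P : Measure α) [IsProbabilityMeasure P] (Q : Measure β) [SFinite Q]
    {Ψ : α × β → γ} (hΨ : Measurable Ψ) (μ : Measure γ)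
    (h : ∀ᵐ a ∂P, Measure.map (fun b => Ψ (a, b)) Q = μ) : Measure.map Ψ (P.prod Q) = μ := by
  ext A hA
  rw [Measure.map_apply hΨ hA, Measure.prod_apply (hΨ hA)]
  have e : ∀ᵐ a ∂P, Q (Prod.mk a ⁻¹' (Ψ ⁻¹' A)) = μ A := by
    filter_upwards [h] with a ha
    have hm : Measurable (fun b => Ψ (a, b)) := hΨ.comp measurable_prodMk_left
    rw [← ha, Measure.map_apply hm hA]
    rfl
  rw [lintegral_congr_ae e]
  simp

variable {V : Type*} [Countable V]

omit [Countable V] in
lemma wball_mono_succ (g : Sym2 V → Bool) (x : V) (n : ℕ) : wball g x n ⊆ wball g x (n + 1) :=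
  Finset.subset_union_left

omit [Countable V] in
lemma wball_mono (g : Sym2 V → Bool) (x : V) : Monotone (wball g x) :=
  monotone_nat_of_le_succ (wball_mono_succ g x)

omit [Countable V] in
lemma mem_wball_stage {g : Sym2 V → Bool} (hc : ∀ x y, ∃ n, y ∈ wball g x n) (x y : V) :
    y ∈ wball g x (stage g x y) :=
  Nat.sInf_mem (hc x y)

omit [Countable V] in
/-- The rank of `y` seen from `x` determines `y`. -/
lemma rnk_inj {g : Sym2 V → Bool} (hc : ∀ x y, ∃ n, y ∈ wball g x n) {L : V → ℝ}
    (hL : Function.Injective L) (x : V) {y y' : V} (h : rnk g L x y = rnk g L x y') : y = y' := by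
  unfold rnk at h
  have h1 := Nat.pair_eq_pair.1 h
  obtain ⟨hs, hc'⟩ := h1
  have key : ∀ {y y' : V}, stage g x y = stage g x y' → L y < L y' → cnt g L x y < cnt g L x y' := by
    intro y y' hs hlt
    unfold cnt
    rw [← hs]
    refine Finset.card_lt_card ?_
    refine ⟨fun w hw => ?_, fun hsub => ?_⟩
    · rw [Finset.mem_filter] at hw ⊢
      exact ⟨hw.1, hw.2.trans hlt⟩
    · have hy : y ∈ (wball g x (stage g x y)).filter (fun w => L w < L y') :=
        Finset.mem_filter.2 ⟨mem_wball_stage hc x y, hlt⟩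
      have := hsub hy
      rw [Finset.mem_filter] at this
      exact lt_irrefl _ this.2
  by_contra hne
  rcases lt_or_gt_of_ne (fun e => hne (hL e)) with hlt | hlt
  · have := key hs hlt
    omega
  · have := key hs.symm hlt
    omega

/-- The vertex and rank read by the ordered pair `(a, b)`. -/
def rho0 (g : Sym2 V → Bool) (L : V → ℝ) (a b : V) : V × ℕ :=
  if L a ≤ L b then (a, rnk g L a b) else (b, rnk g L b a)

omit [Countable V] in
lemma rho0_comm (g : Sym2 V → Bool) {L : V → ℝ} (hL : Function.Injective L) (a b : V) :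
    rho0 g L a b = rho0 g L b a := by
  unfold rho0
  by_cases hab : a = b
  · subst hab; rfl
  · rcases lt_or_gt_of_ne (fun e => hab (hL e)) with h | h
    · rw [if_pos h.le, if_neg (not_le.2 h)]
    · rw [if_neg (not_le.2 h), if_pos h.le]

/-- The reindexing map of pairs of vertices, for an injective labelling. -/
def rhoI (g : Sym2 V → Bool) {L : V → ℝ} (hL : Function.Injective L) (e : Sym2 V) : V × ℕ :=
  Sym2.lift ⟨rho0 g L, rho0_comm g hL⟩ e

omit [Countable V] in
lemma rhoI_inj {g : Sym2 V → Bool} (hc : ∀ x y, ∃ n, y ∈ wball g x n) {L : V → ℝ}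
    (hL : Function.Injective L) : Function.Injective (rhoI g hL) := by
  have hord : ∀ e : Sym2 V, ∃ a b, e = s(a, b) ∧ L a ≤ L b := by
    intro e
    induction e using Sym2.ind with
    | _ a b =>
      rcases le_total (L a) (L b) with h | h
      · exact ⟨a, b, rfl, h⟩
      · exact ⟨b, a, Sym2.eq_swap, h⟩
  intro e e' h
  obtain ⟨a, b, rfl, hab⟩ := hord e
  obtain ⟨c, d, rfl, hcd⟩ := hord e'
  have h1 : rho0 g L a b = rho0 g L c d := h
  unfold rho0 at h1
  rw [if_pos hab, if_pos hcd] at h1
  obtain ⟨h2, h3⟩ := Prod.mk.inj h1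
  subst h2
  rw [rnk_inj hc hL a h3]

omit [Countable V] in
lemma ue_eq_comp (g : Sym2 V → Bool) {L : V → ℝ} (hL : Function.Injective L) (ξ : V × ℕ → ℝ) :
    ue g L ξ = ξ ∘ rhoI g hL := by
  funext e
  induction e using Sym2.ind with
  | _ a b =>
    show ue0 g L ξ a b = ξ (rho0 g L a b)
    unfold ue0 rho0
    by_cases h1 : L a < L b
    · rw [if_pos h1, if_pos h1.le]
    · by_cases h2 : L b < L a
      · rw [if_neg h1, if_pos h2, if_neg (not_le.2 h2)]
      · have hab : a = b := hL (le_antisymm (not_lt.1 h2) (not_lt.1 h1))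
        subst hab
        simp

section law

variable {S : ℝ → ℕ → ℝ} (hS : Measurable S) (hS' : Measure.map S unif = PP ℕ)
  {g : Sym2 V → Bool} (hc : ∀ x y, ∃ n, y ∈ wball g x n)
  {μ : Measure (Sym2 V → Bool)} [IsProbabilityMeasure μ] (hTL : TiltLip μ)

lemma Bg_mono (g : Sym2 V → Bool) (f : Sym2 V) : Monotone (Bg g f) := by
  induction f using Sym2.ind with
  | _ a b =>
    intro k k' hk
    rw [Bg_mk, Bg_mk]
    exact Finset.sym2_mono (Finset.union_subset_union (wball_mono g a hk) (wball_mono g b hk))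

include hc in
lemma Bg_ex (f f' : Sym2 V) : ∃ k, f' ∈ Bg g f k := by
  induction f using Sym2.ind with
  | _ a b =>
    induction f' using Sym2.ind with
    | _ x y =>
      obtain ⟨k₁, h₁⟩ := hc a x
      obtain ⟨k₂, h₂⟩ := hc a y
      refine ⟨max k₁ k₂, ?_⟩
      rw [Bg_mk, Finset.mem_sym2_iff]
      intro v hv
      rw [Finset.mem_union]
      left
      rcases Sym2.mem_iff.1 hv with rfl | rfl
      · exact wball_mono g a (le_max_left _ _) h₁
      · exact wball_mono g a (le_max_right _ _) h₂

/-- The output of the scheme, as a function of the noise of the pairs. -/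
def OutP (m : Sym2 V → (Sym2 V → ℝ) → ℝ) (S : ℝ → ℕ → ℝ) (u : Sym2 V → ℝ) : Sym2 V → Bool :=
  Out m (splitU S u).1 (splitU S u).2

include hc hS hS' hTL in
/-- The output on i.i.d. noise of the pairs has law `μ`. -/
theorem law_OutP : Measure.map (OutP (mt μ (Bg g)) S) (PP (Sym2 V)) = μ := by
  have hmm : ∀ f, Measurable (mt μ (Bg g) f) := fun f => measurable_mt μ (Bg g) f
  have hOut2 : Measurable (fun q : (Sym2 V → ℝ) × (Sym2 V × ℕ → ℝ) =>
      Out (mt μ (Bg g)) q.1 q.2) :=
    measurable_Out (X := (Sym2 V → ℝ) × (Sym2 V × ℕ → ℝ)) (m := fun _ => mt μ (Bg g))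
      (ℓ := fun q => q.1) (z := fun q => q.2) (fun f => (hmm f).comp measurable_snd)
      (fun g' => (measurable_pi_apply g').comp measurable_fst)
      (fun c => (measurable_pi_apply c).comp measurable_snd)
  have h1 : Measure.map (fun q : (Sym2 V → ℝ) × (Sym2 V × ℕ → ℝ) => Out (mt μ (Bg g)) q.1 q.2)
      ((PP (Sym2 V)).prod (PP (Sym2 V × ℕ))) = μ := by
    refine map_prod_of_ae_map _ _ hOut2 μ ?_
    filter_upwards [ae_injective_label (V := Sym2 V)] with ℓ hℓ
    exact law_Out hTL (Bg g) (Bg_mono g) (Bg_ex hc) ℓ hℓ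
  have hsplit := map_splitU (V := Sym2 V) hS hS'
  rw [← hsplit] at h1
  rw [Measure.map_map hOut2 (Vale.Agent.P161.measurable_splitU hS)] at h1
  exact h1

include hc hS hS' hTL in
/-- The scheme run on the noise read from the vertices has law `μ`. -/
theorem law_factor :
    Measure.map (fun U : V → ℝ => OutP (mt μ (Bg g)) S (ue g (lab S U) (tailN S U))) (PP V) = μ := by
  have hmm : ∀ f, Measurable (mt μ (Bg g) f) := fun f => measurable_mt μ (Bg g) f
  have hOutP : Measurable (OutP (mt μ (Bg g)) S) := by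
    have hOut2 : Measurable (fun q : (Sym2 V → ℝ) × (Sym2 V × ℕ → ℝ) =>
        Out (mt μ (Bg g)) q.1 q.2) :=
      measurable_Out (X := (Sym2 V → ℝ) × (Sym2 V × ℕ → ℝ)) (m := fun _ => mt μ (Bg g))
        (ℓ := fun q => q.1) (z := fun q => q.2) (fun f => (hmm f).comp measurable_snd)
        (fun g' => (measurable_pi_apply g').comp measurable_fst)
        (fun c => (measurable_pi_apply c).comp measurable_snd)
    exact hOut2.comp (Vale.Agent.P161.measurable_splitU hS)
  have hue : Measurable (fun q : (V → ℝ) × (V × ℕ → ℝ) => (fun e => ue g q.1 q.2 e)) := by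
    refine measurable_pi_iff.2 (fun e => ?_)
    have h := (measurable_ue' (V := V) e).comp
      (measurable_const.prodMk measurable_id : Measurable
        (fun q : (V → ℝ) × (V × ℕ → ℝ) => ((g, q) : (Sym2 V → Bool) × (V → ℝ) × (V × ℕ → ℝ))))
    exact h
  have hΨ : Measurable (fun q : (V → ℝ) × (V × ℕ → ℝ) => OutP (mt μ (Bg g)) S (ue g q.1 q.2)) :=
    hOutP.comp hue
  have h1 : Measure.map (fun q : (V → ℝ) × (V × ℕ → ℝ) => OutP (mt μ (Bg g)) S (ue g q.1 q.2))
      ((PP V).prod (PP (V × ℕ))) = μ := by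
    refine map_prod_of_ae_map _ _ hΨ μ ?_
    filter_upwards [ae_injective_label (V := V)] with L hL
    have e : (fun ξ : V × ℕ → ℝ => OutP (mt μ (Bg g)) S (ue g L ξ))
        = OutP (mt μ (Bg g)) S ∘ (fun ξ : V × ℕ → ℝ => ξ ∘ rhoI g hL) := by
      funext ξ
      simp only [Function.comp, ue_eq_comp g hL]
    rw [e, ← Measure.map_map hOutP (measurable_pi_iff.2 (fun i => measurable_pi_apply _)),
      PP_map_comp_injective (rhoI_inj hc hL)]
    exact law_OutP hS hS' hc hTL
  have hsplit := map_splitU (V := V) hS hS'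
  rw [← hsplit, Measure.map_map hΨ (Vale.Agent.P161.measurable_splitU hS)] at h1
  exact h1

end law

end Vale.Agent.P143
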