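import Vale.Agent.P161.Channel
import Vale.Agent.P161.Noise

set_option autoImplicit false

noncomputable section
open scoped Classical
open MeasureTheory Set
open Vale.Agent.P161 (PP unif clip proj Tq Fq gg aa CC map_update_prod measurable_update_pair)

namespace Vale.Agent.P143

variable {I : Type*}

/-- The working channel strength. -/
def dl : ℝ := 1 / 4

lemma dl_nonneg : 0 ≤ dl := by norm_num [dl]
lemma dl_pos : 0 < dl := by norm_num [dl]
lemma dl_le : dl ≤ 1 / 2 := by norm_num [dl]

lemma measurable_intervalIntegral_param {Y : Type*} [MeasurableSpace Y] {F : Y → ℝ → ℝ}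
    (hF : Measurable (fun p : Y × ℝ => F p.1 p.2)) :
    Measurable (fun y => ∫ t in (0 : ℝ)..1, F y t) := by
  simp_rw [intervalIntegral.integral_of_le (zero_le_one' ℝ)]
  exact (hF.stronglyMeasurable.integral_prod_right
    (ν := volume.restrict (Ioc (0 : ℝ) 1))).measurable

/-- Resampling one coordinate: the Fubini identity for bounded measurable functions. -/
theorem integral_resample [Countable I] [DecidableEq I] (c : I) {G : (I → ℝ) → ℝ} (hG : Measurable G) {C : ℝ}
    (hC : ∀ ω, |G ω| ≤ C) :
    ∫ ω, G ω ∂(PP I) = ∫ ω, (∫ t in (0 : ℝ)..1, G (Function.update ω c t)) ∂(PP I) := by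
  have hmeas := measurable_update_pair (I := I) c
  have h1 : ∫ ω, G ω ∂(PP I)
      = ∫ p : ℝ × (I → ℝ), G (Function.update p.2 c p.1) ∂(unif.prod (PP I)) := by
    conv_lhs => rw [← map_update_prod (I := I) c]
    exact integral_map hmeas.aemeasurable hG.aestronglyMeasurable
  have hint : Integrable (fun p : ℝ × (I → ℝ) => G (Function.update p.2 c p.1))
      (unif.prod (PP I)) := by
    refine Integrable.mono' (integrable_const C)
      (hG.comp hmeas).aestronglyMeasurable ?_
    exact Filter.Eventually.of_forall (fun p => by simpa using hC _)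
  rw [h1, integral_prod_symm _ hint]
  refine integral_congr_ae (Filter.Eventually.of_forall (fun ω => ?_))
  simp only []
  rw [intervalIntegral.integral_of_le zero_le_one, integral_Ioc_eq_integral_Ioo,
    ← integral_Icc_eq_integral_Ioo]
  rfl

/-- Keep the coordinates in `s`, put `0` elsewhere. -/
def maskS (s : Set I) (y : I → ℝ) : I → ℝ := fun c => if c ∈ s then y c else 0

lemma measurable_maskS (s : Set I) : Measurable (maskS s) := by
  refine measurable_pi_iff.2 fun c => ?_
  unfold maskS
  by_cases h : c ∈ s
  · simp only [h, if_true]; exact measurable_pi_apply c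
  · simp only [h, if_false]; exact measurable_const

lemma maskS_insert [DecidableEq I] (S : Set I) (c : I) (y : I → ℝ) :
    maskS (insert c S) y = Function.update (maskS S y) c (y c) := by
  funext c'
  unfold maskS
  by_cases h : c' = c
  · subst h; simp
  · simp [Function.update_of_ne h, Set.mem_insert_iff, h]

lemma maskS_update_not_mem [DecidableEq I] {S : Set I} {c : I} (hc : c ∉ S) (y : I → ℝ) (t : ℝ) :
    maskS S (Function.update y c t) = maskS S y := by
  funext c'
  unfold maskS
  by_cases h : c' ∈ S
  · have : c' ≠ c := fun e => hc (e ▸ h)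
    simp [h, Function.update_of_ne this]
  · simp [h]

lemma abs_dens_le {s : ℝ} (hs : |s| ≤ 1) (y : ℝ) : |1 + dl * s * gg y| ≤ 2 := by
  have h1 : |dl * s * gg y| ≤ 1 := by
    rw [abs_mul, abs_mul, abs_of_nonneg dl_nonneg]
    have := Vale.Agent.P161.abs_gg_le y
    calc dl * |s| * |gg y| ≤ 1 * 1 * 1 := by
          refine mul_le_mul (mul_le_mul (by norm_num [dl]) hs (abs_nonneg _) (by norm_num)) this
            (abs_nonneg _) (by norm_num)
      _ = 1 := by norm_num
  calc |1 + dl * s * gg y| ≤ |1| + |dl * s * gg y| := abs_add_le _ _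
    _ ≤ 2 := by rw [abs_one]; linarith

lemma measurable_gg : Measurable gg := by
  unfold gg
  exact (Vale.Agent.P161.continuous_proj.measurable.const_mul 2).sub_const 1

lemma abs_prod_dens_le (S : Finset I) (s : I → ℝ) (hs : ∀ c, |s c| ≤ 1) (w : I → ℝ) :
    |∏ c ∈ S, (1 + dl * s c * gg (w c))| ≤ 2 ^ S.card := by
  rw [Finset.abs_prod]
  calc ∏ c ∈ S, |1 + dl * s c * gg (w c)| ≤ ∏ _c ∈ S, (2 : ℝ) :=
        Finset.prod_le_prod (fun _ _ => abs_nonneg _) (fun c _ => abs_dens_le (hs c) _)
    _ = 2 ^ S.card := by simp

lemma measurable_prod_dens (S : Finset I) (s : I → ℝ) :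
    Measurable (fun w : I → ℝ => ∏ c ∈ S, (1 + dl * s c * gg (w c))) := by
  refine Finset.measurable_prod _ (fun c _ => ?_)
  exact ((measurable_gg.comp (measurable_pi_apply c)).const_mul _).const_add _

lemma gg_of_mem {x : ℝ} (h0 : 0 ≤ x) (h1 : x ≤ 1) : gg x = 2 * x - 1 := by
  unfold gg
  rw [Vale.Agent.P161.proj_of_mem h0 h1]

/-- The planting identity: masked channel outputs have the product density. -/
theorem plant [Countable I] (s : I → ℝ) (hs : ∀ c, |s c| ≤ 1) (S : Finset I) :
    ∀ {X : (I → ℝ) → ℝ} (_ : Measurable X) {C : ℝ} (_ : ∀ y, |X y| ≤ C),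
    ∫ w, X (maskS (S : Set I) (fun c => Tq dl (s c) (w c))) ∂(PP I)
      = ∫ w, X (maskS (S : Set I) w) * ∏ c ∈ S, (1 + dl * s c * gg (w c)) ∂(PP I) := by
  induction S using Finset.induction_on with
  | empty =>
    intro X _ C _
    have e : ∀ y : I → ℝ, maskS ((∅ : Finset I) : Set I) y = fun _ => 0 := by
      intro y; funext c; simp [maskS]
    simp only [e, Finset.prod_empty, mul_one]
  | insert c S hc ih =>
    intro X hX C hC
    have hTq : Measurable (fun p : ℝ × ℝ => Tq dl p.1 p.2) :=
      (Vale.Agent.P161.continuous_Tq dl_nonneg dl_le).measurable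
    have hcS : c ∉ (S : Set I) := by simpa using hc
    -- the integrated test function
    set X' : (I → ℝ) → ℝ := fun y => ∫ t in (0 : ℝ)..1, X (Function.update y c (Tq dl (s c) t))
      with hX'
    have hupd : Measurable (fun p : (I → ℝ) × ℝ => Function.update p.1 c (Tq dl (s c) p.2)) := by
      have h2 : Measurable (fun p : (I → ℝ) × ℝ => Tq dl (s c) p.2) :=
        hTq.comp (measurable_const.prodMk measurable_snd)
      exact (measurable_update' (a := c)).comp (measurable_fst.prodMk h2)
    have hX'm : Measurable X' := measurable_intervalIntegral_param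
      (F := fun y t => X (Function.update y c (Tq dl (s c) t))) (hX.comp hupd)
    have hX'b : ∀ y, |X' y| ≤ C := by
      intro y
      have := intervalIntegral.norm_integral_le_of_norm_le_const (a := (0 : ℝ)) (b := 1)
        (f := fun t => X (Function.update y c (Tq dl (s c) t))) (C := C)
        (fun t _ => by simpa using hC _)
      simpa using this
    have hY : Measurable (fun w : I → ℝ => (fun c' => Tq dl (s c') (w c') : I → ℝ)) := by
      refine measurable_pi_iff.2 fun c' => ?_
      exact hTq.comp (measurable_const.prodMk (measurable_pi_apply c'))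
    have hcoe : ((insert c S : Finset I) : Set I) = insert c (S : Set I) := by simp
    -- left-hand side
    have hL : ∫ w, X (maskS ((insert c S : Finset I) : Set I) (fun c' => Tq dl (s c') (w c'))) ∂(PP I)
        = ∫ w, X' (maskS (S : Set I) (fun c' => Tq dl (s c') (w c'))) ∂(PP I) := by
      rw [integral_resample c (G := fun w => X (maskS ((insert c S : Finset I) : Set I)
        (fun c' => Tq dl (s c') (w c')))) (hX.comp ((measurable_maskS _).comp hY))
        (C := C) (fun w => hC _)]
      refine integral_congr_ae (Filter.Eventually.of_forall (fun w => ?_))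
      simp only [hX']
      refine intervalIntegral.integral_congr (fun t _ => ?_)
      show X (maskS ((insert c S : Finset I) : Set I) _) = X (Function.update _ c _)
      rw [hcoe, maskS_insert]
      have e1 : (fun c' => Tq dl (s c') (Function.update w c t c')) =
          Function.update (fun c' => Tq dl (s c') (w c')) c (Tq dl (s c) t) := by
        funext c'
        by_cases h : c' = c
        · subst h; simp
        · simp [Function.update_of_ne h]
      rw [e1, maskS_update_not_mem hcS, Function.update_self]
    rw [hL, ih hX'm hX'b]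
    -- right-hand side
    set H : (I → ℝ) → ℝ := fun w => X (maskS ((insert c S : Finset I) : Set I) w)
      * ∏ c' ∈ insert c S, (1 + dl * s c' * gg (w c')) with hH
    have hHm : Measurable H :=
      (hX.comp (measurable_maskS _)).mul (measurable_prod_dens _ s)
    have hHb : ∀ w, |H w| ≤ C * 2 ^ (insert c S : Finset I).card := by
      intro w
      rw [hH]
      simp only []
      rw [abs_mul]
      exact mul_le_mul (hC _) (abs_prod_dens_le _ s hs w) (abs_nonneg _)
        ((abs_nonneg _).trans (hC 0))
    rw [integral_resample c hHm hHb]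
    refine integral_congr_ae (Filter.Eventually.of_forall (fun w => ?_))
    simp only [hX']
    -- integrate over the coordinate
    have hTint := Vale.Agent.P161.integral_Tq (δ := dl) dl_nonneg dl_le (hs c)
      (fun x => X (Function.update (maskS (S : Set I) w) c x))
    rw [hTint]
    rw [← intervalIntegral.integral_mul_const]
    refine intervalIntegral.integral_congr_ae (Filter.Eventually.of_forall (fun x hx => ?_))
    rw [uIoc_of_le zero_le_one] at hx
    simp only [hH]
    rw [Finset.prod_insert hc, Function.update_self, gg_of_mem hx.1.le hx.2, hcoe, maskS_insert,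
      maskS_update_not_mem hcS, Function.update_self]
    have e3 : ∏ c' ∈ S, (1 + dl * s c' * gg (Function.update w c x c'))
        = ∏ c' ∈ S, (1 + dl * s c' * gg (w c')) := by
      refine Finset.prod_congr rfl (fun c' hc' => ?_)
      have : c' ≠ c := fun e => hc (e ▸ hc')
      rw [Function.update_of_ne this]
    rw [e3]
    ring

end Vale.Agent.P143
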