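import Vale.Agent.P143.Tilt

set_option autoImplicit false

noncomputable section
open scoped Classical
open MeasureTheory Filter Topology
open Vale.Agent.P161 (PP unif clip proj Tq Fq gg aa CC)

namespace Vale.Agent.P143

variable {E : Type*}

/-- The planted observations: the channel with mean parameter the spin. -/
def yy (ω : (E → Bool) × (E × ℕ → ℝ)) (c : E × ℕ) : ℝ := Tq dl (spin (ω.1 c.1)) (ω.2 c)

lemma yy_mem (ω : (E → Bool) × (E × ℕ → ℝ)) (c : E × ℕ) : 0 ≤ yy ω c ∧ yy ω c ≤ 1 :=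
  Vale.Agent.P161.Tq_mem _ _

lemma measurable_yy : Measurable (yy : (E → Bool) × (E × ℕ → ℝ) → E × ℕ → ℝ) := by
  refine measurable_pi_iff.2 fun c => ?_
  unfold yy
  have hT : Measurable (fun p : ℝ × ℝ => Tq dl p.1 p.2) :=
    (Vale.Agent.P161.continuous_Tq dl_nonneg dl_le).measurable
  exact hT.comp (((measurable_spin_apply c.1).comp measurable_fst).prodMk
    ((measurable_pi_apply c).comp measurable_snd))

/-- The coordinates strictly before `c` in the order (round, label). -/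
def past (ℓ : E → ℝ) (c : E × ℕ) : Set (E × ℕ) :=
  {c' | c'.2 < c.2 ∨ (c'.2 = c.2 ∧ ℓ c'.1 < ℓ c.1)}

/-- The part of the past of `c` over the finite set `T`. -/
def Sk (ℓ : E → ℝ) (T : Finset E) (c : E × ℕ) : Finset (E × ℕ) :=
  T ×ˢ Finset.range c.2 ∪ (T.filter (fun g => ℓ g < ℓ c.1)) ×ˢ {c.2}

lemma mem_Sk {ℓ : E → ℝ} {T : Finset E} {c c' : E × ℕ} :
    c' ∈ Sk ℓ T c ↔ c'.1 ∈ T ∧ c' ∈ past ℓ c := by
  obtain ⟨g, i⟩ := c'
  simp only [Sk, past, Finset.mem_union, Finset.mem_product, Finset.mem_range, Finset.mem_filter,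
    Finset.mem_singleton, Set.mem_ofPred_eq]
  tauto

lemma Sk_mono {ℓ : E → ℝ} {T T' : Finset E} (h : T ⊆ T') (c : E × ℕ) : Sk ℓ T c ⊆ Sk ℓ T' c := by
  intro c' hc'
  rw [mem_Sk] at hc' ⊢
  exact ⟨h hc'.1, hc'.2⟩

lemma sum_Sk (ℓ : E → ℝ) (T : Finset E) (c : E × ℕ) (y : E × ℕ → ℝ) (σ : E → Bool) :
    ∑ c' ∈ Sk ℓ T c, aa dl (y c') * spin (σ c'.1) = ∑ f ∈ T, pfY ℓ y c f * spin (σ f) := by
  have hdisj : Disjoint (T ×ˢ Finset.range c.2) ((T.filter (fun g => ℓ g < ℓ c.1)) ×ˢ {c.2}) := by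
    rw [Finset.disjoint_left]
    rintro ⟨g, i⟩ h1 h2
    simp only [Finset.mem_product, Finset.mem_range, Finset.mem_singleton] at h1 h2
    have := h1.2
    have := h2.2
    simp_all
  unfold Sk
  rw [Finset.sum_union hdisj, Finset.sum_product, Finset.sum_product, Finset.sum_filter,
    ← Finset.sum_add_distrib]
  refine Finset.sum_congr rfl (fun f _ => ?_)
  simp only [Finset.sum_singleton, pfY, pastField, hY, add_mul, Finset.sum_mul]
  by_cases h : ℓ f < ℓ c.1 <;> simp [h]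

lemma pfY_congr {ℓ : E → ℝ} {c : E × ℕ} {y y' : E × ℕ → ℝ} {f : E}
    (h : ∀ c', c'.1 = f → c' ∈ past ℓ c → y c' = y' c') : pfY ℓ y c f = pfY ℓ y' c f := by
  unfold pfY pastField hY
  congr 1
  · refine Finset.sum_congr rfl (fun i hi => ?_)
    rw [h (f, i) rfl (Or.inl (Finset.mem_range.1 hi))]
  · by_cases hf : ℓ f < ℓ c.1
    · simp only [hf, if_true]
      rw [h (f, c.2) rfl (Or.inr ⟨rfl, hf⟩)]
    · simp only [hf, if_false]

lemma pfY_mask {ℓ : E → ℝ} {T : Finset E} {c : E × ℕ} (y : E × ℕ → ℝ) {f : E} (hf : f ∈ T) :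
    pfY ℓ (maskS (Sk ℓ T c : Set (E × ℕ)) y) c f = pfY ℓ y c f := by
  refine pfY_congr (fun c' hc' hp => ?_)
  have : c' ∈ Sk ℓ T c := mem_Sk.2 ⟨hc' ▸ hf, hp⟩
  simp [maskS, this]

lemma pfY_mask_past (ℓ : E → ℝ) (c : E × ℕ) (y : E × ℕ → ℝ) :
    pfY ℓ (maskS (past ℓ c) y) c = pfY ℓ y c := by
  funext f
  refine pfY_congr (fun c' _ hp => ?_)
  simp [maskS, hp]

lemma measurable_hY (j : ℕ) (f : E) : Measurable (fun y : E × ℕ → ℝ => hY y j f) := by
  unfold hY
  refine Finset.measurable_sum _ (fun i _ => ?_)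
  exact (Vale.Agent.P161.continuous_aa dl_nonneg dl_le).measurable.comp (measurable_pi_apply _)

lemma measurable_pfY (ℓ : E → ℝ) (c : E × ℕ) : Measurable (fun y : E × ℕ → ℝ => pfY ℓ y c) := by
  refine measurable_pi_iff.2 fun g => ?_
  unfold pfY pastField
  refine (measurable_hY _ _).add ?_
  by_cases h : ℓ g < ℓ c.1
  · simp only [h, if_true]
    exact (Vale.Agent.P161.continuous_aa dl_nonneg dl_le).measurable.comp (measurable_pi_apply _)
  · simp only [h, if_false]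
    exact measurable_const

/-- The likelihood of the observations on the finite set `S`. -/
def dens (S : Finset (E × ℕ)) (σ : E → Bool) (w : E × ℕ → ℝ) : ℝ :=
  ∏ c ∈ S, (1 + dl * spin (σ c.1) * gg (w c))

/-- The prefactor of the likelihood. -/
def Cw (S : Finset (E × ℕ)) (w : E × ℕ → ℝ) : ℝ := ∏ c ∈ S, CC dl (w c)

lemma dens_eq (ℓ : E → ℝ) (T : Finset E) (c : E × ℕ) (σ : E → Bool) (w : E × ℕ → ℝ) :
    dens (Sk ℓ T c) σ w = Cw (Sk ℓ T c) w * tiltExp T (pfY ℓ w c) σ := by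
  unfold dens Cw tiltExp
  rw [← sum_Sk ℓ T c w σ, Real.exp_sum, ← Finset.prod_mul_distrib]
  refine Finset.prod_congr rfl (fun c' _ => ?_)
  exact (Vale.Agent.P161.bayes_factor dl_nonneg dl_le _ _ (spin_cases _)).symm

lemma abs_dens_le' (S : Finset (E × ℕ)) (σ : E → Bool) (w : E × ℕ → ℝ) :
    |dens S σ w| ≤ 2 ^ S.card := by
  have h := abs_prod_dens_le S (fun c => spin (σ c.1)) (fun c => (abs_spin _).le) w
  exact h

lemma measurable_dens (S : Finset (E × ℕ)) :
    Measurable (fun p : (E → Bool) × (E × ℕ → ℝ) => dens S p.1 p.2) := by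
  unfold dens
  refine Finset.measurable_prod _ (fun c _ => ?_)
  refine Measurable.const_add ?_ _
  refine Measurable.mul ?_ ?_
  · exact ((measurable_spin_apply c.1).comp measurable_fst).const_mul _
  · exact measurable_gg.comp ((measurable_pi_apply c).comp measurable_snd)

section plant

variable [Countable E] (μ : Measure (E → Bool)) [IsProbabilityMeasure μ]

/-- The joint law of the spins and the masked observations. -/
theorem integral_plant (S : Finset (E × ℕ)) {X : (E × ℕ → ℝ) → ℝ} (hX : Measurable X) {C : ℝ}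
    (hXb : ∀ y, |X y| ≤ C) {ψ : (E → Bool) → ℝ} (hψ : Measurable ψ) {D : ℝ}
    (hψb : ∀ σ, |ψ σ| ≤ D) :
    ∫ ω, X (maskS (S : Set (E × ℕ)) (yy ω)) * ψ ω.1 ∂(μ.prod (PP (E × ℕ)))
      = ∫ w, X (maskS (S : Set (E × ℕ)) w) * ∫ σ, dens S σ w * ψ σ ∂μ ∂(PP (E × ℕ)) := by
  have hC : 0 ≤ C := (abs_nonneg _).trans (hXb 0)
  have hD : 0 ≤ D := (abs_nonneg _).trans (hψb (fun _ => true))
  have hm1 : Measurable (fun ω : (E → Bool) × (E × ℕ → ℝ) =>
      X (maskS (S : Set (E × ℕ)) (yy ω)) * ψ ω.1) :=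
    (hX.comp ((measurable_maskS _).comp measurable_yy)).mul (hψ.comp measurable_fst)
  have hi1 : Integrable (fun ω : (E → Bool) × (E × ℕ → ℝ) =>
      X (maskS (S : Set (E × ℕ)) (yy ω)) * ψ ω.1) (μ.prod (PP (E × ℕ))) := by
    refine Integrable.mono' (integrable_const (C * D)) hm1.aestronglyMeasurable ?_
    refine Filter.Eventually.of_forall (fun ω => ?_)
    rw [Real.norm_eq_abs, abs_mul]
    exact mul_le_mul (hXb _) (hψb _) (abs_nonneg _) hC
  rw [integral_prod _ hi1]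
  -- apply the planting identity for fixed spins
  have hstep : ∀ σ : E → Bool,
      ∫ w, X (maskS (S : Set (E × ℕ)) (yy (σ, w))) * ψ σ ∂(PP (E × ℕ))
        = ∫ w, X (maskS (S : Set (E × ℕ)) w) * (dens S σ w * ψ σ) ∂(PP (E × ℕ)) := by
    intro σ
    rw [integral_mul_const]
    have h := plant (fun c : E × ℕ => spin (σ c.1)) (fun c => (abs_spin _).le) S hX hXb
    have e : ∀ w : E × ℕ → ℝ, yy (σ, w) = fun c => Tq dl (spin (σ c.1)) (w c) := fun _ => rfl
    simp only [e]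
    rw [h, ← integral_mul_const]
    refine integral_congr_ae (Filter.Eventually.of_forall (fun w => ?_))
    simp only [dens]
    ring
  simp only [hstep]
  -- swap the integrals
  have hm2 : Measurable (fun p : (E → Bool) × (E × ℕ → ℝ) =>
      X (maskS (S : Set (E × ℕ)) p.2) * (dens S p.1 p.2 * ψ p.1)) :=
    (hX.comp ((measurable_maskS _).comp measurable_snd)).mul
      ((measurable_dens S).mul (hψ.comp measurable_fst))
  have hi2 : Integrable (Function.uncurry (fun (σ : E → Bool) (w : E × ℕ → ℝ) =>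
      X (maskS (S : Set (E × ℕ)) w) * (dens S σ w * ψ σ))) (μ.prod (PP (E × ℕ))) := by
    refine Integrable.mono' (integrable_const (C * (2 ^ S.card * D))) hm2.aestronglyMeasurable ?_
    refine Filter.Eventually.of_forall (fun p => ?_)
    simp only [Function.uncurry]
    rw [Real.norm_eq_abs, abs_mul, abs_mul]
    exact mul_le_mul (hXb _) (mul_le_mul (abs_dens_le' S _ _) (hψb _) (abs_nonneg _)
      (by positivity)) (by positivity) hC
  rw [integral_integral_swap hi2]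
  refine integral_congr_ae (Filter.Eventually.of_forall (fun w => ?_))
  simp only []
  rw [integral_const_mul]

variable {μ}

/-- The finite-volume Bayes formula. -/
theorem fin_level (ℓ : E → ℝ) (T : Finset E) (c : E × ℕ) {X : (E × ℕ → ℝ) → ℝ}
    (hX : Measurable X) {C : ℝ} (hXb : ∀ y, |X y| ≤ C) :
    ∫ ω, X (maskS (Sk ℓ T c : Set (E × ℕ)) (yy ω)) * tiltMean μ T (pfY ℓ (yy ω) c) c.1
        ∂(μ.prod (PP (E × ℕ)))
      = ∫ ω, X (maskS (Sk ℓ T c : Set (E × ℕ)) (yy ω)) * spin (ω.1 c.1)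
        ∂(μ.prod (PP (E × ℕ))) := by
  set S := Sk ℓ T c with hS
  have hC : 0 ≤ C := (abs_nonneg _).trans (hXb 0)
  set τ : (E × ℕ → ℝ) → ℝ := fun y => tiltMean μ T (pfY ℓ y c) c.1 with hτ
  have hτm : Measurable τ := (measurable_tiltMean μ T c.1).comp (measurable_pfY ℓ c)
  have hτb : ∀ y, |τ y| ≤ 1 := fun y => abs_tiltMean_le μ _ _ _
  have hτmask : ∀ y, τ (maskS (S : Set (E × ℕ)) y) = τ y := by
    intro y
    exact tiltMean_congr (fun f hf => pfY_mask y hf) _
  have h1 := integral_plant μ S (X := fun y => X y * τ y) (hX.mul hτm) (C := C * 1)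
    (fun y => by
      rw [abs_mul]
      exact mul_le_mul (hXb y) (hτb y) (abs_nonneg _) hC)
    (ψ := fun _ => 1) measurable_const (D := 1) (fun _ => by simp)
  have h2 := integral_plant μ S hX hXb (ψ := fun σ => spin (σ c.1)) (measurable_spin_apply c.1)
    (D := 1) (fun σ => (abs_spin _).le)
  have e1 : ∫ ω, X (maskS (S : Set (E × ℕ)) (yy ω)) * tiltMean μ T (pfY ℓ (yy ω) c) c.1
        ∂(μ.prod (PP (E × ℕ)))
      = ∫ ω, X (maskS (S : Set (E × ℕ)) (yy ω)) * τ (maskS (S : Set (E × ℕ)) (yy ω)) * 1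
        ∂(μ.prod (PP (E × ℕ))) := by
    refine integral_congr_ae (Filter.Eventually.of_forall (fun ω => ?_))
    show X _ * τ (yy ω) = X _ * τ (maskS (S : Set (E × ℕ)) (yy ω)) * 1
    rw [hτmask, mul_one]
  rw [e1, h1, h2]
  refine integral_congr_ae (Filter.Eventually.of_forall (fun w => ?_))
  simp only [hτmask]
  have e2 : ∫ σ, dens S σ w * 1 ∂μ = Cw S w * ∫ σ, tiltExp T (pfY ℓ w c) σ ∂μ := by
    rw [← integral_const_mul]
    refine integral_congr_ae (Filter.Eventually.of_forall (fun σ => ?_))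
    simp only [hS, mul_one]
    exact dens_eq ℓ T c σ w
  have e3 : ∫ σ, dens S σ w * spin (σ c.1) ∂μ
      = Cw S w * ∫ σ, spin (σ c.1) * tiltExp T (pfY ℓ w c) σ ∂μ := by
    rw [← integral_const_mul]
    refine integral_congr_ae (Filter.Eventually.of_forall (fun σ => ?_))
    simp only [hS]
    rw [dens_eq ℓ T c σ w]
    ring
  rw [e2, e3, ← tiltMean_mul_den μ T (pfY ℓ w c) c.1]
  simp only [hτ]
  ring

/-- The `σ`-algebra of the observations on the part of the past over `T`. -/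
@[reducible] def FF (ℓ : E → ℝ) (T : Finset E) (c : E × ℕ) : MeasurableSpace ((E → Bool) × (E × ℕ → ℝ)) :=
  MeasurableSpace.comap (fun ω => maskS (Sk ℓ T c : Set (E × ℕ)) (yy ω)) inferInstance

lemma measurable_mask_FF (ℓ : E → ℝ) (T : Finset E) (c : E × ℕ) :
    Measurable[FF ℓ T c] (fun ω : (E → Bool) × (E × ℕ → ℝ) => maskS (Sk ℓ T c : Set (E × ℕ)) (yy ω)) :=
  comap_measurable _

lemma FF_le (ℓ : E → ℝ) (T : Finset E) (c : E × ℕ) :
    FF ℓ T c ≤ (inferInstance : MeasurableSpace ((E → Bool) × (E × ℕ → ℝ))) :=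
  ((measurable_maskS _).comp measurable_yy).comap_le

lemma maskS_maskS {s t : Set (E × ℕ)} (h : s ⊆ t) (y : E × ℕ → ℝ) :
    maskS s (maskS t y) = maskS s y := by
  funext c
  unfold maskS
  by_cases hc : c ∈ s
  · simp [hc, h hc]
  · simp [hc]

lemma FF_mono (ℓ : E → ℝ) {T T' : Finset E} (h : T ⊆ T') (c : E × ℕ) : FF ℓ T c ≤ FF ℓ T' c := by
  unfold FF
  have e : (fun ω : (E → Bool) × (E × ℕ → ℝ) => maskS (Sk ℓ T c : Set (E × ℕ)) (yy ω))
      = maskS (Sk ℓ T c : Set (E × ℕ)) ∘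
        (fun ω => maskS (Sk ℓ T' c : Set (E × ℕ)) (yy ω)) := by
    funext ω
    simp only [Function.comp]
    rw [maskS_maskS (by exact_mod_cast Sk_mono h c)]
  rw [e, ← MeasurableSpace.comap_comp]
  exact MeasurableSpace.comap_mono (measurable_maskS _).comap_le

/-- The finite-volume posterior mean. -/
theorem condExp_fin (ℓ : E → ℝ) (T : Finset E) (c : E × ℕ) :
    (fun ω : (E → Bool) × (E × ℕ → ℝ) => tiltMean μ T (pfY ℓ (yy ω) c) c.1)
      =ᵐ[μ.prod (PP (E × ℕ))]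
        (μ.prod (PP (E × ℕ)))[fun ω => spin (ω.1 c.1) | FF ℓ T c] := by
  have hm0 : Measurable (fun ω : (E → Bool) × (E × ℕ → ℝ) => spin (ω.1 c.1)) :=
    (measurable_spin_apply c.1).comp measurable_fst
  have hif : Integrable (fun ω : (E → Bool) × (E × ℕ → ℝ) => spin (ω.1 c.1))
      (μ.prod (PP (E × ℕ))) := by
    refine Integrable.mono' (integrable_const (1 : ℝ)) hm0.aestronglyMeasurable ?_
    exact Filter.Eventually.of_forall (fun ω => by simp [abs_spin])
  set τ : (E × ℕ → ℝ) → ℝ := fun y => tiltMean μ T (pfY ℓ y c) c.1 with hτ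
  have hτm : Measurable τ := (measurable_tiltMean μ T c.1).comp (measurable_pfY ℓ c)
  have hτmask : ∀ y, τ (maskS (Sk ℓ T c : Set (E × ℕ)) y) = τ y := by
    intro y
    exact tiltMean_congr (fun f hf => pfY_mask y hf) _
  have hg : Measurable (fun ω : (E → Bool) × (E × ℕ → ℝ) => τ (yy ω)) :=
    hτm.comp measurable_yy
  refine ae_eq_condExp_of_forall_setIntegral_eq (FF_le ℓ T c) hif ?_ ?_ ?_
  · intro s _ _
    refine Integrable.integrableOn ?_
    refine Integrable.mono' (integrable_const (1 : ℝ)) hg.aestronglyMeasurable ?_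
    exact Filter.Eventually.of_forall (fun ω => by simpa using abs_tiltMean_le μ T _ _)
  · intro s hs _
    obtain ⟨D, hD, rfl⟩ := hs
    have hs' : MeasurableSet ((fun ω : (E → Bool) × (E × ℕ → ℝ) =>
        maskS (Sk ℓ T c : Set (E × ℕ)) (yy ω)) ⁻¹' D) :=
      ((measurable_maskS _).comp measurable_yy) hD
    have hX : Measurable (D.indicator (fun _ => (1 : ℝ))) := measurable_const.indicator hD
    have hXb : ∀ y, |D.indicator (fun _ => (1 : ℝ)) y| ≤ 1 := by
      intro y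
      by_cases h : y ∈ D <;> simp [h]
    have key := fin_level (μ := μ) ℓ T c hX hXb
    have e1 : ∀ f : (E → Bool) × (E × ℕ → ℝ) → ℝ,
        ((fun ω : (E → Bool) × (E × ℕ → ℝ) => maskS (Sk ℓ T c : Set (E × ℕ)) (yy ω)) ⁻¹' D).indicator f
          = fun ω => D.indicator (fun _ => (1 : ℝ)) (maskS (Sk ℓ T c : Set (E × ℕ)) (yy ω)) * f ω := by
      intro f
      funext ω
      by_cases h : maskS (Sk ℓ T c : Set (E × ℕ)) (yy ω) ∈ D <;> simp [Set.indicator, h]
    rw [← integral_indicator hs', ← integral_indicator hs', e1, e1]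
    exact key
  · have : StronglyMeasurable[FF ℓ T c] (fun ω : (E → Bool) × (E × ℕ → ℝ) => τ (yy ω)) := by
      have h2 : (fun ω : (E → Bool) × (E × ℕ → ℝ) => τ (yy ω))
          = τ ∘ (fun ω => maskS (Sk ℓ T c : Set (E × ℕ)) (yy ω)) := by
        funext ω
        simp only [Function.comp, hτmask]
      rw [h2]
      exact (hτm.comp (measurable_mask_FF ℓ T c)).stronglyMeasurable
    exact this.aestronglyMeasurable

/-- The filtration of the balls around the site of `c`. -/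
def FFilt (ℓ : E → ℝ) (B : E → ℕ → Finset E) (hB : ∀ f, Monotone (B f)) (c : E × ℕ) :
    Filtration ℕ (inferInstance : MeasurableSpace ((E → Bool) × (E × ℕ → ℝ))) where
  seq k := FF ℓ (B c.1 k) c
  mono' _ _ h := FF_mono ℓ (hB c.1 h) c
  le' k := FF_le ℓ (B c.1 k) c

/-- The posterior mean of the spin given the whole past. -/
theorem mt_eq_condExp (ℓ : E → ℝ) (B : E → ℕ → Finset E) (hB : ∀ f, Monotone (B f)) (c : E × ℕ) :
    (fun ω : (E → Bool) × (E × ℕ → ℝ) => mt μ B c.1 (pfY ℓ (yy ω) c))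
      =ᵐ[μ.prod (PP (E × ℕ))]
        (μ.prod (PP (E × ℕ)))[fun ω => spin (ω.1 c.1) | ⨆ k, FFilt ℓ B hB c k] := by
  have h1 := tendsto_ae_condExp (μ := μ.prod (PP (E × ℕ))) (ℱ := FFilt ℓ B hB c)
    (fun ω : (E → Bool) × (E × ℕ → ℝ) => spin (ω.1 c.1))
  have h2 : ∀ᵐ ω ∂(μ.prod (PP (E × ℕ))), ∀ k, tiltMean μ (B c.1 k) (pfY ℓ (yy ω) c) c.1
      = ((μ.prod (PP (E × ℕ)))[fun ω => spin (ω.1 c.1) | FFilt ℓ B hB c k]) ω := by
    rw [ae_all_iff]
    intro k
    exact condExp_fin ℓ (B c.1 k) c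
  filter_upwards [h1, h2] with ω h3 h4
  unfold mt
  refine Tendsto.limsup_eq ?_
  simp only [h4]
  exact h3

/-- The join of the filtration of the balls around the site of `c`. -/
@[reducible] def GG (ℓ : E → ℝ) (B : E → ℕ → Finset E) (hB : ∀ f, Monotone (B f)) (c : E × ℕ) :
    MeasurableSpace ((E → Bool) × (E × ℕ → ℝ)) := ⨆ k, FFilt ℓ B hB c k

/-- The masked observations are measurable for the join. -/
lemma measurable_mask_GG (ℓ : E → ℝ) (B : E → ℕ → Finset E) (hB : ∀ f, Monotone (B f))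
    (hBex : ∀ f g, ∃ k, g ∈ B f k) (c : E × ℕ) :
    Measurable[GG ℓ B hB c] (fun ω : (E → Bool) × (E × ℕ → ℝ) => maskS (past ℓ c) (yy ω)) := by
  refine (@measurable_pi_iff _ _ _ (GG ℓ B hB c) _ _).2 fun c' => ?_
  by_cases hc' : c' ∈ past ℓ c
  · obtain ⟨k, hk⟩ := hBex c.1 c'.1
    have hmem : c' ∈ Sk ℓ (B c.1 k) c := mem_Sk.2 ⟨hk, hc'⟩
    have h1 : (fun ω : (E → Bool) × (E × ℕ → ℝ) => maskS (past ℓ c) (yy ω) c')
        = (fun y : E × ℕ → ℝ => y c') ∘
          (fun ω => maskS (Sk ℓ (B c.1 k) c : Set (E × ℕ)) (yy ω)) := by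
      funext ω
      simp [maskS, hc', hmem]
    rw [h1]
    exact ((measurable_pi_apply c').comp (measurable_mask_FF ℓ (B c.1 k) c)).mono
      (le_iSup (FFilt ℓ B hB c) k) le_rfl
  · simp only [maskS, hc', if_false]
    exact @measurable_const _ _ _ (GG ℓ B hB c) _

/-- The posterior-mean identity tested against functions of the past. -/
theorem post (ℓ : E → ℝ) (B : E → ℕ → Finset E) (hB : ∀ f, Monotone (B f))
    (hBex : ∀ f g, ∃ k, g ∈ B f k) (c : E × ℕ) {X : (E × ℕ → ℝ) → ℝ}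
    (hX : Measurable X) {C : ℝ} (hXb : ∀ y, |X y| ≤ C) :
    ∫ ω, X (maskS (past ℓ c) (yy ω)) * spin (ω.1 c.1) ∂(μ.prod (PP (E × ℕ)))
      = ∫ ω, X (maskS (past ℓ c) (yy ω)) * mt μ B c.1 (pfY ℓ (yy ω) c) ∂(μ.prod (PP (E × ℕ))) := by
  have hle : GG ℓ B hB c ≤ (inferInstance : MeasurableSpace ((E → Bool) × (E × ℕ → ℝ))) :=
    iSup_le (fun k => (FFilt ℓ B hB c).le k)
  have hm0 : Measurable (fun ω : (E → Bool) × (E × ℕ → ℝ) => spin (ω.1 c.1)) :=
    (measurable_spin_apply c.1).comp measurable_fst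
  have hif : Integrable (fun ω : (E → Bool) × (E × ℕ → ℝ) => spin (ω.1 c.1))
      (μ.prod (PP (E × ℕ))) := by
    refine Integrable.mono' (integrable_const (1 : ℝ)) hm0.aestronglyMeasurable ?_
    exact Filter.Eventually.of_forall (fun ω => by simp [abs_spin])
  have hXs : StronglyMeasurable[GG ℓ B hB c]
      (fun ω : (E → Bool) × (E × ℕ → ℝ) => X (maskS (past ℓ c) (yy ω))) :=
    (hX.comp (measurable_mask_GG ℓ B hB hBex c)).stronglyMeasurable
  have hpull := condExp_stronglyMeasurable_mul_of_bound (μ := μ.prod (PP (E × ℕ))) hle hXs hif C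
    (Filter.Eventually.of_forall (fun ω => by simpa using hXb _))
  have hint := integral_condExp (μ := μ.prod (PP (E × ℕ)))
    (f := (fun ω : (E → Bool) × (E × ℕ → ℝ) => X (maskS (past ℓ c) (yy ω))) *
      (fun ω : (E → Bool) × (E × ℕ → ℝ) => spin (ω.1 c.1))) hle
  have e1 : ∫ ω, X (maskS (past ℓ c) (yy ω)) * spin (ω.1 c.1) ∂(μ.prod (PP (E × ℕ)))
      = ∫ ω, ((fun ω : (E → Bool) × (E × ℕ → ℝ) => X (maskS (past ℓ c) (yy ω))) *
      (fun ω : (E → Bool) × (E × ℕ → ℝ) => spin (ω.1 c.1))) ω ∂(μ.prod (PP (E × ℕ))) := rfl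
  rw [e1, ← hint]
  refine integral_congr_ae ?_
  filter_upwards [hpull, mt_eq_condExp (μ := μ) ℓ B hB c] with ω h1 h2
  rw [h1]
  simp only [Pi.mul_apply]
  rw [← h2]

end plant

end Vale.Agent.P143
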