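import Vale.Agent.P143.Plant
import Vale.Agent.P143.Dec

set_option autoImplicit false

noncomputable section
open scoped Classical
open MeasureTheory Filter Topology
open Vale.Agent.P161 (PP unif clip proj Tq Fq gg aa CC)

namespace Vale.Agent.P143

variable {E : Type*}

/-- The `±1` spin of a Boolean. -/
def spin (b : Bool) : ℝ := if b then 1 else -1

lemma spin_cases (b : Bool) : spin b = 1 ∨ spin b = -1 := by cases b <;> simp [spin]

lemma abs_spin (b : Bool) : |spin b| = 1 := by cases b <;> simp [spin]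

/-- `m` is `2`-Lipschitz in the field for the sup norm. -/
def Lip2 (m : E → (E → ℝ) → ℝ) : Prop :=
  ∀ f h h' M, (∀ g, |h g - h' g| ≤ M) → |m f h - m f h'| ≤ 2 * M

/-- The field seen by the site `f`: accumulated field `H`, plus the current increments `A` of
the sites with a smaller label. -/
def pastField (ℓ H A : E → ℝ) (f g : E) : ℝ := H g + if ℓ g < ℓ f then A g else 0

/-- The channel response at `f` to the increments `A`. -/
def resp (m : E → (E → ℝ) → ℝ) (ℓ H zj A : E → ℝ) (f : E) : ℝ :=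
  aa dl (Tq dl (m f (pastField ℓ H A f)) (zj f))

/-- Picard iteration of the response map. -/
def pic (m : E → (E → ℝ) → ℝ) (ℓ H zj : E → ℝ) : ℕ → E → ℝ
  | 0 => fun _ => 0
  | k + 1 => resp m ℓ H zj (pic m ℓ H zj k)

/-- The increment of one round: the limit of the Picard iteration. -/
def incr (m : E → (E → ℝ) → ℝ) (ℓ H zj : E → ℝ) (f : E) : ℝ :=
  limsup (fun k => pic m ℓ H zj k f) atTop

/-- The accumulated field of the scheme run on the noise `z`. -/
def hrun (m : E → (E → ℝ) → ℝ) (ℓ : E → ℝ) (z : E × ℕ → ℝ) : ℕ → E → ℝ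
  | 0 => fun _ => 0
  | j + 1 => fun f => hrun m ℓ z j f + incr m ℓ (hrun m ℓ z j) (fun g => z (g, j)) f

/-- The normalising constants of the decoder. -/
def Kd (i : ℕ) : ℝ := 1 / (((2 ^ i : ℕ) : ℝ) * kapD dl)

/-- The decoded spin (real-valued). -/
def decR (m : E → (E → ℝ) → ℝ) (ℓ : E → ℝ) (z : E × ℕ → ℝ) (f : E) : ℝ :=
  limsup (fun i => clip (Kd i * hrun m ℓ z (2 ^ i) f)) atTop

/-- The output of the scheme. -/
def Out (m : E → (E → ℝ) → ℝ) (ℓ : E → ℝ) (z : E × ℕ → ℝ) : E → Bool :=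
  fun f => decide (0 ≤ decR m ℓ z f)

section unique

variable {m : E → (E → ℝ) → ℝ} {ℓ H zj A : E → ℝ}

lemma pic_sub_le (hm : Lip2 m) (hA : ∀ f, |A f| ≤ 1) (hfix : ∀ f, A f = resp m ℓ H zj A f)
    (k : ℕ) : ∀ f, |pic m ℓ H zj k f - A f| ≤ (1 / 4 : ℝ) ^ k := by
  induction k with
  | zero =>
    intro f
    simpa [pic] using hA f
  | succ k ih =>
    intro f
    have e : pic m ℓ H zj (k + 1) f = resp m ℓ H zj (pic m ℓ H zj k) f := rfl
    rw [e, hfix f]
    unfold resp
    have h1 := Vale.Agent.P161.response_lip (δ := dl) dl_nonneg dl_le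
      (m f (pastField ℓ H (pic m ℓ H zj k) f)) (m f (pastField ℓ H (resp m ℓ H zj A |> fun _ => A) f))
      (zj f) (zj f)
    have h2 : |m f (pastField ℓ H (pic m ℓ H zj k) f) - m f (pastField ℓ H A f)|
        ≤ 2 * (1 / 4 : ℝ) ^ k := by
      refine hm f _ _ _ (fun g => ?_)
      unfold pastField
      by_cases hg : ℓ g < ℓ f
      · simp only [hg, if_true]
        have : H g + pic m ℓ H zj k g - (H g + A g) = pic m ℓ H zj k g - A g := by ring
        rw [this]
        exact ih g
      · simp only [hg, if_false]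
        simp
    simp only [sub_self, abs_zero, mul_zero, zero_add] at h1
    have hfa : A f = aa dl (Tq dl (m f (pastField ℓ H A f)) (zj f)) := hfix f
    rw [← hfa]
    have hdl : (2 : ℝ) * dl ^ 2 = 1 / 8 := by norm_num [dl]
    rw [hdl] at h1
    calc |aa dl (Tq dl (m f (pastField ℓ H (pic m ℓ H zj k) f)) (zj f)) - A f|
        ≤ 1 / 8 * |m f (pastField ℓ H (pic m ℓ H zj k) f) - m f (pastField ℓ H A f)| := by
          rw [hfa]
          exact h1
      _ ≤ 1 / 8 * (2 * (1 / 4 : ℝ) ^ k) := mul_le_mul_of_nonneg_left h2 (by norm_num)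
      _ = (1 / 4 : ℝ) ^ (k + 1) := by rw [pow_succ]; ring

lemma incr_eq (hm : Lip2 m) (hA : ∀ f, |A f| ≤ 1) (hfix : ∀ f, A f = resp m ℓ H zj A f) (f : E) :
    incr m ℓ H zj f = A f := by
  unfold incr
  refine Tendsto.limsup_eq ?_
  rw [tendsto_iff_dist_tendsto_zero]
  refine squeeze_zero (fun _ => dist_nonneg) (fun k => ?_)
    (tendsto_pow_atTop_nhds_zero_of_lt_one (by norm_num : (0 : ℝ) ≤ 1 / 4) (by norm_num))
  rw [Real.dist_eq]
  exact pic_sub_le hm hA hfix k f

end unique

/-- The accumulated log-likelihood field of the observations `y`. -/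
def hY (y : E × ℕ → ℝ) (j : ℕ) (f : E) : ℝ := ∑ i ∈ Finset.range j, aa dl (y (f, i))

/-- The past field of the observations `y` at the coordinate `c`. -/
def pfY (ℓ : E → ℝ) (y : E × ℕ → ℝ) (c : E × ℕ) : E → ℝ :=
  pastField ℓ (hY y c.2) (fun g => aa dl (y (g, c.2))) c.1

/-- The encoder: observations to noise. -/
def zzY (m : E → (E → ℝ) → ℝ) (ℓ : E → ℝ) (y : E × ℕ → ℝ) (c : E × ℕ) : ℝ :=
  Fq dl (m c.1 (pfY ℓ y c)) (y c)

/-- The scheme run on the encoded noise recovers the accumulated field. -/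
theorem hrun_zzY {m : E → (E → ℝ) → ℝ} (hm : Lip2 m) (ℓ : E → ℝ) {y : E × ℕ → ℝ}
    (hy : ∀ c, 0 ≤ y c ∧ y c ≤ 1) (j : ℕ) : hrun m ℓ (zzY m ℓ y) j = hY y j := by
  induction j with
  | zero => funext f; simp [hrun, hY]
  | succ j ih =>
    funext f
    have e0 : hrun m ℓ (zzY m ℓ y) (j + 1) f = hrun m ℓ (zzY m ℓ y) j f
        + incr m ℓ (hrun m ℓ (zzY m ℓ y) j) (fun g => zzY m ℓ y (g, j)) f := rfl
    rw [e0, ih]
    have hA : ∀ g, |(fun g => aa dl (y (g, j))) g| ≤ 1 := fun g =>
      Vale.Agent.P161.abs_aa_le dl_nonneg dl_le _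
    have hfix : ∀ g, (fun g => aa dl (y (g, j))) g
        = resp m ℓ (hY y j) (fun g => zzY m ℓ y (g, j)) (fun g => aa dl (y (g, j))) g := by
      intro g
      unfold resp zzY
      have : pastField ℓ (hY y j) (fun g => aa dl (y (g, j))) g = pfY ℓ y (g, j) := rfl
      simp only [this]
      rw [Vale.Agent.P161.Tq_Fq dl_nonneg dl_le _ (hy (g, j))]
    rw [incr_eq hm hA hfix f]
    simp [hY, Finset.sum_range_succ]

/-- If the clipped normalised fields converge to the spins, the scheme outputs the spins. -/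
theorem Out_zzY {m : E → (E → ℝ) → ℝ} (hm : Lip2 m) (ℓ : E → ℝ) {y : E × ℕ → ℝ}
    (hy : ∀ c, 0 ≤ y c ∧ y c ≤ 1) {σ : E → Bool}
    (hs : ∀ f, Tendsto (fun i => clip (Kd i * hY y (2 ^ i) f)) atTop (𝓝 (spin (σ f)))) :
    Out m ℓ (zzY m ℓ y) = σ := by
  funext f
  have hd : decR m ℓ (zzY m ℓ y) f = spin (σ f) := by
    unfold decR
    refine Tendsto.limsup_eq ?_
    simp only [hrun_zzY hm ℓ hy]
    exact hs f
  unfold Out
  rw [hd]
  cases h : σ f <;> simp [spin]

section measurable

variable {X : Type*} [MeasurableSpace X]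

lemma measurable_pastField {ℓ H A : X → E → ℝ} (f : E) (hℓ : ∀ g, Measurable (fun x => ℓ x g))
    (hH : ∀ g, Measurable (fun x => H x g)) (hA : ∀ g, Measurable (fun x => A x g)) :
    Measurable (fun x => pastField (ℓ x) (H x) (A x) f) := by
  refine measurable_pi_iff.2 fun g => ?_
  unfold pastField
  refine (hH g).add (Measurable.ite ?_ (hA g) measurable_const)
  exact measurableSet_lt (hℓ g) (hℓ f)

lemma measurable_resp {m : X → E → (E → ℝ) → ℝ} {ℓ H zj A : X → E → ℝ}
    (hm : ∀ f, Measurable (fun p : X × (E → ℝ) => m p.1 f p.2))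
    (hℓ : ∀ g, Measurable (fun x => ℓ x g)) (hH : ∀ g, Measurable (fun x => H x g))
    (hz : ∀ g, Measurable (fun x => zj x g)) (hA : ∀ g, Measurable (fun x => A x g)) (f : E) :
    Measurable (fun x => resp (m x) (ℓ x) (H x) (zj x) (A x) f) := by
  unfold resp
  have hT : Measurable (fun p : ℝ × ℝ => Tq dl p.1 p.2) :=
    (Vale.Agent.P161.continuous_Tq dl_nonneg dl_le).measurable
  have h1 : Measurable (fun x => m x f (pastField (ℓ x) (H x) (A x) f)) :=
    (hm f).comp (measurable_id.prodMk (measurable_pastField f hℓ hH hA))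
  exact (Vale.Agent.P161.continuous_aa dl_nonneg dl_le).measurable.comp (hT.comp (h1.prodMk (hz f)))

lemma measurable_pic {m : X → E → (E → ℝ) → ℝ} {ℓ H zj : X → E → ℝ}
    (hm : ∀ f, Measurable (fun p : X × (E → ℝ) => m p.1 f p.2))
    (hℓ : ∀ g, Measurable (fun x => ℓ x g)) (hH : ∀ g, Measurable (fun x => H x g))
    (hz : ∀ g, Measurable (fun x => zj x g)) (k : ℕ) (f : E) :
    Measurable (fun x => pic (m x) (ℓ x) (H x) (zj x) k f) := by
  induction k generalizing f with
  | zero => exact measurable_const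
  | succ k ih => exact measurable_resp hm hℓ hH hz ih f

lemma measurable_incr {m : X → E → (E → ℝ) → ℝ} {ℓ H zj : X → E → ℝ}
    (hm : ∀ f, Measurable (fun p : X × (E → ℝ) => m p.1 f p.2))
    (hℓ : ∀ g, Measurable (fun x => ℓ x g)) (hH : ∀ g, Measurable (fun x => H x g))
    (hz : ∀ g, Measurable (fun x => zj x g)) (f : E) :
    Measurable (fun x => incr (m x) (ℓ x) (H x) (zj x) f) := by
  unfold incr
  exact Measurable.limsup (fun k => measurable_pic hm hℓ hH hz k f)

lemma measurable_hrun {m : X → E → (E → ℝ) → ℝ} {ℓ : X → E → ℝ} {z : X → E × ℕ → ℝ}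
    (hm : ∀ f, Measurable (fun p : X × (E → ℝ) => m p.1 f p.2))
    (hℓ : ∀ g, Measurable (fun x => ℓ x g)) (hz : ∀ c, Measurable (fun x => z x c)) (j : ℕ)
    (f : E) : Measurable (fun x => hrun (m x) (ℓ x) (z x) j f) := by
  induction j generalizing f with
  | zero => exact measurable_const
  | succ j ih =>
    exact (ih f).add (measurable_incr hm hℓ ih (fun g => hz (g, j)) f)

lemma measurable_decR {m : X → E → (E → ℝ) → ℝ} {ℓ : X → E → ℝ} {z : X → E × ℕ → ℝ}
    (hm : ∀ f, Measurable (fun p : X × (E → ℝ) => m p.1 f p.2))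
    (hℓ : ∀ g, Measurable (fun x => ℓ x g)) (hz : ∀ c, Measurable (fun x => z x c)) (f : E) :
    Measurable (fun x => decR (m x) (ℓ x) (z x) f) := by
  unfold decR
  refine Measurable.limsup (fun i => ?_)
  exact Vale.Agent.P161.continuous_clip.measurable.comp
    ((measurable_hrun hm hℓ hz (2 ^ i) f).const_mul _)

lemma measurable_Out {m : X → E → (E → ℝ) → ℝ} {ℓ : X → E → ℝ} {z : X → E × ℕ → ℝ}
    (hm : ∀ f, Measurable (fun p : X × (E → ℝ) => m p.1 f p.2))
    (hℓ : ∀ g, Measurable (fun x => ℓ x g)) (hz : ∀ c, Measurable (fun x => z x c)) :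
    Measurable (fun x => Out (m x) (ℓ x) (z x)) := by
  refine measurable_pi_iff.2 fun f => ?_
  unfold Out
  refine measurable_to_bool ?_
  have : (fun x => decide (0 ≤ decR (m x) (ℓ x) (z x) f)) ⁻¹' {true}
      = {x | 0 ≤ decR (m x) (ℓ x) (z x) f} := by
    ext x; simp
  rw [this]
  exact measurableSet_le measurable_const (measurable_decR hm hℓ hz f)

end measurable

end Vale.Agent.P143
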