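import Vale.Agent.P143.Scheme

set_option autoImplicit false

noncomputable section
open scoped Classical
open MeasureTheory Filter Topology
open Vale.Agent.P161 (PP unif clip proj Tq Fq gg aa CC)

namespace Vale.Agent.P143

variable {E : Type*}

/-- The exponential tilt by the field `a` on the finite set `S`. -/
def tiltExp (S : Finset E) (a : E → ℝ) (σ : E → Bool) : ℝ :=
  Real.exp (∑ f ∈ S, a f * spin (σ f))

/-- The mean spin at `e` of the measure `μ` tilted by the field `a` on `S`. -/
def tiltMean (μ : Measure (E → Bool)) (S : Finset E) (a : E → ℝ) (e : E) : ℝ :=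
  (∫ σ, spin (σ e) * tiltExp S a σ ∂μ) / ∫ σ, tiltExp S a σ ∂μ

/-- The tilted mean spins are `2`-Lipschitz in the field, uniformly in the finite set. -/
def TiltLip (μ : Measure (E → Bool)) : Prop :=
  ∀ (S : Finset E) (a a' : E → ℝ) (e : E) (M : ℝ), 0 ≤ M → (∀ f ∈ S, |a f - a' f| ≤ M) →
    |tiltMean μ S a e - tiltMean μ S a' e| ≤ 2 * M

lemma tiltExp_pos (S : Finset E) (a : E → ℝ) (σ : E → Bool) : 0 < tiltExp S a σ :=
  Real.exp_pos _

lemma tiltExp_le (S : Finset E) (a : E → ℝ) (σ : E → Bool) :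
    tiltExp S a σ ≤ Real.exp (∑ f ∈ S, |a f|) := by
  unfold tiltExp
  refine Real.exp_le_exp.2 (Finset.sum_le_sum (fun f _ => ?_))
  calc a f * spin (σ f) ≤ |a f * spin (σ f)| := le_abs_self _
    _ = |a f| := by rw [abs_mul, abs_spin, mul_one]

lemma tiltExp_congr {S : Finset E} {a a' : E → ℝ} (h : ∀ f ∈ S, a f = a' f) (σ : E → Bool) :
    tiltExp S a σ = tiltExp S a' σ := by
  unfold tiltExp
  congr 1
  exact Finset.sum_congr rfl (fun f hf => by rw [h f hf])

lemma tiltMean_congr {μ : Measure (E → Bool)} {S : Finset E} {a a' : E → ℝ}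
    (h : ∀ f ∈ S, a f = a' f) (e : E) : tiltMean μ S a e = tiltMean μ S a' e := by
  unfold tiltMean
  simp only [tiltExp_congr h]

lemma measurable_spin_apply (e : E) : Measurable (fun σ : E → Bool => spin (σ e)) :=
  (measurable_of_finite spin).comp (measurable_pi_apply e)

lemma measurable_tiltExp (S : Finset E) :
    Measurable (fun p : (E → ℝ) × (E → Bool) => tiltExp S p.1 p.2) := by
  unfold tiltExp
  refine Real.measurable_exp.comp (Finset.measurable_sum _ (fun f _ => ?_))
  exact ((measurable_pi_apply f).comp measurable_fst).mul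
    ((measurable_spin_apply f).comp measurable_snd)

lemma measurable_tiltExp_right (S : Finset E) (a : E → ℝ) :
    Measurable (fun σ : E → Bool => tiltExp S a σ) :=
  (measurable_tiltExp S).comp (measurable_const.prodMk measurable_id)

section prob

variable (μ : Measure (E → Bool)) [IsProbabilityMeasure μ]

lemma integrable_tiltExp (S : Finset E) (a : E → ℝ) : Integrable (tiltExp S a) μ := by
  refine Integrable.mono' (integrable_const (Real.exp (∑ f ∈ S, |a f|)))
    (measurable_tiltExp_right S a).aestronglyMeasurable ?_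
  refine Filter.Eventually.of_forall (fun σ => ?_)
  rw [Real.norm_eq_abs, abs_of_pos (tiltExp_pos S a σ)]
  exact tiltExp_le S a σ

lemma integrable_mul_tiltExp {ψ : (E → Bool) → ℝ} (hψ : Measurable ψ) {C : ℝ}
    (hb : ∀ σ, |ψ σ| ≤ C) (S : Finset E) (a : E → ℝ) :
    Integrable (fun σ => ψ σ * tiltExp S a σ) μ := by
  refine Integrable.bdd_mul (c := C) (integrable_tiltExp μ S a) hψ.aestronglyMeasurable ?_
  exact Filter.Eventually.of_forall (fun σ => by simpa using hb σ)

lemma tiltDen_pos (S : Finset E) (a : E → ℝ) : 0 < ∫ σ, tiltExp S a σ ∂μ := by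
  have h1 : ∀ σ, Real.exp (-(∑ f ∈ S, |a f|)) ≤ tiltExp S a σ := by
    intro σ
    unfold tiltExp
    refine Real.exp_le_exp.2 ?_
    rw [← Finset.sum_neg_distrib]
    refine Finset.sum_le_sum (fun f _ => ?_)
    have h2 : |a f * spin (σ f)| = |a f| := by rw [abs_mul, abs_spin, mul_one]
    have := neg_abs_le (a f * spin (σ f))
    linarith
  have h3 := integral_mono (integrable_const (μ := μ) (Real.exp (-(∑ f ∈ S, |a f|))))
    (integrable_tiltExp μ S a) h1
  simp only [integral_const, probReal_univ, one_smul] at h3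
  exact (Real.exp_pos _).trans_le h3

lemma abs_tiltMean_le (S : Finset E) (a : E → ℝ) (e : E) : |tiltMean μ S a e| ≤ 1 := by
  unfold tiltMean
  have hd := tiltDen_pos μ S a
  rw [abs_div, abs_of_pos hd, div_le_one hd]
  have h1 : |∫ σ, spin (σ e) * tiltExp S a σ ∂μ| ≤ ∫ σ, |spin (σ e) * tiltExp S a σ| ∂μ :=
    abs_integral_le_integral_abs
  have h2 : ∀ σ, |spin (σ e) * tiltExp S a σ| = tiltExp S a σ := by
    intro σ
    rw [abs_mul, abs_spin, one_mul, abs_of_pos (tiltExp_pos S a σ)]
  simpa only [h2] using h1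

lemma tiltMean_mul_den (S : Finset E) (a : E → ℝ) (e : E) :
    tiltMean μ S a e * ∫ σ, tiltExp S a σ ∂μ = ∫ σ, spin (σ e) * tiltExp S a σ ∂μ := by
  unfold tiltMean
  have hd := tiltDen_pos μ S a
  field_simp

lemma measurable_num {ψ : (E → Bool) → ℝ} (hψ : Measurable ψ) (S : Finset E) :
    Measurable (fun a : E → ℝ => ∫ σ, ψ σ * tiltExp S a σ ∂μ) := by
  have h : Measurable (fun p : (E → ℝ) × (E → Bool) => ψ p.2 * tiltExp S p.1 p.2) :=
    (hψ.comp measurable_snd).mul (measurable_tiltExp S)
  exact (h.stronglyMeasurable.integral_prod_right (ν := μ)).measurable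

lemma measurable_tiltMean (S : Finset E) (e : E) :
    Measurable (fun a : E → ℝ => tiltMean μ S a e) := by
  unfold tiltMean
  refine (measurable_num μ (measurable_spin_apply e) S).div ?_
  have := measurable_num μ (ψ := fun _ => 1) measurable_const S
  simpa using this

end prob

/-- The Lipschitz limit of the tilted means along the balls `B f k`. -/
def mt (μ : Measure (E → Bool)) (B : E → ℕ → Finset E) (f : E) (h : E → ℝ) : ℝ :=
  limsup (fun k => tiltMean μ (B f k) h f) atTop

section mt

variable (μ : Measure (E → Bool)) [IsProbabilityMeasure μ] (B : E → ℕ → Finset E)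

lemma bdd_above_tm (f : E) (h : E → ℝ) :
    IsBoundedUnder (· ≤ ·) atTop (fun k => tiltMean μ (B f k) h f) :=
  isBoundedUnder_of ⟨1, fun _ => (abs_le.mp (abs_tiltMean_le μ _ _ _)).2⟩

lemma bdd_below_tm (f : E) (h : E → ℝ) :
    IsBoundedUnder (· ≥ ·) atTop (fun k => tiltMean μ (B f k) h f) :=
  isBoundedUnder_of ⟨-1, fun _ => (abs_le.mp (abs_tiltMean_le μ _ _ _)).1⟩

lemma abs_mt_le (f : E) (h : E → ℝ) : |mt μ B f h| ≤ 1 := by
  unfold mt
  rw [abs_le]
  constructor
  · refine le_limsup_of_le (bdd_above_tm μ B f h) ?_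
    intro b hb
    obtain ⟨k, hk⟩ := hb.exists
    exact (abs_le.mp (abs_tiltMean_le μ _ _ _)).1.trans hk
  · refine limsup_le_of_le (bdd_below_tm μ B f h).isCoboundedUnder_le ?_
    exact Filter.Eventually.of_forall (fun k => (abs_le.mp (abs_tiltMean_le μ _ _ _)).2)

lemma measurable_mt (f : E) : Measurable (mt μ B f) := by
  unfold mt
  exact Measurable.limsup (fun k => measurable_tiltMean μ _ _)

lemma mt_le_add {f : E} {h h' : E → ℝ} {L : ℝ}
    (hk : ∀ k, tiltMean μ (B f k) h f ≤ tiltMean μ (B f k) h' f + L) :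
    mt μ B f h ≤ mt μ B f h' + L := by
  unfold mt
  rw [← limsup_add_const atTop _ L (bdd_above_tm μ B f h') (bdd_below_tm μ B f h').isCoboundedUnder_le]
  refine limsup_le_limsup (Filter.Eventually.of_forall hk)
    (bdd_below_tm μ B f h).isCoboundedUnder_le ?_
  refine isBoundedUnder_of ⟨1 + L, fun k => ?_⟩
  have := (abs_le.mp (abs_tiltMean_le μ (B f k) h' f)).2
  linarith

variable {μ}

lemma lip2_mt (hTL : TiltLip μ) : Lip2 (mt μ B) := by
  intro f h h' M hM
  have hM0 : 0 ≤ M := (abs_nonneg _).trans (hM f)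
  have h1 : ∀ k, |tiltMean μ (B f k) h f - tiltMean μ (B f k) h' f| ≤ 2 * M :=
    fun k => hTL _ _ _ _ _ hM0 (fun g _ => hM g)
  rw [abs_le]
  constructor
  · have := mt_le_add μ B (f := f) (h := h') (h' := h) (L := 2 * M) (fun k => by
      have := (abs_le.mp (h1 k)).1
      linarith)
    linarith
  · have := mt_le_add μ B (f := f) (h := h) (h' := h') (L := 2 * M) (fun k => by
      have := (abs_le.mp (h1 k)).2
      linarith)
    linarith

end mt

end Vale.Agent.P143
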