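import Vale.Agent.P143.Posterior

set_option autoImplicit false

noncomputable section
open scoped Classical
open MeasureTheory Filter Topology
open Vale.Agent.P161 (PP unif clip proj Tq Fq gg aa CC)

namespace Vale.Agent.P143

variable {E : Type*}

lemma continuous_Fq : Continuous (fun p : ℝ × ℝ => Fq dl p.1 p.2) := by
  unfold Fq Vale.Agent.P161.F₀
  have h1 := Vale.Agent.P161.continuous_clip
  have h2 := Vale.Agent.P161.continuous_proj
  fun_prop

lemma not_mem_past_self (ℓ : E → ℝ) (c : E × ℕ) : c ∉ past ℓ c := by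
  simp [past]

lemma past_trans {ℓ : E → ℝ} {a b c : E × ℕ} (h1 : a ∈ past ℓ b) (h2 : b ∈ past ℓ c) :
    a ∈ past ℓ c := by
  simp only [past, Set.mem_ofPred_eq] at h1 h2 ⊢
  rcases h1 with h1 | ⟨h1, h1'⟩ <;> rcases h2 with h2 | ⟨h2, h2'⟩
  · exact Or.inl (h1.trans h2)
  · exact Or.inl (h2 ▸ h1)
  · exact Or.inl (h1 ▸ h2)
  · exact Or.inr ⟨h1.trans h2, h1'.trans h2'⟩

lemma pfY_update (ℓ : E → ℝ) (c : E × ℕ) (y : E × ℕ → ℝ) (x : ℝ) :
    pfY ℓ (Function.update y c x) c = pfY ℓ y c := by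
  funext f
  refine pfY_congr (fun c' _ hp => ?_)
  have : c' ≠ c := fun e => not_mem_past_self ℓ c (e ▸ hp)
  rw [Function.update_of_ne this]

lemma zzY_mask_past (m : E → (E → ℝ) → ℝ) {ℓ : E → ℝ} {a c : E × ℕ} (h : c ∈ past ℓ a)
    (y : E × ℕ → ℝ) : zzY m ℓ (maskS (past ℓ a) y) c = zzY m ℓ y c := by
  unfold zzY
  have e1 : pfY ℓ (maskS (past ℓ a) y) c = pfY ℓ y c := by
    funext f
    refine pfY_congr (fun c' _ hp => ?_)
    simp [maskS, past_trans hp h]
  rw [e1]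
  simp [maskS, h]

lemma measurable_zzY {m : E → (E → ℝ) → ℝ} (hm : ∀ f, Measurable (m f)) (ℓ : E → ℝ) (c : E × ℕ) :
    Measurable (fun y : E × ℕ → ℝ => zzY m ℓ y c) := by
  unfold zzY
  exact continuous_Fq.measurable.comp
    (((hm c.1).comp (measurable_pfY ℓ c)).prodMk (measurable_pi_apply c))

lemma yy_update (σ : E → Bool) (w : E × ℕ → ℝ) (c : E × ℕ) (t : ℝ) :
    yy (σ, Function.update w c t) = Function.update (yy (σ, w)) c (Tq dl (spin (σ c.1)) t) := by
  funext c'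
  unfold yy
  by_cases h : c' = c
  · subst h; simp
  · simp [Function.update_of_ne h]

lemma integrable_bdd {Ω : Type*} [MeasurableSpace Ω] {P : Measure Ω} [IsFiniteMeasure P]
    {f : Ω → ℝ} (hf : Measurable f) {C : ℝ} (hb : ∀ x, |f x| ≤ C) : Integrable f P := by
  refine Integrable.mono' (integrable_const C) hf.aestronglyMeasurable ?_
  exact Filter.Eventually.of_forall (fun x => by simpa using hb x)

lemma intervalIntegrable_bdd {f : ℝ → ℝ} (hf : Measurable f) {C : ℝ} (hb : ∀ x, |f x| ≤ C) :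
    IntervalIntegrable f volume 0 1 := by
  rw [intervalIntegrable_iff_integrableOn_Ioc_of_le zero_le_one]
  refine Measure.integrableOn_of_bounded (M := C) (by simp) hf.aestronglyMeasurable ?_
  exact Filter.Eventually.of_forall (fun x => by simpa using hb x)

lemma abs_intervalIntegral_le {f : ℝ → ℝ} {C : ℝ} (hb : ∀ x, |f x| ≤ C) :
    |∫ x in (0 : ℝ)..1, f x| ≤ C := by
  have := intervalIntegral.norm_integral_le_of_norm_le_const (a := (0 : ℝ)) (b := 1)
    (f := f) (C := C) (fun x _ => by simpa using hb x)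
  simpa using this

section key

/-- Mean part of the output test. -/
def Aφ (φ : ℝ → ℝ) (g : ℝ) : ℝ := ∫ x in (0 : ℝ)..1, φ (Fq dl g x)

/-- Tilt part of the output test. -/
def Bφ (φ : ℝ → ℝ) (g : ℝ) : ℝ := ∫ x in (0 : ℝ)..1, dl * (2 * x - 1) * φ (Fq dl g x)

variable {φ : ℝ → ℝ} {Cφ : ℝ}

lemma measurable_Aφ (hφ : Measurable φ) : Measurable (Aφ φ) := by
  unfold Aφ
  exact measurable_intervalIntegral_param (F := fun g x => φ (Fq dl g x))
    (hφ.comp continuous_Fq.measurable)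

lemma measurable_Bφ (hφ : Measurable φ) : Measurable (Bφ φ) := by
  unfold Bφ
  refine measurable_intervalIntegral_param (F := fun g x => dl * (2 * x - 1) * φ (Fq dl g x)) ?_
  refine Measurable.mul ?_ (hφ.comp continuous_Fq.measurable)
  exact (((measurable_snd.const_mul 2).sub_const 1).const_mul dl)

lemma abs_Aφ_le (hb : ∀ x, |φ x| ≤ Cφ) (g : ℝ) : |Aφ φ g| ≤ Cφ :=
  abs_intervalIntegral_le (fun x => hb _)

lemma tilt_factor_bound {x : ℝ} (hx0 : 0 ≤ x) (hx1 : x ≤ 1) : |dl * (2 * x - 1)| ≤ 1 := by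
  rw [abs_le]
  unfold dl
  constructor <;> linarith

lemma abs_Bφ_le (hb : ∀ x, |φ x| ≤ Cφ) (g : ℝ) : |Bφ φ g| ≤ Cφ := by
  have hC : 0 ≤ Cφ := (abs_nonneg _).trans (hb 0)
  unfold Bφ
  have := intervalIntegral.norm_integral_le_of_norm_le_const (a := (0 : ℝ)) (b := 1)
    (f := fun x => dl * (2 * x - 1) * φ (Fq dl g x)) (C := Cφ) (fun x hx => by
      rw [Set.uIoc_of_le zero_le_one] at hx
      rw [Real.norm_eq_abs, abs_mul]
      calc |dl * (2 * x - 1)| * |φ (Fq dl g x)| ≤ 1 * Cφ :=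
            mul_le_mul (tilt_factor_bound hx.1.le hx.2) (hb _) (abs_nonneg _) (by norm_num)
        _ = Cφ := one_mul _)
  simpa using this

lemma integrable_φFq (hφ : Measurable φ) (hb : ∀ x, |φ x| ≤ Cφ) (g : ℝ) :
    IntervalIntegrable (fun x => φ (Fq dl g x)) volume 0 1 := by
  refine intervalIntegrable_bdd (C := Cφ) ?_ (fun x => hb _)
  exact hφ.comp (continuous_Fq.measurable.comp (measurable_const.prodMk measurable_id))

lemma integrable_tiltφFq (hφ : Measurable φ) (hb : ∀ x, |φ x| ≤ Cφ) (g : ℝ) :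
    IntervalIntegrable (fun x => dl * (2 * x - 1) * φ (Fq dl g x)) volume 0 1 := by
  have hc : ContinuousOn (fun x : ℝ => dl * (2 * x - 1)) (Set.uIcc 0 1) :=
    Continuous.continuousOn (by fun_prop)
  exact (integrable_φFq hφ hb g).continuousOn_mul hc

lemma response_split (hφ : Measurable φ) (hb : ∀ x, |φ x| ≤ Cφ) (g : ℝ) {s : ℝ} (hs : |s| ≤ 1) :
    ∫ t in (0 : ℝ)..1, φ (Fq dl g (Tq dl s t)) = Aφ φ g + s * Bφ φ g := by
  rw [Vale.Agent.P161.integral_Tq dl_nonneg dl_le hs (fun x => φ (Fq dl g x))]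
  unfold Aφ Bφ
  rw [← intervalIntegral.integral_const_mul,
    ← intervalIntegral.integral_add (integrable_φFq hφ hb g)
      ((integrable_tiltφFq hφ hb g).const_mul s)]
  refine intervalIntegral.integral_congr (fun x _ => ?_)
  show _ = _
  ring

lemma response_self (hφ : Measurable φ) (hb : ∀ x, |φ x| ≤ Cφ) {g : ℝ} (hg : |g| ≤ 1) :
    Aφ φ g + g * Bφ φ g = ∫ t in (0 : ℝ)..1, φ t := by
  rw [← response_split hφ hb g hg]
  have e : ∀ t ∈ Set.uIcc (0 : ℝ) 1, φ (Fq dl g (Tq dl g t)) = φ t := by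
    intro t ht
    rw [Set.uIcc_of_le zero_le_one] at ht
    rw [Vale.Agent.P161.Fq_Tq, Vale.Agent.P161.proj_of_mem ht.1 ht.2]
  exact intervalIntegral.integral_congr e

variable [Countable E] {μ : Measure (E → Bool)} [IsProbabilityMeasure μ]

/-- The output of the channel at `c`, seen through the past, is uniform. -/
theorem key_uniform (ℓ : E → ℝ) (B : E → ℕ → Finset E) (hB : ∀ f, Monotone (B f))
    (hBex : ∀ f g, ∃ k, g ∈ B f k) (c : E × ℕ) {X : (E × ℕ → ℝ) → ℝ} (hX : Measurable X) {C : ℝ}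
    (hXb : ∀ y, |X y| ≤ C) (hφ : Measurable φ) (hb : ∀ x, |φ x| ≤ Cφ) :
    ∫ ω, X (maskS (past ℓ c) (yy ω)) * φ (zzY (mt μ B) ℓ (yy ω) c) ∂(μ.prod (PP (E × ℕ)))
      = (∫ ω, X (maskS (past ℓ c) (yy ω)) ∂(μ.prod (PP (E × ℕ)))) * ∫ t in (0 : ℝ)..1, φ t := by
  have hC : 0 ≤ C := (abs_nonneg _).trans (hXb 0)
  have hCφ : 0 ≤ Cφ := (abs_nonneg _).trans (hb 0)
  set m := mt μ B with hm
  have hmm : ∀ f, Measurable (m f) := fun f => measurable_mt μ B f
  set Mk : (E × ℕ → ℝ) → ℝ := fun y => m c.1 (pfY ℓ y c) with hMk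
  have hMkm : Measurable Mk := (hmm c.1).comp (measurable_pfY ℓ c)
  have hMkb : ∀ y, |Mk y| ≤ 1 := fun y => abs_mt_le μ B _ _
  have hMkmask : ∀ y, Mk (maskS (past ℓ c) y) = Mk y := by
    intro y
    simp only [hMk, pfY_mask_past]
  have hMX : Measurable (fun ω : (E → Bool) × (E × ℕ → ℝ) => X (maskS (past ℓ c) (yy ω))) :=
    hX.comp ((measurable_maskS _).comp measurable_yy)
  have hMyy : Measurable (fun ω : (E → Bool) × (E × ℕ → ℝ) => Mk (yy ω)) :=
    hMkm.comp measurable_yy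
  have hG : Measurable (fun ω : (E → Bool) × (E × ℕ → ℝ) =>
      X (maskS (past ℓ c) (yy ω)) * φ (zzY m ℓ (yy ω) c)) :=
    hMX.mul (hφ.comp ((measurable_zzY hmm ℓ c).comp measurable_yy))
  have hGb : ∀ ω : (E → Bool) × (E × ℕ → ℝ),
      |X (maskS (past ℓ c) (yy ω)) * φ (zzY m ℓ (yy ω) c)| ≤ C * Cφ := by
    intro ω
    rw [abs_mul]
    exact mul_le_mul (hXb _) (hb _) (abs_nonneg _) hC
  -- step 1: resample the coordinate `c` for fixed spins
  have hstep : ∀ σ : E → Bool,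
      ∫ w, X (maskS (past ℓ c) (yy (σ, w))) * φ (zzY m ℓ (yy (σ, w)) c) ∂(PP (E × ℕ))
        = ∫ w, X (maskS (past ℓ c) (yy (σ, w))) *
            (Aφ φ (Mk (yy (σ, w))) + spin (σ c.1) * Bφ φ (Mk (yy (σ, w)))) ∂(PP (E × ℕ)) := by
    intro σ
    have hσw : Measurable (fun w : E × ℕ → ℝ => ((σ, w) : (E → Bool) × (E × ℕ → ℝ))) :=
      measurable_const.prodMk measurable_id
    rw [integral_resample c (G := fun w => X (maskS (past ℓ c) (yy (σ, w))) *
      φ (zzY m ℓ (yy (σ, w)) c)) (hG.comp hσw) (C := C * Cφ) (fun w => hGb _)]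
    refine integral_congr_ae (Filter.Eventually.of_forall (fun w => ?_))
    simp only []
    have e1 : ∀ t, X (maskS (past ℓ c) (yy (σ, Function.update w c t))) *
        φ (zzY m ℓ (yy (σ, Function.update w c t)) c)
        = X (maskS (past ℓ c) (yy (σ, w))) *
          φ (Fq dl (Mk (yy (σ, w))) (Tq dl (spin (σ c.1)) t)) := by
      intro t
      rw [yy_update, maskS_update_not_mem (not_mem_past_self ℓ c)]
      congr 2
      unfold zzY
      rw [pfY_update, Function.update_self]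
    simp only [e1]
    rw [intervalIntegral.integral_const_mul,
      response_split hφ hb _ (abs_spin (σ c.1)).le]
  -- step 2: assemble over the spins
  have hA : Measurable (fun ω : (E → Bool) × (E × ℕ → ℝ) => Aφ φ (Mk (yy ω))) :=
    (measurable_Aφ hφ).comp hMyy
  have hBm : Measurable (fun ω : (E → Bool) × (E × ℕ → ℝ) => Bφ φ (Mk (yy ω))) :=
    (measurable_Bφ hφ).comp hMyy
  have hS : Measurable (fun ω : (E → Bool) × (E × ℕ → ℝ) => spin (ω.1 c.1)) :=
    (measurable_spin_apply c.1).comp measurable_fst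
  have hi0 : Integrable (fun ω : (E → Bool) × (E × ℕ → ℝ) =>
      X (maskS (past ℓ c) (yy ω)) * φ (zzY m ℓ (yy ω) c)) (μ.prod (PP (E × ℕ))) :=
    integrable_bdd hG hGb
  have hi1 : Integrable (fun ω : (E → Bool) × (E × ℕ → ℝ) =>
      X (maskS (past ℓ c) (yy ω)) *
        (Aφ φ (Mk (yy ω)) + spin (ω.1 c.1) * Bφ φ (Mk (yy ω)))) (μ.prod (PP (E × ℕ))) := by
    refine integrable_bdd (C := C * (Cφ + 1 * Cφ)) (hMX.mul (hA.add (hS.mul hBm))) (fun ω => ?_)
    rw [abs_mul]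
    refine mul_le_mul (hXb _) ?_ (abs_nonneg _) hC
    refine (abs_add_le _ _).trans (add_le_add (abs_Aφ_le hb _) ?_)
    rw [abs_mul]
    exact mul_le_mul (abs_spin _).le (abs_Bφ_le hb _) (abs_nonneg _) (by norm_num)
  have h1 : ∫ ω, X (maskS (past ℓ c) (yy ω)) * φ (zzY m ℓ (yy ω) c) ∂(μ.prod (PP (E × ℕ)))
      = ∫ ω, X (maskS (past ℓ c) (yy ω)) *
        (Aφ φ (Mk (yy ω)) + spin (ω.1 c.1) * Bφ φ (Mk (yy ω))) ∂(μ.prod (PP (E × ℕ))) := by
    rw [integral_prod _ hi0, integral_prod _ hi1]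
    simp only [hstep]
  rw [h1]
  -- step 3: the posterior-mean identity
  set X₁ : (E × ℕ → ℝ) → ℝ := fun y => X y * Bφ φ (Mk y) with hX₁
  have hX₁m : Measurable X₁ := hX.mul ((measurable_Bφ hφ).comp hMkm)
  have hX₁b : ∀ y, |X₁ y| ≤ C * Cφ := by
    intro y
    simp only [hX₁]
    rw [abs_mul]
    exact mul_le_mul (hXb _) (abs_Bφ_le hb _) (abs_nonneg _) hC
  have hpost := post (μ := μ) ℓ B hB hBex c hX₁m hX₁b
  have e2 : ∀ ω : (E → Bool) × (E × ℕ → ℝ),
      X₁ (maskS (past ℓ c) (yy ω)) = X (maskS (past ℓ c) (yy ω)) * Bφ φ (Mk (yy ω)) := by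
    intro ω
    simp only [hX₁, hMkmask]
  simp only [e2] at hpost
  have hiA : Integrable (fun ω : (E → Bool) × (E × ℕ → ℝ) =>
      X (maskS (past ℓ c) (yy ω)) * Aφ φ (Mk (yy ω))) (μ.prod (PP (E × ℕ))) := by
    refine integrable_bdd (C := C * Cφ) (hMX.mul hA) (fun ω => ?_)
    rw [abs_mul]
    exact mul_le_mul (hXb _) (abs_Aφ_le hb _) (abs_nonneg _) hC
  have hiB : Integrable (fun ω : (E → Bool) × (E × ℕ → ℝ) =>
      X (maskS (past ℓ c) (yy ω)) * Bφ φ (Mk (yy ω)) * spin (ω.1 c.1)) (μ.prod (PP (E × ℕ))) := by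
    refine integrable_bdd (C := C * Cφ * 1) ((hMX.mul hBm).mul hS) (fun ω => ?_)
    rw [abs_mul, abs_mul, abs_spin]
    exact mul_le_mul_of_nonneg_right
      (mul_le_mul (hXb _) (abs_Bφ_le hb _) (abs_nonneg _) hC) (by norm_num)
  have hiB' : Integrable (fun ω : (E → Bool) × (E × ℕ → ℝ) =>
      X (maskS (past ℓ c) (yy ω)) * Bφ φ (Mk (yy ω)) * Mk (yy ω)) (μ.prod (PP (E × ℕ))) := by
    refine integrable_bdd (C := C * Cφ * 1) ((hMX.mul hBm).mul hMyy) (fun ω => ?_)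
    rw [abs_mul, abs_mul]
    exact mul_le_mul (mul_le_mul (hXb _) (abs_Bφ_le hb _) (abs_nonneg _) hC) (hMkb _)
      (abs_nonneg _) (by positivity)
  have h2 : ∫ ω, X (maskS (past ℓ c) (yy ω)) *
        (Aφ φ (Mk (yy ω)) + spin (ω.1 c.1) * Bφ φ (Mk (yy ω))) ∂(μ.prod (PP (E × ℕ)))
      = ∫ ω, X (maskS (past ℓ c) (yy ω)) * (∫ t in (0 : ℝ)..1, φ t) ∂(μ.prod (PP (E × ℕ))) := by
    have e3 : ∀ ω : (E → Bool) × (E × ℕ → ℝ), X (maskS (past ℓ c) (yy ω)) *
        (Aφ φ (Mk (yy ω)) + spin (ω.1 c.1) * Bφ φ (Mk (yy ω)))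
        = X (maskS (past ℓ c) (yy ω)) * Aφ φ (Mk (yy ω))
          + X (maskS (past ℓ c) (yy ω)) * Bφ φ (Mk (yy ω)) * spin (ω.1 c.1) := fun ω => by ring
    have e4 : ∀ ω : (E → Bool) × (E × ℕ → ℝ), X (maskS (past ℓ c) (yy ω)) *
        (∫ t in (0 : ℝ)..1, φ t)
        = X (maskS (past ℓ c) (yy ω)) * Aφ φ (Mk (yy ω))
          + X (maskS (past ℓ c) (yy ω)) * Bφ φ (Mk (yy ω)) * Mk (yy ω) := by
      intro ω
      rw [← response_self hφ hb (hMkb (yy ω))]
      ring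
    simp only [e3, e4]
    rw [integral_add hiA hiB, integral_add hiA hiB', hpost]
  rw [h2, integral_mul_const]

omit [Countable E] [IsProbabilityMeasure μ] in
/-- The rank of a coordinate in the order (round, label). -/
lemma past_of_rank {ℓ : E → ℝ} (hℓ : Function.Injective ℓ) {a c : E × ℕ}
    (hne : c ≠ a) (h : toLex (c.2, ℓ c.1) ≤ toLex (a.2, ℓ a.1)) : c ∈ past ℓ a := by
  rw [Prod.Lex.toLex_le_toLex] at h
  rcases h with h | ⟨h1, h2⟩
  · exact Or.inl h
  · refine Or.inr ⟨h1, lt_of_le_of_ne h2 (fun e => hne ?_)⟩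
    exact Prod.ext (hℓ e) h1

/-- The encoded noise has independent uniform marginals on boxes. -/
theorem law_box (ℓ : E → ℝ) (hℓ : Function.Injective ℓ) (B : E → ℕ → Finset E)
    (hB : ∀ f, Monotone (B f)) (hBex : ∀ f g, ∃ k, g ∈ B f k) (φ : E × ℕ → ℝ → ℝ)
    (hφ : ∀ c, Measurable (φ c)) (hb : ∀ c x, |φ c x| ≤ 1) (s : Finset (E × ℕ)) :
    ∫ ω, ∏ c ∈ s, φ c (zzY (mt μ B) ℓ (yy ω) c) ∂(μ.prod (PP (E × ℕ)))
      = ∏ c ∈ s, ∫ t in (0 : ℝ)..1, φ c t := by
  have hmm : ∀ f, Measurable (mt μ B f) := fun f => measurable_mt μ B f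
  induction s using Finset.induction_on_max_value (fun c : E × ℕ => toLex (c.2, ℓ c.1)) with
  | empty => simp
  | insert a s ha hmax ih =>
    simp only [Finset.prod_insert ha]
    set X : (E × ℕ → ℝ) → ℝ := fun y => ∏ c ∈ s, φ c (zzY (mt μ B) ℓ y c) with hX
    have hXm : Measurable X :=
      Finset.measurable_prod _ (fun c _ => (hφ c).comp (measurable_zzY hmm ℓ c))
    have hXb : ∀ y, |X y| ≤ 1 := by
      intro y
      simp only [hX]
      rw [Finset.abs_prod]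
      exact Finset.prod_le_one (fun _ _ => abs_nonneg _) (fun c _ => hb c _)
    have hmask : ∀ y, X (maskS (past ℓ a) y) = X y := by
      intro y
      simp only [hX]
      refine Finset.prod_congr rfl (fun c hc => ?_)
      have hne : c ≠ a := fun e => ha (e ▸ hc)
      rw [zzY_mask_past _ (past_of_rank hℓ hne (hmax c hc))]
    have hkey := key_uniform (μ := μ) ℓ B hB hBex a hXm hXb (hφ a) (hb a)
    simp only [hmask] at hkey
    have e : ∀ ω : (E → Bool) × (E × ℕ → ℝ), φ a (zzY (mt μ B) ℓ (yy ω) a) *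
        ∏ c ∈ s, φ c (zzY (mt μ B) ℓ (yy ω) c)
        = X (yy ω) * φ a (zzY (mt μ B) ℓ (yy ω) a) := fun ω => by
      simp only [hX]; ring
    simp only [e]
    rw [hkey]
    simp only [hX]
    rw [ih]
    ring

end key

end Vale.Agent.P143
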