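import Vale.Agent.P143.Formula
import Vale.Agent.P161.Transfer

set_option autoImplicit false

noncomputable section
open scoped Classical
open MeasureTheory Filter Topology
open Vale.Agent.P161 (PP unif splitU)

namespace Vale.Agent.P143

/-- The discrete `σ`-algebra on finsets (used only inside proofs). -/
@[reducible] def finsetMS {α : Type*} : MeasurableSpace (Finset α) := ⊤

attribute [local instance] finsetMS

instance discFinset {α : Type*} : DiscreteMeasurableSpace (Finset α) := ⟨fun _ => trivial⟩

variable {V : Type*} [Countable V]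

omit [Countable V] in
lemma measurableSet_coord (e : Sym2 V) :
    MeasurableSet {g : Sym2 V → Bool | g e = true} := by
  have hm : Measurable (fun g : Sym2 V → Bool => g e) := measurable_pi_apply e
  exact hm (measurableSet_singleton true)

/-- The event that the neighbours of `x` in `g` are exactly `S`. -/
def nbrEv (x : V) (S : Finset V) : Set (Sym2 V → Bool) :=
  {g | ∀ y, (y ≠ x ∧ g s(x, y) = true) ↔ y ∈ S}

lemma measurableSet_nbrEv (x : V) (S : Finset V) : MeasurableSet (nbrEv x S) := by
  have : nbrEv x S = ⋂ y, {g : Sym2 V → Bool | (y ≠ x ∧ g s(x, y) = true) ↔ y ∈ S} := by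
    ext g
    simp [nbrEv]
  rw [this]
  refine MeasurableSet.iInter (fun y => ?_)
  by_cases hy : y = x
  · by_cases hS : y ∈ S
    · have : {g : Sym2 V → Bool | (y ≠ x ∧ g s(x, y) = true) ↔ y ∈ S} = ∅ := by
        ext g; simp [hy] at hS ⊢; simp [hS]
      rw [this]; exact MeasurableSet.empty
    · have : {g : Sym2 V → Bool | (y ≠ x ∧ g s(x, y) = true) ↔ y ∈ S} = Set.univ := by
        ext g; simp [hy] at hS ⊢; simp [hS]
      rw [this]; exact MeasurableSet.univ
  · by_cases hS : y ∈ S
    · have : {g : Sym2 V → Bool | (y ≠ x ∧ g s(x, y) = true) ↔ y ∈ S}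
          = {g | g s(x, y) = true} := by
        ext g; simp [hy, hS]
      rw [this]; exact measurableSet_coord _
    · have : {g : Sym2 V → Bool | (y ≠ x ∧ g s(x, y) = true) ↔ y ∈ S}
          = {g | g s(x, y) = true}ᶜ := by
        ext g; simp [hy, hS]
      rw [this]; exact (measurableSet_coord _).compl

omit [Countable V] in
lemma nbr_of_ev {x : V} {S : Finset V} {g : Sym2 V → Bool} (h : g ∈ nbrEv x S) : nbr g x = S := by
  have hset : {y | y ≠ x ∧ g s(x, y) = true} = (S : Set V) := by
    ext y
    exact h y
  have hfin : {y | y ≠ x ∧ g s(x, y) = true}.Finite := by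
    rw [hset]; exact S.finite_toSet
  unfold nbr
  rw [dif_pos hfin]
  ext y
  rw [Set.Finite.mem_toFinset]
  exact h y

lemma measurable_nbr (x : V) : Measurable (fun g : Sym2 V → Bool => nbr g x) := by
  refine measurable_to_countable' (fun S => ?_)
  have hU : MeasurableSet (⋃ S' : Finset V, nbrEv x S') :=
    MeasurableSet.iUnion (fun S' => measurableSet_nbrEv x S')
  have : (fun g : Sym2 V → Bool => nbr g x) ⁻¹' {S}
      = nbrEv x S ∪ (if S = ∅ then (⋃ S' : Finset V, nbrEv x S')ᶜ else ∅) := by
    ext g
    simp only [Set.mem_preimage, Set.mem_singleton_iff, Set.mem_union]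
    constructor
    · intro h
      by_cases hfin : {y | y ≠ x ∧ g s(x, y) = true}.Finite
      · left
        intro y
        unfold nbr at h
        rw [dif_pos hfin] at h
        rw [← h, Set.Finite.mem_toFinset]
        rfl
      · right
        have hS : S = ∅ := by
          unfold nbr at h
          rw [dif_neg hfin] at h
          exact h.symm
        rw [if_pos hS]
        simp only [Set.mem_compl_iff, Set.mem_iUnion, not_exists]
        intro S' hS'
        apply hfin
        have hset : {y | y ≠ x ∧ g s(x, y) = true} = (S' : Set V) := by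
          ext y
          exact hS' y
        rw [hset]
        exact S'.finite_toSet
    · rintro (h | h)
      · exact nbr_of_ev h
      · by_cases hS : S = ∅
        · rw [if_pos hS] at h
          simp only [Set.mem_compl_iff, Set.mem_iUnion, not_exists] at h
          by_cases hfin : {y | y ≠ x ∧ g s(x, y) = true}.Finite
          · exfalso
            refine h hfin.toFinset (fun y => ?_)
            rw [Set.Finite.mem_toFinset]
            rfl
          · unfold nbr
            rw [dif_neg hfin, hS]
        · rw [if_neg hS] at h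
          exact absurd h (Set.notMem_empty _)
  rw [this]
  refine (measurableSet_nbrEv x S).union ?_
  by_cases hS : S = ∅
  · rw [if_pos hS]; exact hU.compl
  · rw [if_neg hS]; exact MeasurableSet.empty

lemma measurable_biUnion_nbr (W : Finset V) :
    Measurable (fun g : Sym2 V → Bool => W.biUnion (nbr g)) := by
  induction W using Finset.induction_on with
  | empty => simp
  | insert x W _ ih =>
    have e : (fun g : Sym2 V → Bool => (insert x W).biUnion (nbr g))
        = (fun p : Finset V × Finset V => p.1 ∪ p.2) ∘ (fun g => (nbr g x, W.biUnion (nbr g))) := by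
      funext g
      simp [Finset.biUnion_insert]
    rw [e]
    exact Measurable.of_discrete.comp ((measurable_nbr x).prodMk ih)

lemma measurable_wball (x : V) (n : ℕ) : Measurable (fun g : Sym2 V → Bool => wball g x n) := by
  induction n with
  | zero => exact measurable_const
  | succ n ih =>
    have h1 : Measurable (fun p : Finset V × (Sym2 V → Bool) => p.1 ∪ p.1.biUnion (nbr p.2)) := by
      refine measurable_from_prod_countable_right (fun W => ?_)
      have h2 : (fun g : Sym2 V → Bool => W ∪ W.biUnion (nbr g))
          = (fun T : Finset V => W ∪ T) ∘ (fun g => W.biUnion (nbr g)) := rfl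
      rw [h2]
      have h3 : Measurable (fun T : Finset V => W ∪ T) := Measurable.of_discrete
      have h4 := h3.comp (measurable_biUnion_nbr W)
      exact h4
    have h5 : Measurable (fun g : Sym2 V → Bool =>
        ((wball g x n, g) : Finset V × (Sym2 V → Bool))) := ih.prodMk measurable_id
    have h6 := h1.comp h5
    exact h6

instance countableSym2 {α : Type*} [Countable α] : Countable (Sym2 α) := by
  unfold Sym2
  infer_instance

lemma measurable_filterE (A : Finset (Sym2 V)) :
    Measurable (fun g : Sym2 V → Bool => A.filter (fun e => g e = true ∧ ¬ e.IsDiag)) := by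
  induction A using Finset.induction_on with
  | empty => simp
  | insert a A _ ih =>
    have e : (fun g : Sym2 V → Bool => (insert a A).filter (fun e => g e = true ∧ ¬ e.IsDiag))
        = (fun q : Bool × Finset (Sym2 V) => if q.1 = true ∧ ¬ a.IsDiag then insert a q.2 else q.2) ∘
          (fun g => (g a, A.filter (fun e => g e = true ∧ ¬ e.IsDiag))) := by
      funext g
      simp only [Function.comp, Finset.filter_insert]
    rw [e]
    exact Measurable.of_discrete.comp ((measurable_pi_apply a).prodMk ih)

lemma measurable_edgesIn (W : Finset V) :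
    Measurable (fun g : Sym2 V → Bool => edgesIn g W) := measurable_filterE _

/-- The cylinder probabilities of the limit along the balls around `o`. -/
def cylU (o : V) (g : Sym2 V → Bool) (D : Finset (Sym2 V)) (p : Sym2 V → Bool) : ℝ :=
  limsup (fun n => ustC (wball g o n) (edgesIn g (wball g o n)) D p) atTop

lemma measurable_ustC_ball (o : V) (n : ℕ) (D : Finset (Sym2 V)) (p : Sym2 V → Bool) :
    Measurable (fun g : Sym2 V → Bool => ustC (wball g o n) (edgesIn g (wball g o n)) D p) := by
  have h1 : Measurable (fun q : Finset V × (Sym2 V → Bool) => ustC q.1 (edgesIn q.2 q.1) D p) := by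
    refine measurable_from_prod_countable_right (fun W => ?_)
    have h2 : (fun g : Sym2 V → Bool => ustC W (edgesIn g W) D p)
        = (fun F : Finset (Sym2 V) => ustC W F D p) ∘ (fun g => edgesIn g W) := rfl
    rw [h2]
    have h3 : Measurable (fun F : Finset (Sym2 V) => ustC W F D p) := Measurable.of_discrete
    exact h3.comp (measurable_edgesIn W)
  have h4 : Measurable (fun g : Sym2 V → Bool => ((wball g o n, g) : Finset V × (Sym2 V → Bool))) :=
    (measurable_wball o n).prodMk measurable_id
  have h5 := h1.comp h4
  exact h5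

lemma measurable_cylU (o : V) (D : Finset (Sym2 V)) (p : Sym2 V → Bool) :
    Measurable (fun g : Sym2 V → Bool => cylU o g D p) := by
  unfold cylU
  exact Measurable.limsup (fun n => measurable_ustC_ball o n D p)

/-- The balls of pairs around a site. -/
def Bg (g : Sym2 V → Bool) (f : Sym2 V) (k : ℕ) : Finset (Sym2 V) :=
  Sym2.lift ⟨fun a b => (wball g a k ∪ wball g b k).sym2, fun a b => by
    show (wball g a k ∪ wball g b k).sym2 = (wball g b k ∪ wball g a k).sym2
    rw [Finset.union_comm]⟩ f

omit [Countable V] in
@[simp] lemma Bg_mk (g : Sym2 V → Bool) (a b : V) (k : ℕ) :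
    Bg g s(a, b) k = (wball g a k ∪ wball g b k).sym2 := rfl

lemma measurable_Bg (f : Sym2 V) (k : ℕ) : Measurable (fun g : Sym2 V → Bool => Bg g f k) := by
  induction f using Sym2.ind with
  | _ a b =>
    have e : (fun g : Sym2 V → Bool => Bg g s(a, b) k)
        = (fun p : Finset V × Finset V => (p.1 ∪ p.2).sym2) ∘
          (fun g => (wball g a k, wball g b k)) := rfl
    rw [e]
    exact Measurable.of_discrete.comp ((measurable_wball a k).prodMk (measurable_wball b k))

/-- The universal mean-field function. -/
def mU (o : V) (g : Sym2 V → Bool) (f : Sym2 V) (h : Sym2 V → ℝ) : ℝ :=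
  limsup (fun k => tmF (cylU o g) (Bg g f k) h f) atTop

lemma measurable_tmF (o : V) (T : Finset (Sym2 V)) (f : Sym2 V) :
    Measurable (fun q : (Sym2 V → Bool) × (Sym2 V → ℝ) => tmF (cylU o q.1) T q.2 f) := by
  unfold tmF
  refine Measurable.div ?_ ?_
  · refine Finset.measurable_sum _ (fun p _ => ?_)
    refine ((measurable_cylU o _ _).comp measurable_fst).mul (Measurable.const_mul ?_ _)
    exact (measurable_tiltExp T).comp (measurable_snd.prodMk measurable_const)
  · refine Finset.measurable_sum _ (fun p _ => ?_)
    refine ((measurable_cylU o _ _).comp measurable_fst).mul ?_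
    exact (measurable_tiltExp T).comp (measurable_snd.prodMk measurable_const)

lemma measurable_mU (o : V) (f : Sym2 V) :
    Measurable (fun q : (Sym2 V → Bool) × (Sym2 V → ℝ) => mU o q.1 f q.2) := by
  unfold mU
  refine Measurable.limsup (fun k => ?_)
  have h1 : Measurable (fun q : Finset (Sym2 V) × ((Sym2 V → Bool) × (Sym2 V → ℝ)) =>
      tmF (cylU o q.2.1) q.1 q.2.2 f) :=
    measurable_from_prod_countable_right (fun T => measurable_tmF o T f)
  have h2 : Measurable (fun q : (Sym2 V → Bool) × (Sym2 V → ℝ) =>
      ((Bg q.1 f k, q) : Finset (Sym2 V) × ((Sym2 V → Bool) × (Sym2 V → ℝ)))) :=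
    ((measurable_Bg f k).comp measurable_fst).prodMk measurable_id
  have h3 := h1.comp h2
  exact h3

/-- The first radius at which `y` lies in the ball around `x`. -/
def stage (g : Sym2 V → Bool) (x y : V) : ℕ := sInf {n | y ∈ wball g x n}

lemma measurableSet_mem_wball (x y : V) (n : ℕ) :
    MeasurableSet {g : Sym2 V → Bool | y ∈ wball g x n} := by
  have h : MeasurableSet {T : Finset V | y ∈ T} := MeasurableSet.of_discrete
  exact (measurable_wball x n) h

lemma measurable_stage (x y : V) : Measurable (fun g : Sym2 V → Bool => stage g x y) := by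
  refine measurable_to_countable' (fun k => ?_)
  have : (fun g : Sym2 V → Bool => stage g x y) ⁻¹' {k}
      = ({g | y ∈ wball g x k} ∩ ⋂ j ∈ Finset.range k, {g | y ∈ wball g x j}ᶜ) ∪
        (if k = 0 then ⋂ n, {g | y ∈ wball g x n}ᶜ else ∅) := by
    ext g
    simp only [Set.mem_preimage, Set.mem_singleton_iff, Set.mem_union, Set.mem_inter_iff,
      Set.mem_iInter, Finset.mem_range, Set.mem_compl_iff, Set.mem_ofPred_eq]
    unfold stage
    by_cases hne : {n | y ∈ wball g x n}.Nonempty
    · constructor
      · intro h
        left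
        subst h
        exact ⟨Nat.sInf_mem hne, fun j hj => Nat.notMem_of_lt_sInf hj⟩
      · rintro (⟨h1, h2⟩ | h)
        · refine le_antisymm (Nat.sInf_le h1) ?_
          by_contra hc
          push Not at hc
          exact h2 _ hc (Nat.sInf_mem hne)
        · by_cases hk : k = 0
          · rw [if_pos hk] at h
            simp only [Set.mem_iInter, Set.mem_compl_iff, Set.mem_ofPred_eq] at h
            obtain ⟨n, hn⟩ := hne
            exact absurd hn (h n)
          · rw [if_neg hk] at h
            exact absurd h (Set.notMem_empty _)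
    · have hemp : {n | y ∈ wball g x n} = ∅ := Set.not_nonempty_iff_eq_empty.1 hne
      rw [hemp, Nat.sInf_empty]
      have hall : ∀ n, y ∉ wball g x n := fun n hn => hne ⟨n, hn⟩
      constructor
      · intro h
        subst h
        right
        simpa using hall
      · rintro (⟨h1, _⟩ | h)
        · exact absurd h1 (hall k)
        · by_cases hk : k = 0
          · exact hk.symm
          · rw [if_neg hk] at h
            exact absurd h (Set.notMem_empty _)
  rw [this]
  refine MeasurableSet.union ?_ ?_
  · refine (measurableSet_mem_wball x y k).inter ?_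
    exact Finset.measurableSet_biInter _ (fun j _ => (measurableSet_mem_wball x y j).compl)
  · by_cases hk : k = 0
    · rw [if_pos hk]
      exact MeasurableSet.iInter (fun n => (measurableSet_mem_wball x y n).compl)
    · rw [if_neg hk]
      exact MeasurableSet.empty

/-- The number of vertices of smaller label in the ball reaching `y`. -/
def cnt (g : Sym2 V → Bool) (L : V → ℝ) (x y : V) : ℕ :=
  ((wball g x (stage g x y)).filter (fun w => L w < L y)).card

/-- The rank of `y` as seen from `x`. -/
def rnk (g : Sym2 V → Bool) (L : V → ℝ) (x y : V) : ℕ := Nat.pair (stage g x y) (cnt g L x y)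

lemma measurable_card_filter (W : Finset V) (y : V) :
    Measurable (fun L : V → ℝ => (W.filter (fun w => L w < L y)).card) := by
  simp_rw [Finset.card_filter]
  refine Finset.measurable_sum _ (fun w _ => ?_)
  refine Measurable.ite ?_ measurable_const measurable_const
  exact measurableSet_lt (measurable_pi_apply w) (measurable_pi_apply y)

lemma measurable_rnk (x y : V) :
    Measurable (fun q : (Sym2 V → Bool) × (V → ℝ) => rnk q.1 q.2 x y) := by
  unfold rnk
  have h1 : Measurable (fun q : (Sym2 V → Bool) × (V → ℝ) => stage q.1 x y) :=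
    (measurable_stage x y).comp measurable_fst
  have h2 : Measurable (fun q : (Sym2 V → Bool) × (V → ℝ) => cnt q.1 q.2 x y) := by
    unfold cnt
    have h3 : Measurable (fun q : Finset V × (V → ℝ) => (q.1.filter (fun w => q.2 w < q.2 y)).card) :=
      measurable_from_prod_countable_right (fun W => measurable_card_filter W y)
    have h4 : Measurable (fun q : ℕ × (Sym2 V → Bool) => wball q.2 x q.1) :=
      measurable_from_prod_countable_right (fun n => measurable_wball x n)
    have h5 : Measurable (fun q : (Sym2 V → Bool) × (V → ℝ) => wball q.1 x (stage q.1 x y)) :=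
      h4.comp (h1.prodMk measurable_fst)
    exact h3.comp (h5.prodMk measurable_snd)
  exact (measurable_of_countable (fun p : ℕ × ℕ => Nat.pair p.1 p.2)).comp (h1.prodMk h2)

/-- The noise of the pair `(a, b)`: read from the vertex of smaller label, at the rank of the other
vertex; zero in case of a tie between distinct vertices. -/
def ue0 (g : Sym2 V → Bool) (L : V → ℝ) (ξ : V × ℕ → ℝ) (a b : V) : ℝ :=
  if L a < L b then ξ (a, rnk g L a b)
  else if L b < L a then ξ (b, rnk g L b a)
  else if a = b then ξ (a, rnk g L a a) else 0

omit [Countable V] in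
lemma ue0_comm (g : Sym2 V → Bool) (L : V → ℝ) (ξ : V × ℕ → ℝ) (a b : V) :
    ue0 g L ξ a b = ue0 g L ξ b a := by
  unfold ue0
  by_cases h1 : L a < L b
  · have h2 : ¬ L b < L a := not_lt.2 h1.le
    simp [h1, h2]
  · by_cases h2 : L b < L a
    · simp [h1, h2]
    · by_cases h3 : a = b
      · subst h3; simp
      · have h4 : ¬ b = a := fun e => h3 e.symm
        simp [h1, h2, h3, h4]

/-- The noise of a pair of vertices. -/
def ue (g : Sym2 V → Bool) (L : V → ℝ) (ξ : V × ℕ → ℝ) (e : Sym2 V) : ℝ :=
  Sym2.lift ⟨ue0 g L ξ, ue0_comm g L ξ⟩ e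

omit [Countable V] in
@[simp] lemma ue_mk (g : Sym2 V → Bool) (L : V → ℝ) (ξ : V × ℕ → ℝ) (a b : V) :
    ue g L ξ s(a, b) = ue0 g L ξ a b := rfl

section noise

variable {S : ℝ → ℕ → ℝ}

/-- The vertex labels. -/
def lab (S : ℝ → ℕ → ℝ) (U : V → ℝ) (v : V) : ℝ := S (U v) 0

/-- The vertex noise streams. -/
def tailN (S : ℝ → ℕ → ℝ) (U : V → ℝ) (c : V × ℕ) : ℝ := S (U c.1) (c.2 + 1)

omit [Countable V] in
lemma splitU_eq (U : V → ℝ) : splitU S U = (lab S U, tailN S U) := rfl

omit [Countable V] in
lemma measurable_lab (hS : Measurable S) : Measurable (lab (V := V) S) := by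
  refine measurable_pi_iff.2 (fun v => ?_)
  exact (measurable_pi_apply 0).comp (hS.comp (measurable_pi_apply v))

lemma measurable_tailN (hS : Measurable S) : Measurable (tailN (V := V) S) := by
  refine measurable_pi_iff.2 (fun c => ?_)
  exact (measurable_pi_apply (c.2 + 1)).comp (hS.comp (measurable_pi_apply c.1))

lemma measurable_read (a b : V) :
    Measurable (fun q : (Sym2 V → Bool) × (V → ℝ) × (V × ℕ → ℝ) =>
      q.2.2 (a, rnk q.1 q.2.1 a b)) := by
  have h00 : Measurable (fun q : (Sym2 V → Bool) × (V → ℝ) × (V × ℕ → ℝ) =>
      ((q.1, q.2.1) : (Sym2 V → Bool) × (V → ℝ))) :=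
    measurable_fst.prodMk (measurable_fst.comp measurable_snd)
  have h01 := (measurable_rnk a b).comp h00
  have h0 : Measurable (fun q : (Sym2 V → Bool) × (V → ℝ) × (V × ℕ → ℝ) => rnk q.1 q.2.1 a b) :=
    h01
  have h1 : Measurable (fun q : ℕ × (V × ℕ → ℝ) => q.2 (a, q.1)) :=
    measurable_from_prod_countable_right (fun n => measurable_pi_apply (a, n))
  have h2 : Measurable (fun q : (Sym2 V → Bool) × (V → ℝ) × (V × ℕ → ℝ) =>
      ((rnk q.1 q.2.1 a b, q.2.2) : ℕ × (V × ℕ → ℝ))) :=
    h0.prodMk (measurable_snd.comp measurable_snd)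
  have h3 := h1.comp h2
  exact h3

lemma measurable_ue' (e : Sym2 V) :
    Measurable (fun q : (Sym2 V → Bool) × (V → ℝ) × (V × ℕ → ℝ) => ue q.1 q.2.1 q.2.2 e) := by
  induction e using Sym2.ind with
  | _ a b =>
    simp only [ue_mk, ue0]
    have hL : ∀ v : V, Measurable (fun q : (Sym2 V → Bool) × (V → ℝ) × (V × ℕ → ℝ) => q.2.1 v) :=
      fun v => (measurable_pi_apply v).comp (measurable_fst.comp measurable_snd)
    refine Measurable.ite (measurableSet_lt (hL a) (hL b)) (measurable_read a b) ?_
    refine Measurable.ite (measurableSet_lt (hL b) (hL a)) (measurable_read b a) ?_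
    by_cases hab : a = b
    · simp only [hab, if_true]
      exact measurable_read b b
    · simp only [hab, if_false]
      exact measurable_const

lemma measurable_ue (hS : Measurable S) (e : Sym2 V) :
    Measurable (fun q : (Sym2 V → Bool) × (V → ℝ) => ue q.1 (lab S q.2) (tailN S q.2) e) := by
  have h : Measurable (fun q : (Sym2 V → Bool) × (V → ℝ) =>
      ((q.1, lab S q.2, tailN S q.2) : (Sym2 V → Bool) × (V → ℝ) × (V × ℕ → ℝ))) :=
    measurable_fst.prodMk (((measurable_lab hS).comp measurable_snd).prodMk
      ((measurable_tailN hS).comp measurable_snd))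
  have h2 := (measurable_ue' e).comp h
  exact h2

end noise

end Vale.Agent.P143
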