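import Mathlib

set_option autoImplicit false

/-! Cauchy-Binet for weighted Gram matrices (own proof, Leibniz expansion). -/

noncomputable section

namespace Vale.Agent.P143

open Finset Matrix Equiv

variable {R ι : Type*} [Fintype R] [DecidableEq R] [DecidableEq ι]

/-- The weighted Gram (Laplacian type) matrix. -/
def lapM (F : Finset ι) (B : R → ι → ℝ) (w : ι → ℝ) : Matrix R R ℝ :=
  Matrix.of fun u v => ∑ i ∈ F, w i * (B u i * B v i)

/-- The determinant of the square matrix with columns indexed through `g`. -/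
def colDet (B : R → ι → ℝ) (g : R → ι) : ℝ := Matrix.det (Matrix.of fun u v => B u (g v))

lemma colDet_eq_sum (B : R → ι → ℝ) (g : R → ι) :
    colDet B g = ∑ σ : Perm R, (Perm.sign σ : ℤ) * ∏ v, B (σ v) (g v) := by
  unfold colDet
  rw [Matrix.det_apply']
  simp [Matrix.of_apply]

lemma det_lapM_expand (F : Finset ι) (B : R → ι → ℝ) (w : ι → ℝ) :
    (lapM F B w).det =
      ∑ f ∈ Fintype.piFinset (fun _ : R => F), (∏ v, (w (f v) * B v (f v))) * colDet B f := by
  classical
  rw [Matrix.det_apply']
  have h1 : ∀ σ : Perm R, ∏ v, lapM F B w (σ v) v =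
      ∑ f ∈ Fintype.piFinset (fun _ : R => F),
        (∏ v, (w (f v) * B v (f v))) * ∏ v, B (σ v) (f v) := by
    intro σ
    have : ∀ v, lapM F B w (σ v) v = ∑ i ∈ F, w i * (B (σ v) i * B v i) := fun v => rfl
    simp_rw [this]
    rw [Finset.prod_univ_sum]
    refine Finset.sum_congr rfl fun f _ => ?_
    rw [← Finset.prod_mul_distrib]
    refine Finset.prod_congr rfl fun v _ => ?_
    ring
  simp_rw [h1, Finset.mul_sum]
  rw [Finset.sum_comm]
  refine Finset.sum_congr rfl fun f _ => ?_
  rw [colDet_eq_sum, Finset.mul_sum]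
  refine Finset.sum_congr rfl fun σ _ => ?_
  ring

lemma colDet_not_injective (B : R → ι → ℝ) {g : R → ι} (hg : ¬ Function.Injective g) :
    colDet B g = 0 := by
  unfold colDet
  simp only [Function.Injective, not_forall] at hg
  obtain ⟨a, b, hab, hne⟩ := hg
  refine Matrix.det_zero_of_column_eq (i := a) (j := b) hne ?_
  intro k
  simp [Matrix.of_apply, hab]

lemma colDet_comp_perm (B : R → ι → ℝ) (g : R → ι) (τ : Perm R) :
    colDet B (g ∘ τ) = (Perm.sign τ : ℤ) * colDet B g := by
  unfold colDet
  have : (Matrix.of fun u v => B u ((g ∘ τ) v)) =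
      (Matrix.of fun u v => B u (g v)).submatrix id τ := by
    ext u v; simp
  rw [this, Matrix.det_permute']

/-- The sum over permutations for a fixed set of columns. -/
lemma sum_perm_fixed (B : R → ι → ℝ) (w : ι → ℝ) (g : R → ι) :
    ∑ τ : Perm R, (∏ v, (w (g (τ v)) * B v (g (τ v)))) * colDet B (g ∘ τ) =
      (∏ v, w (g v)) * (colDet B g) ^ 2 := by
  have h1 : ∀ τ : Perm R, (∏ v, (w (g (τ v)) * B v (g (τ v)))) * colDet B (g ∘ τ) =
      (∏ v, w (g v)) * colDet B g * (((Perm.sign τ : ℤ) : ℝ) * ∏ v, B v (g (τ v))) := by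
    intro τ
    rw [Finset.prod_mul_distrib, colDet_comp_perm]
    have : ∏ v, w (g (τ v)) = ∏ v, w (g v) := Equiv.prod_comp τ (fun v => w (g v))
    rw [this]
    ring
  simp_rw [h1]
  rw [← Finset.mul_sum]
  have h2 : ∑ τ : Perm R, (((Perm.sign τ : ℤ) : ℝ) * ∏ v, B v (g (τ v))) = colDet B g := by
    unfold colDet
    rw [← Matrix.det_transpose, Matrix.det_apply']
    simp [Matrix.transpose_apply, Matrix.of_apply]
  rw [h2]
  ring

/-- The fibre of the image map over a set `S`, summed. -/
lemma sum_fiber_image (F : Finset ι) (G : (R → ι) → ℝ) (g : R → ι) (hg : Function.Injective g)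
    (S : Finset ι) (hS : (Finset.univ : Finset R).image g = S) (hSF : S ⊆ F) :
    ∑ f ∈ ((Fintype.piFinset (fun _ : R => F)).filter Function.Injective).filter
        (fun f => (Finset.univ : Finset R).image f = S), G f =
      ∑ τ : Perm R, G (g ∘ τ) := by
  classical
  symm
  refine Finset.sum_bij (fun τ _ => g ∘ τ) ?_ ?_ ?_ ?_
  · intro τ _
    simp only [Finset.mem_filter, Fintype.mem_piFinset]
    refine ⟨⟨fun v => hSF ?_, hg.comp τ.injective⟩, ?_⟩
    · rw [← hS]; exact Finset.mem_image_of_mem _ (Finset.mem_univ _)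
    · rw [← hS]
      ext x
      simp only [Finset.mem_image, Finset.mem_univ, true_and, Function.comp]
      constructor
      · rintro ⟨v, rfl⟩; exact ⟨τ v, rfl⟩
      · rintro ⟨v, rfl⟩; exact ⟨τ.symm v, by simp⟩
  · intro τ _ τ' _ h
    ext v
    have := congrFun h v
    simp only [Function.comp] at this
    exact hg this
  · intro f hf
    simp only [Finset.mem_filter, Fintype.mem_piFinset] at hf
    obtain ⟨⟨_, hfi⟩, hfS⟩ := hf
    have hex : ∀ v, ∃ u, g u = f v := by
      intro v
      have : f v ∈ (Finset.univ : Finset R).image g := by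
        rw [hS, ← hfS]; exact Finset.mem_image_of_mem _ (Finset.mem_univ _)
      simpa using this
    choose τ0 hτ0 using hex
    have hτi : Function.Injective τ0 := by
      intro a b hab
      apply hfi
      rw [← hτ0, ← hτ0, hab]
    have hτb : Function.Bijective τ0 := Finite.injective_iff_bijective.mp hτi
    refine ⟨Equiv.ofBijective τ0 hτb, Finset.mem_univ _, ?_⟩
    ext v
    simp [hτ0]
  · intro τ _
    rfl

/-- **Cauchy-Binet** for weighted Gram matrices. -/
theorem cauchy_binet (F : Finset ι) (B : R → ι → ℝ) (w : ι → ℝ) (pick : Finset ι → R → ι)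
    (hpick : ∀ S ∈ F.powersetCard (Fintype.card R),
      Function.Injective (pick S) ∧ (Finset.univ : Finset R).image (pick S) = S) :
    (lapM F B w).det =
      ∑ S ∈ F.powersetCard (Fintype.card R), (∏ i ∈ S, w i) * (colDet B (pick S)) ^ 2 := by
  classical
  rw [det_lapM_expand]
  set G : (R → ι) → ℝ := fun f => (∏ v, (w (f v) * B v (f v))) * colDet B f with hG
  have h0 : ∑ f ∈ Fintype.piFinset (fun _ : R => F), G f =
      ∑ f ∈ (Fintype.piFinset (fun _ : R => F)).filter Function.Injective, G f := by
    symm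
    refine Finset.sum_filter_of_ne ?_
    intro f _ hne
    by_contra hf
    exact hne (by simp [hG, colDet_not_injective B hf])
  change ∑ f ∈ Fintype.piFinset (fun _ : R => F), G f = _
  rw [h0]
  have hmaps : ∀ f ∈ (Fintype.piFinset (fun _ : R => F)).filter Function.Injective,
      (Finset.univ : Finset R).image f ∈ F.powersetCard (Fintype.card R) := by
    intro f hf
    simp only [Finset.mem_filter, Fintype.mem_piFinset] at hf
    rw [Finset.mem_powersetCard]
    refine ⟨?_, ?_⟩
    · intro x hx
      simp only [Finset.mem_image, Finset.mem_univ, true_and] at hx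
      obtain ⟨v, rfl⟩ := hx
      exact hf.1 v
    · rw [Finset.card_image_of_injective _ hf.2, Finset.card_univ]
  rw [← Finset.sum_fiberwise_of_maps_to hmaps]
  refine Finset.sum_congr rfl fun S hS => ?_
  obtain ⟨hinj, him⟩ := hpick S hS
  have hSF : S ⊆ F := (Finset.mem_powersetCard.mp hS).1
  rw [sum_fiber_image F G (pick S) hinj S him hSF]
  have := sum_perm_fixed B w (pick S)
  simp only [hG, Function.comp] at this ⊢
  have h3 : ∏ v, w (pick S v) = ∏ i ∈ S, w i := by
    conv_rhs => rw [← him]
    rw [Finset.prod_image (fun a _ b _ h => hinj h)]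
  rw [← h3, ← this]

/-- A bijective enumeration of a set with the right cardinality exists. -/
lemma exists_pick [Nonempty ι] (F : Finset ι) :
    ∃ pick : Finset ι → R → ι, ∀ S ∈ F.powersetCard (Fintype.card R),
      Function.Injective (pick S) ∧ (Finset.univ : Finset R).image (pick S) = S := by
  classical
  have h : ∀ S : Finset ι, ∃ g : R → ι, S ∈ F.powersetCard (Fintype.card R) →
      Function.Injective g ∧ (Finset.univ : Finset R).image g = S := by
    intro S
    by_cases hS : S ∈ F.powersetCard (Fintype.card R)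
    · have hc : Fintype.card R = Fintype.card S := by
        rw [Fintype.card_coe, (Finset.mem_powersetCard.mp hS).2]
      let e : R ≃ S := Fintype.equivOfCardEq hc
      refine ⟨fun v => (e v : ι), fun _ => ⟨?_, ?_⟩⟩
      · intro a b h
        exact e.injective (Subtype.ext h)
      · ext x
        simp only [Finset.mem_image, Finset.mem_univ, true_and]
        constructor
        · rintro ⟨v, rfl⟩; exact (e v).2
        · intro hx; exact ⟨e.symm ⟨x, hx⟩, by simp⟩
    · exact ⟨fun _ => Classical.arbitrary ι, fun h => absurd h hS⟩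
  choose pick hp using h
  exact ⟨pick, fun S hS => hp S hS⟩

end Vale.Agent.P143
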