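import Vale.Agent.P143.UstRay

set_option autoImplicit false

/-! Consequences of the Rayleigh inequality: negative association of inclusion counts and the
row-sum bound for covariances (hence the Lipschitz property of tilted means). -/

noncomputable section

namespace Vale.Agent.P143

open Finset Filter Topology

variable {ι : Type*} [DecidableEq ι]

/-- The Rayleigh property of a family of sets (for all positive weights). -/
def Ray (𝒯 : Finset (Finset ι)) : Prop :=
  ∀ (w : ι → ℝ), (∀ i, 0 < w i) → ∀ e f : ι, e ≠ f →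
    (∑ T ∈ 𝒯.filter (fun T => e ∈ T ∧ f ∈ T), wtp w T) *
        (∑ T ∈ 𝒯.filter (fun T => e ∉ T ∧ f ∉ T), wtp w T) ≤
      (∑ T ∈ 𝒯.filter (fun T => e ∈ T ∧ f ∉ T), wtp w T) *
        (∑ T ∈ 𝒯.filter (fun T => e ∉ T ∧ f ∈ T), wtp w T)

/-- The number of members of the family containing `X`, as a real number. -/
def Zr (𝒯 : Finset (Finset ι)) (X : Finset ι) : ℝ :=
  ∑ T ∈ 𝒯, if X ⊆ T then (1 : ℝ) else 0

lemma Zr_nonneg (𝒯 : Finset (Finset ι)) (X : Finset ι) : 0 ≤ Zr 𝒯 X :=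
  Finset.sum_nonneg fun T _ => by split_ifs <;> norm_num

section Limit

variable (A : Finset ι)

lemma wtp_scale {u : ℝ} (hu : 0 < u) (T : Finset ι) :
    u ^ A.card * wtp (fun i => if i ∈ A then u⁻¹ else 1) T = u ^ (A \ T).card := by
  unfold wtp
  have h1 : ∏ i ∈ T, (if i ∈ A then u⁻¹ else 1) = (u⁻¹) ^ (A ∩ T).card := by
    rw [Finset.prod_ite, Finset.prod_const, Finset.prod_const_one, mul_one]
    congr 2
    ext x
    simp [and_comm]
  rw [h1]
  have h2 : A.card = (A \ T).card + (A ∩ T).card := by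
    rw [add_comm, Finset.card_inter_add_card_sdiff]
  rw [h2, pow_add, mul_assoc, ← mul_pow, mul_inv_cancel₀ hu.ne', one_pow, mul_one]

lemma zero_pow_sdiff (T : Finset ι) :
    (0 : ℝ) ^ (A \ T).card = if A ⊆ T then 1 else 0 := by
  by_cases h : A ⊆ T
  · rw [if_pos h, Finset.sdiff_eq_empty_iff_subset.mpr h]; simp
  · rw [if_neg h]
    apply zero_pow
    intro h0
    apply h
    exact Finset.sdiff_eq_empty_iff_subset.mp (Finset.card_eq_zero.mp h0)

end Limit

/-- The Rayleigh inequality for the counts of members containing `A` (limit of large weights on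
`A`). -/
theorem count_ray {𝒯 : Finset (Finset ι)} (hR : Ray 𝒯) (A : Finset ι) (e f : ι) (hef : e ≠ f) :
    (∑ T ∈ 𝒯.filter (fun T => e ∈ T ∧ f ∈ T), if A ⊆ T then (1 : ℝ) else 0) *
        (∑ T ∈ 𝒯.filter (fun T => e ∉ T ∧ f ∉ T), if A ⊆ T then (1 : ℝ) else 0) ≤
      (∑ T ∈ 𝒯.filter (fun T => e ∈ T ∧ f ∉ T), if A ⊆ T then (1 : ℝ) else 0) *
        (∑ T ∈ 𝒯.filter (fun T => e ∉ T ∧ f ∈ T), if A ⊆ T then (1 : ℝ) else 0) := by
  classical
  set G : Finset (Finset ι) → ℝ → ℝ := fun C u => ∑ T ∈ C, u ^ (A \ T).card with hG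
  have hG0 : ∀ C, G C 0 = ∑ T ∈ C, if A ⊆ T then (1 : ℝ) else 0 := by
    intro C
    simp only [hG, zero_pow_sdiff]
  have hpos : ∀ u : ℝ, 0 < u →
      G (𝒯.filter (fun T => e ∈ T ∧ f ∈ T)) u * G (𝒯.filter (fun T => e ∉ T ∧ f ∉ T)) u ≤
        G (𝒯.filter (fun T => e ∈ T ∧ f ∉ T)) u * G (𝒯.filter (fun T => e ∉ T ∧ f ∈ T)) u := by
    intro u hu
    have hw : ∀ i, 0 < (fun i => if i ∈ A then u⁻¹ else (1 : ℝ)) i := by
      intro i
      show 0 < (if i ∈ A then u⁻¹ else (1 : ℝ))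
      split_ifs
      · exact inv_pos.mpr hu
      · exact one_pos
    have h := hR _ hw e f hef
    have hGe : ∀ C, G C u = u ^ A.card * ∑ T ∈ C, wtp (fun i => if i ∈ A then u⁻¹ else 1) T := by
      intro C
      simp only [hG, Finset.mul_sum, wtp_scale A hu]
    simp only [hGe]
    have hc : 0 ≤ u ^ A.card * u ^ A.card := by positivity
    nlinarith [mul_le_mul_of_nonneg_left h hc]
  rw [← hG0, ← hG0, ← hG0, ← hG0]
  have hcont : ∀ C, Continuous (G C) := by
    intro C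
    simp only [hG]
    fun_prop
  have hL := ((hcont (𝒯.filter (fun T => e ∈ T ∧ f ∈ T))).mul
    (hcont (𝒯.filter (fun T => e ∉ T ∧ f ∉ T)))).tendsto 0
  have hRr := ((hcont (𝒯.filter (fun T => e ∈ T ∧ f ∉ T))).mul
    (hcont (𝒯.filter (fun T => e ∉ T ∧ f ∈ T)))).tendsto 0
  refine le_of_tendsto_of_tendsto (hL.mono_left nhdsWithin_le_nhds)
    (hRr.mono_left (nhdsWithin_le_nhds (s := Set.Ioi 0))) ?_
  filter_upwards [self_mem_nhdsWithin] with u hu
  exact hpos u hu

/-- Negative correlation of `e, f` given `A`. -/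
theorem zr_ray {𝒯 : Finset (Finset ι)} (hR : Ray 𝒯) (A : Finset ι) (e f : ι) (hef : e ≠ f) :
    Zr 𝒯 (insert e (insert f A)) * Zr 𝒯 A ≤ Zr 𝒯 (insert e A) * Zr 𝒯 (insert f A) := by
  classical
  have h := count_ray hR A e f hef
  simp only [Finset.sum_filter] at h
  set c11 := ∑ T ∈ 𝒯, if e ∈ T ∧ f ∈ T then (if A ⊆ T then (1 : ℝ) else 0) else 0 with h11
  set c10 := ∑ T ∈ 𝒯, if e ∈ T ∧ f ∉ T then (if A ⊆ T then (1 : ℝ) else 0) else 0 with h10
  set c01 := ∑ T ∈ 𝒯, if e ∉ T ∧ f ∈ T then (if A ⊆ T then (1 : ℝ) else 0) else 0 with h01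
  set c00 := ∑ T ∈ 𝒯, if e ∉ T ∧ f ∉ T then (if A ⊆ T then (1 : ℝ) else 0) else 0 with h00
  have e1 : Zr 𝒯 (insert e (insert f A)) = c11 := by
    unfold Zr
    refine Finset.sum_congr rfl fun T _ => ?_
    by_cases h1 : e ∈ T <;> by_cases h2 : f ∈ T <;> by_cases h3 : A ⊆ T <;>
      simp [h1, h2, h3, Finset.insert_subset_iff]
  have e2 : Zr 𝒯 (insert e A) = c11 + c10 := by
    unfold Zr
    rw [h11, h10, ← Finset.sum_add_distrib]
    refine Finset.sum_congr rfl fun T _ => ?_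
    by_cases h1 : e ∈ T <;> by_cases h2 : f ∈ T <;> by_cases h3 : A ⊆ T <;>
      simp [h1, h2, h3, Finset.insert_subset_iff]
  have e3 : Zr 𝒯 (insert f A) = c11 + c01 := by
    unfold Zr
    rw [h11, h01, ← Finset.sum_add_distrib]
    refine Finset.sum_congr rfl fun T _ => ?_
    by_cases h1 : e ∈ T <;> by_cases h2 : f ∈ T <;> by_cases h3 : A ⊆ T <;>
      simp [h1, h2, h3, Finset.insert_subset_iff]
  have e4 : Zr 𝒯 A = c11 + c10 + c01 + c00 := by
    unfold Zr
    rw [h11, h10, h01, h00, ← Finset.sum_add_distrib, ← Finset.sum_add_distrib,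
      ← Finset.sum_add_distrib]
    refine Finset.sum_congr rfl fun T _ => ?_
    by_cases h1 : e ∈ T <;> by_cases h2 : f ∈ T <;> by_cases h3 : A ⊆ T <;>
      simp [h1, h2, h3]
  rw [e1, e2, e3, e4]
  nlinarith

/-- Negative association of the inclusion of a set and the inclusion of one more edge. -/
theorem neg_assoc {𝒯 : Finset (Finset ι)} (hR : Ray 𝒯) (g : ι) (A : Finset ι) (hg : g ∉ A) :
    Zr 𝒯 (insert g A) * Zr 𝒯 ∅ ≤ Zr 𝒯 A * Zr 𝒯 {g} := by
  classical
  induction A using Finset.induction_on with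
  | empty =>
    have : (insert g ∅ : Finset ι) = {g} := rfl
    rw [this]
    apply le_of_eq
    ring
  | insert e A he ih =>
    have hge : g ≠ e := by
      intro h
      apply hg
      rw [h]
      exact Finset.mem_insert_self _ _
    have hgA : g ∉ A := fun h => hg (Finset.mem_insert_of_mem h)
    have ih' := ih hgA
    have hr := zr_ray hR A e g hge.symm
    have hc : insert g (insert e A) = insert e (insert g A) := Finset.insert_comm _ _ _
    rw [hc]
    by_cases hZ : Zr 𝒯 A = 0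
    · -- then nothing contains `A`
      have hzero : ∀ T ∈ 𝒯, ¬ A ⊆ T := by
        intro T hT hsub
        have : 0 < Zr 𝒯 A := by
          unfold Zr
          refine Finset.sum_pos' (fun T _ => by split_ifs <;> norm_num) ⟨T, hT, ?_⟩
          simp [hsub]
        linarith
      have h0 : Zr 𝒯 (insert e (insert g A)) = 0 := by
        unfold Zr
        refine Finset.sum_eq_zero fun T hT => ?_
        rw [if_neg]
        intro hsub
        apply hzero T hT
        exact (Finset.subset_insert _ _).trans ((Finset.subset_insert _ _).trans hsub)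
      rw [h0, zero_mul]
      exact mul_nonneg (Zr_nonneg _ _) (Zr_nonneg _ _)
    · have hpos : 0 < Zr 𝒯 A := lt_of_le_of_ne (Zr_nonneg _ _) (Ne.symm hZ)
      have h0 := Zr_nonneg 𝒯 (∅ : Finset ι)
      have h1 := Zr_nonneg 𝒯 (insert e A)
      have key : Zr 𝒯 (insert e (insert g A)) * Zr 𝒯 ∅ * Zr 𝒯 A ≤
          Zr 𝒯 (insert e A) * Zr 𝒯 {g} * Zr 𝒯 A := by
        calc Zr 𝒯 (insert e (insert g A)) * Zr 𝒯 ∅ * Zr 𝒯 A
            = (Zr 𝒯 (insert e (insert g A)) * Zr 𝒯 A) * Zr 𝒯 ∅ := by ring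
          _ ≤ (Zr 𝒯 (insert e A) * Zr 𝒯 (insert g A)) * Zr 𝒯 ∅ :=
              mul_le_mul_of_nonneg_right hr h0
          _ = Zr 𝒯 (insert e A) * (Zr 𝒯 (insert g A) * Zr 𝒯 ∅) := by ring
          _ ≤ Zr 𝒯 (insert e A) * (Zr 𝒯 A * Zr 𝒯 {g}) :=
              mul_le_mul_of_nonneg_left ih' h1
          _ = Zr 𝒯 (insert e A) * Zr 𝒯 {g} * Zr 𝒯 A := by ring
      exact le_of_mul_le_mul_right key hpos

end Vale.Agent.P143
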