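import Mathlib

set_option autoImplicit false

noncomputable section
open scoped Classical

namespace Vale.Agent.P143

variable {V : Type*}

/-- `T` is (the edge set of) a spanning tree of the vertex set `W`: the edges of `T` lie inside
`W` and the graph with edge set `T`, restricted to `W`, is a tree. -/
def IsSpT (W : Finset V) (T : Finset (Sym2 V)) : Prop :=
  (∀ e ∈ T, ∀ v ∈ e, v ∈ W) ∧
    ((SimpleGraph.fromEdgeSet (T : Set (Sym2 V))).induce (W : Set V)).IsTree

/-- The spanning trees of the finite graph `(W, F)`, as a finset of edge sets. -/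
def treesOf (W : Finset V) (F : Finset (Sym2 V)) : Finset (Finset (Sym2 V)) :=
  F.powerset.filter (fun T => IsSpT W T)

/-- The spin of the edge `f` in the edge set `T`. -/
def spT (f : Sym2 V) (T : Finset (Sym2 V)) : ℝ := if f ∈ T then 1 else -1

/-- The Boltzmann weight of the edge set `T` under the field `a` on `S`. -/
def wtT (S : Finset (Sym2 V)) (a : Sym2 V → ℝ) (T : Finset (Sym2 V)) : ℝ :=
  Real.exp (∑ f ∈ S, a f * spT f T)

/-- The mean spin at `e` of the family `𝒯` of edge sets, tilted by the field `a` on `S`. -/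
def tmean (𝒯 : Finset (Finset (Sym2 V))) (S : Finset (Sym2 V)) (a : Sym2 V → ℝ) (e : Sym2 V) : ℝ :=
  (∑ T ∈ 𝒯, spT e T * wtT S a T) / ∑ T ∈ 𝒯, wtT S a T

end Vale.Agent.P143
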