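import Vale.Agent.P143.UstCons

set_option autoImplicit false

/-! The row-sum bound for the covariances of a tilted Rayleigh family of sets of constant size,
and the resulting Lipschitz bound for tilted means. -/

noncomputable section

namespace Vale.Agent.P143

open Finset

variable {ι : Type*} [DecidableEq ι]

/-- The spin of `f` in `T`. -/
def sp (f : ι) (T : Finset ι) : ℝ := if f ∈ T then 1 else -1

/-- The Boltzmann weight. -/
def wE (S : Finset ι) (a : ι → ℝ) (T : Finset ι) : ℝ := Real.exp (∑ f ∈ S, a f * sp f T)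

lemma wE_pos (S : Finset ι) (a : ι → ℝ) (T : Finset ι) : 0 < wE S a T := Real.exp_pos _

/-- The tilted expectation. -/
def ex (𝒯 : Finset (Finset ι)) (S : Finset ι) (a : ι → ℝ) (X : Finset ι → ℝ) : ℝ :=
  (∑ T ∈ 𝒯, X T * wE S a T) / ∑ T ∈ 𝒯, wE S a T

/-- The covariance of two spins under the tilted measure. -/
def cv (𝒯 : Finset (Finset ι)) (S : Finset ι) (a : ι → ℝ) (e f : ι) : ℝ :=
  ex 𝒯 S a (fun T => sp e T * sp f T) - ex 𝒯 S a (sp e) * ex 𝒯 S a (sp f)

section Basic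

variable {𝒯 : Finset (Finset ι)} (hne : 𝒯.Nonempty) (S : Finset ι) (a : ι → ℝ)

include hne

lemma den_pos : 0 < ∑ T ∈ 𝒯, wE S a T := Finset.sum_pos (fun T _ => wE_pos S a T) hne

lemma ex_congr {X Y : Finset ι → ℝ} (h : ∀ T ∈ 𝒯, X T = Y T) : ex 𝒯 S a X = ex 𝒯 S a Y := by
  unfold ex
  congr 1
  exact Finset.sum_congr rfl fun T hT => by rw [h T hT]

lemma ex_const (c : ℝ) : ex 𝒯 S a (fun _ => c) = c := by
  unfold ex
  rw [← Finset.mul_sum, mul_div_assoc, div_self (den_pos hne S a).ne', mul_one]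

omit hne in
lemma ex_mul_const (X : Finset ι → ℝ) (c : ℝ) :
    ex 𝒯 S a (fun T => X T * c) = ex 𝒯 S a X * c := by
  unfold ex
  rw [div_mul_eq_mul_div, Finset.sum_mul]
  congr 1
  exact Finset.sum_congr rfl fun T _ => by ring

omit hne in
lemma ex_sum {α : Type*} (A : Finset α) (X : α → Finset ι → ℝ) :
    ex 𝒯 S a (fun T => ∑ i ∈ A, X i T) = ∑ i ∈ A, ex 𝒯 S a (X i) := by
  unfold ex
  rw [← Finset.sum_div]
  congr 1
  simp_rw [Finset.sum_mul]
  rw [Finset.sum_comm]

lemma abs_ex_le_one {X : Finset ι → ℝ} (h : ∀ T ∈ 𝒯, |X T| ≤ 1) : |ex 𝒯 S a X| ≤ 1 := by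
  unfold ex
  have hD := den_pos (𝒯 := 𝒯) hne S a
  rw [abs_div, abs_of_pos hD, div_le_one hD]
  calc |∑ T ∈ 𝒯, X T * wE S a T| ≤ ∑ T ∈ 𝒯, |X T * wE S a T| := Finset.abs_sum_le_sum_abs _ _
    _ ≤ ∑ T ∈ 𝒯, wE S a T := by
        refine Finset.sum_le_sum fun T hT => ?_
        rw [abs_mul, abs_of_pos (wE_pos S a T)]
        have := h T hT
        have h2 := wE_pos S a T
        nlinarith

end Basic

omit [DecidableEq ι] in
lemma abs_sp_le [DecidableEq ι] (f : ι) (T : Finset ι) : |sp f T| ≤ 1 := by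
  unfold sp; split_ifs <;> simp

lemma sp_sq (f : ι) (T : Finset ι) : sp f T * sp f T = 1 := by
  unfold sp; split_ifs <;> norm_num

/-- The Boltzmann weight is a constant times a product weight. -/
lemma wE_eq_wtp (S : Finset ι) (a : ι → ℝ) (T : Finset ι) :
    wE S a T = Real.exp (-∑ f ∈ S, a f) *
      wtp (fun i => if i ∈ S then Real.exp (2 * a i) else 1) T := by
  unfold wE wtp
  have h1 : ∏ i ∈ T, (if i ∈ S then Real.exp (2 * a i) else 1) =
      Real.exp (∑ f ∈ S, if f ∈ T then 2 * a f else 0) := by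
    rw [Real.exp_sum]
    have : ∏ i ∈ T, (if i ∈ S then Real.exp (2 * a i) else 1) =
        ∏ i ∈ T ∩ S, Real.exp (2 * a i) := by
      rw [Finset.prod_ite, Finset.prod_const_one, mul_one]
      congr 1
    rw [this]
    have h2 : ∏ f ∈ S, Real.exp (if f ∈ T then 2 * a f else 0) =
        ∏ f ∈ S, (if f ∈ T then Real.exp (2 * a f) else 1) := by
      refine Finset.prod_congr rfl fun f _ => ?_
      split_ifs <;> simp
    rw [h2, Finset.prod_ite, Finset.prod_const_one, mul_one]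
    congr 1
    ext x; simp [and_comm]
  rw [h1, ← Real.exp_add, ← Finset.sum_neg_distrib, ← Finset.sum_add_distrib]
  congr 1
  refine Finset.sum_congr rfl fun f _ => ?_
  unfold sp
  split_ifs <;> ring

/-- Negative correlation of two different spins under any tilt. -/
theorem cv_nonpos {𝒯 : Finset (Finset ι)} (hR : Ray 𝒯) (hne : 𝒯.Nonempty) (S : Finset ι)
    (a : ι → ℝ) (e f : ι) (hef : e ≠ f) : cv 𝒯 S a e f ≤ 0 := by
  classical
  set C := Real.exp (-∑ f ∈ S, a f) with hC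
  have hCpos : 0 < C := Real.exp_pos _
  set w : ι → ℝ := fun i => if i ∈ S then Real.exp (2 * a i) else 1 with hw
  have hwpos : ∀ i, 0 < w i := by
    intro i
    simp only [hw]
    split_ifs
    · exact Real.exp_pos _
    · exact one_pos
  have hray := hR w hwpos e f hef
  set p11 := ∑ T ∈ 𝒯.filter (fun T => e ∈ T ∧ f ∈ T), wE S a T with h11
  set p10 := ∑ T ∈ 𝒯.filter (fun T => e ∈ T ∧ f ∉ T), wE S a T with h10
  set p01 := ∑ T ∈ 𝒯.filter (fun T => e ∉ T ∧ f ∈ T), wE S a T with h01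
  set p00 := ∑ T ∈ 𝒯.filter (fun T => e ∉ T ∧ f ∉ T), wE S a T with h00
  have hscale : ∀ (P : Finset ι → Prop) [DecidablePred P],
      ∑ T ∈ 𝒯.filter P, wE S a T = C * ∑ T ∈ 𝒯.filter P, wtp w T := by
    intro P _
    rw [Finset.mul_sum]
    exact Finset.sum_congr rfl fun T _ => wE_eq_wtp S a T
  have hray' : p11 * p00 ≤ p10 * p01 := by
    rw [h11, h10, h01, h00, hscale, hscale, hscale, hscale]
    have := mul_le_mul_of_nonneg_left hray (mul_pos hCpos hCpos).le
    nlinarith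
  have hD : ∑ T ∈ 𝒯, wE S a T = p11 + p10 + p01 + p00 := by
    simp only [h11, h10, h01, h00, Finset.sum_filter]
    rw [← Finset.sum_add_distrib, ← Finset.sum_add_distrib, ← Finset.sum_add_distrib]
    refine Finset.sum_congr rfl fun T _ => ?_
    by_cases h1 : e ∈ T <;> by_cases h2 : f ∈ T <;> simp [h1, h2]
  have hDpos := den_pos (𝒯 := 𝒯) hne S a
  rw [hD] at hDpos
  have hNe : ∑ T ∈ 𝒯, sp e T * wE S a T = p11 + p10 - p01 - p00 := by
    simp only [h11, h10, h01, h00, Finset.sum_filter]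
    rw [← Finset.sum_add_distrib, ← Finset.sum_sub_distrib, ← Finset.sum_sub_distrib]
    refine Finset.sum_congr rfl fun T _ => ?_
    by_cases h1 : e ∈ T <;> by_cases h2 : f ∈ T <;> simp [h1, h2, sp]
  have hNf : ∑ T ∈ 𝒯, sp f T * wE S a T = p11 - p10 + p01 - p00 := by
    simp only [h11, h10, h01, h00, Finset.sum_filter]
    rw [← Finset.sum_sub_distrib, ← Finset.sum_add_distrib, ← Finset.sum_sub_distrib]
    refine Finset.sum_congr rfl fun T _ => ?_
    by_cases h1 : e ∈ T <;> by_cases h2 : f ∈ T <;> simp [h1, h2, sp]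
  have hNef : ∑ T ∈ 𝒯, (sp e T * sp f T) * wE S a T = p11 - p10 - p01 + p00 := by
    simp only [h11, h10, h01, h00, Finset.sum_filter]
    rw [← Finset.sum_sub_distrib, ← Finset.sum_sub_distrib, ← Finset.sum_add_distrib]
    refine Finset.sum_congr rfl fun T _ => ?_
    by_cases h1 : e ∈ T <;> by_cases h2 : f ∈ T <;> simp [h1, h2, sp]
  unfold cv ex
  rw [hD, hNe, hNf, hNef]
  have hne' := hDpos.ne'
  rw [div_mul_div_comm, div_sub_div _ _ hne' (mul_ne_zero hne' hne')]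
  apply div_nonpos_of_nonpos_of_nonneg
  · nlinarith [mul_le_mul_of_nonneg_left hray' hDpos.le, mul_pos hDpos hDpos]
  · positivity

/-- The total covariance with a constant-size family vanishes. -/
lemma sum_cv_eq_zero {𝒯 : Finset (Finset ι)} {F : Finset ι} {n : ℕ} (hne : 𝒯.Nonempty)
    (hT : ∀ T ∈ 𝒯, T ⊆ F) (hc : ∀ T ∈ 𝒯, T.card = n) (S : Finset ι) (a : ι → ℝ) (e : ι) :
    ∑ f ∈ F, cv 𝒯 S a e f = 0 := by
  classical
  have hsum : ∀ T ∈ 𝒯, ∑ f ∈ F, sp f T = 2 * (n : ℝ) - F.card := by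
    intro T hTm
    have h1 : ∀ f, sp f T = 2 * (if f ∈ T then (1 : ℝ) else 0) - 1 := by
      intro f; unfold sp; split_ifs <;> norm_num
    simp_rw [h1]
    rw [Finset.sum_sub_distrib, ← Finset.mul_sum, Finset.sum_boole]
    have : F.filter (fun f => f ∈ T) = T := by
      ext x
      simp only [Finset.mem_filter]
      exact ⟨fun h => h.2, fun h => ⟨hT T hTm h, h⟩⟩
    rw [this, hc T hTm]
    simp
  unfold cv
  rw [Finset.sum_sub_distrib, ← Finset.mul_sum, ← ex_sum, ← ex_sum]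
  have h1 : ex 𝒯 S a (fun T => ∑ f ∈ F, sp f T) = 2 * (n : ℝ) - F.card := by
    rw [ex_congr hne S a hsum, ex_const hne]
  have h2 : ex 𝒯 S a (fun T => ∑ i ∈ F, sp e T * sp i T) =
      ex 𝒯 S a (sp e) * (2 * (n : ℝ) - F.card) := by
    rw [← ex_mul_const]
    apply ex_congr hne
    intro T hTm
    rw [← Finset.mul_sum, hsum T hTm]
  rw [h1, h2]
  ring

/-- A spin that is constant on the family has vanishing covariances. -/
lemma cv_right_of_not_mem {𝒯 : Finset (Finset ι)} {F : Finset ι} (hne : 𝒯.Nonempty)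
    (hT : ∀ T ∈ 𝒯, T ⊆ F) (S : Finset ι) (a : ι → ℝ) (e f : ι) (hf : f ∉ F) :
    cv 𝒯 S a e f = 0 := by
  have hs : ∀ T ∈ 𝒯, sp f T = -1 := by
    intro T hTm
    unfold sp
    rw [if_neg (fun h => hf (hT T hTm h))]
  unfold cv
  have h1 : ex 𝒯 S a (sp f) = -1 := by
    rw [ex_congr hne S a hs, ex_const hne]
  have h2 : ex 𝒯 S a (fun T => sp e T * sp f T) = ex 𝒯 S a (sp e) * (-1) := by
    rw [← ex_mul_const]
    apply ex_congr hne
    intro T hTm
    rw [hs T hTm]
  rw [h1, h2]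
  ring

lemma cv_left_of_not_mem {𝒯 : Finset (Finset ι)} {F : Finset ι} (hne : 𝒯.Nonempty)
    (hT : ∀ T ∈ 𝒯, T ⊆ F) (S : Finset ι) (a : ι → ℝ) (e f : ι) (he : e ∉ F) :
    cv 𝒯 S a e f = 0 := by
  have hs : ∀ T ∈ 𝒯, sp e T = -1 := by
    intro T hTm
    unfold sp
    rw [if_neg (fun h => he (hT T hTm h))]
  unfold cv
  have h1 : ex 𝒯 S a (sp e) = -1 := by
    rw [ex_congr hne S a hs, ex_const hne]
  have h2 : ex 𝒯 S a (fun T => sp e T * sp f T) = ex 𝒯 S a (fun T => sp f T * (-1)) := by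
    apply ex_congr hne
    intro T hTm
    rw [hs T hTm]
    ring
  rw [h1, h2, ex_mul_const]
  ring

/-- **Row-sum bound.** -/
theorem sum_abs_cv_le {𝒯 : Finset (Finset ι)} {F : Finset ι} {n : ℕ} (hR : Ray 𝒯)
    (hne : 𝒯.Nonempty) (hT : ∀ T ∈ 𝒯, T ⊆ F) (hc : ∀ T ∈ 𝒯, T.card = n) (S : Finset ι)
    (a : ι → ℝ) (e : ι) : ∑ f ∈ S, |cv 𝒯 S a e f| ≤ 2 := by
  classical
  by_cases he : e ∈ F
  swap
  · have : ∀ f ∈ S, |cv 𝒯 S a e f| = 0 := fun f _ => by
      rw [cv_left_of_not_mem hne hT S a e f he, abs_zero]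
    rw [Finset.sum_congr rfl this, Finset.sum_const_zero]
    norm_num
  have h1 : ∑ f ∈ S, |cv 𝒯 S a e f| ≤ ∑ f ∈ F, |cv 𝒯 S a e f| := by
    have : ∑ f ∈ S, |cv 𝒯 S a e f| = ∑ f ∈ S ∩ F, |cv 𝒯 S a e f| := by
      symm
      apply Finset.sum_subset Finset.inter_subset_left
      intro f hfS hfn
      have : f ∉ F := fun h => hfn (Finset.mem_inter.mpr ⟨hfS, h⟩)
      rw [cv_right_of_not_mem hne hT S a e f this, abs_zero]
    rw [this]
    exact Finset.sum_le_sum_of_subset_of_nonneg Finset.inter_subset_right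
      (fun f _ _ => abs_nonneg _)
  refine h1.trans ?_
  have hsum := sum_cv_eq_zero hne hT hc S a e
  rw [← Finset.add_sum_erase F _ he] at hsum
  rw [← Finset.add_sum_erase F _ he]
  have hrest : ∑ f ∈ F.erase e, |cv 𝒯 S a e f| = - ∑ f ∈ F.erase e, cv 𝒯 S a e f := by
    rw [← Finset.sum_neg_distrib]
    refine Finset.sum_congr rfl fun f hf => ?_
    exact abs_of_nonpos (cv_nonpos hR hne S a e f (Finset.ne_of_mem_erase hf).symm)
  rw [hrest]
  have hee : cv 𝒯 S a e e = 1 - ex 𝒯 S a (sp e) ^ 2 := by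
    unfold cv
    have : ex 𝒯 S a (fun T => sp e T * sp e T) = 1 := by
      rw [ex_congr hne S a (fun T _ => sp_sq e T), ex_const hne]
    rw [this]
    ring
  have hab := abs_ex_le_one (𝒯 := 𝒯) hne S a (X := sp e) (fun T _ => abs_sp_le e T)
  have hsq : ex 𝒯 S a (sp e) ^ 2 ≤ 1 := by
    have := abs_le.mp hab
    nlinarith
  have hnn : 0 ≤ cv 𝒯 S a e e := by rw [hee]; linarith
  rw [abs_of_nonneg hnn]
  have hs2 := sq_nonneg (ex 𝒯 S a (sp e))
  linarith

/-- **Lipschitz bound for the tilted mean.** -/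
theorem ex_lip {𝒯 : Finset (Finset ι)} {F : Finset ι} {n : ℕ} (hR : Ray 𝒯)
    (hne : 𝒯.Nonempty) (hT : ∀ T ∈ 𝒯, T ⊆ F) (hc : ∀ T ∈ 𝒯, T.card = n) (S : Finset ι)
    (a a' : ι → ℝ) (e : ι) (M : ℝ) (hM : 0 ≤ M) (h : ∀ f ∈ S, |a f - a' f| ≤ M) :
    |ex 𝒯 S a (sp e) - ex 𝒯 S a' (sp e)| ≤ 2 * M := by
  classical
  set h' : ι → ℝ := fun f => a' f - a f with hh'
  set at' : ℝ → ι → ℝ := fun t f => a f + t * h' f with hat
  set L : Finset ι → ℝ := fun T => ∑ f ∈ S, a f * sp f T with hL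
  set H : Finset ι → ℝ := fun T => ∑ f ∈ S, h' f * sp f T with hH
  have hw : ∀ t T, wE S (at' t) T = Real.exp (L T + t * H T) := by
    intro t T
    unfold wE
    congr 1
    simp only [hL, hH, hat, Finset.mul_sum, ← Finset.sum_add_distrib]
    refine Finset.sum_congr rfl fun f _ => ?_
    ring
  set Nn : ℝ → ℝ := fun t => ∑ T ∈ 𝒯, sp e T * Real.exp (L T + t * H T) with hNn
  set Dd : ℝ → ℝ := fun t => ∑ T ∈ 𝒯, Real.exp (L T + t * H T) with hDd
  have hφ : ∀ t, ex 𝒯 S (at' t) (sp e) = Nn t / Dd t := by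
    intro t
    unfold ex
    simp only [hw, hNn, hDd]
  have hDer1 : ∀ t T, HasDerivAt (fun t => Real.exp (L T + t * H T))
      (Real.exp (L T + t * H T) * H T) t := by
    intro t T
    have h1 : HasDerivAt (fun t => L T + t * H T) (H T) t := by
      simpa using ((hasDerivAt_id t).mul_const (H T)).const_add (L T)
    exact h1.exp
  have hDn : ∀ t, HasDerivAt Nn (∑ T ∈ 𝒯, sp e T * (Real.exp (L T + t * H T) * H T)) t := by
    intro t
    have := HasDerivAt.fun_sum (u := 𝒯) (A := fun T t => sp e T * Real.exp (L T + t * H T))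
      (A' := fun T => sp e T * (Real.exp (L T + t * H T) * H T)) (x := t)
      (fun T _ => (hDer1 t T).const_mul (sp e T))
    exact this
  have hDd' : ∀ t, HasDerivAt Dd (∑ T ∈ 𝒯, (Real.exp (L T + t * H T) * H T)) t := by
    intro t
    have := HasDerivAt.fun_sum (u := 𝒯) (A := fun T t => Real.exp (L T + t * H T))
      (A' := fun T => (Real.exp (L T + t * H T) * H T)) (x := t)
      (fun T _ => (hDer1 t T))
    exact this
  have hDpos : ∀ t, 0 < Dd t := fun t => Finset.sum_pos (fun T _ => Real.exp_pos _) hne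
  -- derivative in terms of covariances
  have hderiv : ∀ t, HasDerivAt (fun t => Nn t / Dd t) (∑ f ∈ S, h' f * cv 𝒯 S (at' t) e f) t := by
    intro t
    have hq := (hDn t).div (hDd' t) (hDpos t).ne'
    suffices hval : ∑ f ∈ S, h' f * cv 𝒯 S (at' t) e f =
        ((∑ T ∈ 𝒯, sp e T * (Real.exp (L T + t * H T) * H T)) * Dd t -
          Nn t * (∑ T ∈ 𝒯, (Real.exp (L T + t * H T) * H T))) / Dd t ^ 2 by
      rw [hval]; exact hq
    have hex : ∀ X : Finset ι → ℝ, ex 𝒯 S (at' t) X =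
        (∑ T ∈ 𝒯, X T * Real.exp (L T + t * H T)) / Dd t := by
      intro X
      unfold ex
      simp only [hw, hDd]
    have hcv : ∀ f, cv 𝒯 S (at' t) e f =
        (∑ T ∈ 𝒯, (sp e T * sp f T) * Real.exp (L T + t * H T)) / Dd t -
          (Nn t / Dd t) * ((∑ T ∈ 𝒯, sp f T * Real.exp (L T + t * H T)) / Dd t) := by
      intro f
      unfold cv
      rw [hex, hex, hex]
    set N' := ∑ T ∈ 𝒯, sp e T * (Real.exp (L T + t * H T) * H T) with hN'
    set D' := ∑ T ∈ 𝒯, (Real.exp (L T + t * H T) * H T) with hD'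
    have e1 : ∑ f ∈ S, h' f * (∑ T ∈ 𝒯, (sp e T * sp f T) * Real.exp (L T + t * H T)) = N' := by
      rw [hN']
      simp only [Finset.mul_sum, hH]
      rw [Finset.sum_comm]
      refine Finset.sum_congr rfl fun T _ => ?_
      refine Finset.sum_congr rfl fun f _ => ?_
      ring
    have e2 : ∑ f ∈ S, h' f * (∑ T ∈ 𝒯, sp f T * Real.exp (L T + t * H T)) = D' := by
      rw [hD']
      simp only [Finset.mul_sum, hH]
      rw [Finset.sum_comm]
      refine Finset.sum_congr rfl fun T _ => ?_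
      refine Finset.sum_congr rfl fun f _ => ?_
      ring
    have hDt := (hDpos t).ne'
    have hsplit : ∑ f ∈ S, h' f * cv 𝒯 S (at' t) e f =
        (∑ f ∈ S, h' f * (∑ T ∈ 𝒯, (sp e T * sp f T) * Real.exp (L T + t * H T))) / Dd t -
          (Nn t / Dd t ^ 2) * (∑ f ∈ S, h' f * (∑ T ∈ 𝒯, sp f T * Real.exp (L T + t * H T))) := by
      rw [Finset.sum_div, Finset.mul_sum, ← Finset.sum_sub_distrib]
      refine Finset.sum_congr rfl fun f _ => ?_
      rw [hcv]
      field_simp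
    rw [hsplit, e1, e2]
    field_simp
  have hbound : ∀ t, ‖∑ f ∈ S, h' f * cv 𝒯 S (at' t) e f‖ ≤ 2 * M := by
    intro t
    rw [Real.norm_eq_abs]
    calc |∑ f ∈ S, h' f * cv 𝒯 S (at' t) e f| ≤ ∑ f ∈ S, |h' f * cv 𝒯 S (at' t) e f| :=
          Finset.abs_sum_le_sum_abs _ _
      _ ≤ ∑ f ∈ S, M * |cv 𝒯 S (at' t) e f| := by
          refine Finset.sum_le_sum fun f hf => ?_
          rw [abs_mul]
          refine mul_le_mul_of_nonneg_right ?_ (abs_nonneg _)
          simp only [hh']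
          rw [abs_sub_comm]
          exact h f hf
      _ = M * ∑ f ∈ S, |cv 𝒯 S (at' t) e f| := by rw [Finset.mul_sum]
      _ ≤ M * 2 := mul_le_mul_of_nonneg_left (sum_abs_cv_le hR hne hT hc S _ e) hM
      _ = 2 * M := by ring
  have hmvt := Convex.norm_image_sub_le_of_norm_hasDerivWithin_le
    (f := fun t => Nn t / Dd t) (f' := fun t => ∑ f ∈ S, h' f * cv 𝒯 S (at' t) e f)
    (s := Set.univ) (x := (1 : ℝ)) (y := (0 : ℝ))
    (fun t _ => (hderiv t).hasDerivWithinAt) (fun t _ => hbound t) convex_univ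
    (Set.mem_univ _) (Set.mem_univ _)
  have h0 : at' 0 = a := by
    funext f; simp [hat]
  have h1 : at' 1 = a' := by
    funext f; simp [hat, hh']
  have e0 := hφ 0
  have e1 := hφ 1
  rw [h0] at e0
  rw [h1] at e1
  beta_reduce at hmvt
  rw [← e0, ← e1, Real.norm_eq_abs] at hmvt
  simpa using hmvt

end Vale.Agent.P143
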