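import Vale.Agent.P143.UstDefs
import Vale.Agent.P143.UstLip

set_option autoImplicit false

/-! The graph layer: incidence matrices of spanning trees are unimodular, the matrix-tree theorem
with arbitrary weights, hence the Rayleigh property of the family of spanning trees. -/

noncomputable section
open scoped Classical

namespace Vale.Agent.P143

open Finset

variable {V : Type*}

/-- The graph with edge set `T` on the vertex set `W`. -/
abbrev grW (W : Finset V) (T : Finset (Sym2 V)) : SimpleGraph (W : Set V) :=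
  (SimpleGraph.fromEdgeSet (T : Set (Sym2 V))).induce (W : Set V)

lemma grW_adj {W : Finset V} {T : Finset (Sym2 V)} {x y : (W : Set V)} :
    (grW W T).Adj x y ↔ s(x.1, y.1) ∈ T ∧ x.1 ≠ y.1 := by
  simp [grW, SimpleGraph.comap_adj]

/-- Loop free sets of edges inside `W`. -/
def Inside (W : Finset V) (T : Finset (Sym2 V)) : Prop :=
  (∀ e ∈ T, ∀ v ∈ e, v ∈ W) ∧ ∀ e ∈ T, ¬ e.IsDiag

lemma Inside.mono {W : Finset V} {T T' : Finset (Sym2 V)} (h : Inside W T') (hs : T ⊆ T') :
    Inside W T := ⟨fun e he => h.1 e (hs he), fun e he => h.2 e (hs he)⟩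

lemma edge_card {W : Finset V} {T : Finset (Sym2 V)} (h : Inside W T) :
    Nat.card (grW W T).edgeSet = T.card := by
  let φ : ↥(W : Set V) → V := fun x => x.1
  have hinj : Function.Injective (Sym2.map φ) :=
    Sym2.map.injective (fun a b h => Subtype.ext h)
  have himg : (Sym2.map φ) '' (grW W T).edgeSet = (T : Set (Sym2 V)) := by
    ext e
    constructor
    · rintro ⟨e', he', rfl⟩
      induction e' using Sym2.ind with
      | _ x y =>
        rw [SimpleGraph.mem_edgeSet, grW_adj] at he'
        simpa [φ] using he'.1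
    · intro he
      induction e using Sym2.ind with
      | _ a b =>
        have ha : a ∈ W := h.1 _ he a (by simp)
        have hb : b ∈ W := h.1 _ he b (by simp)
        have hd : a ≠ b := by
          intro hab
          apply h.2 _ he
          simpa using hab
        refine ⟨s(⟨a, ha⟩, ⟨b, hb⟩), ?_, by simp [φ]⟩
        rw [SimpleGraph.mem_edgeSet, grW_adj]
        exact ⟨by simpa using he, hd⟩
  rw [Nat.card_coe_set_eq, ← Set.ncard_image_of_injective _ hinj, himg, Set.ncard_coe_finset]

lemma isSpT_iff {W : Finset V} {T : Finset (Sym2 V)} (h : Inside W T) :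
    IsSpT W T ↔ (grW W T).Connected ∧ T.card + 1 = W.card := by
  unfold IsSpT
  have hW : Nat.card (W : Set V) = W.card := by
    rw [Nat.card_coe_set_eq, Set.ncard_coe_finset]
  have : Finite (W : Set V) := Finite.of_fintype _
  rw [SimpleGraph.isTree_iff_connected_and_card, edge_card h, hW]
  exact ⟨fun hh => hh.2, fun hh => ⟨h.1, hh⟩⟩

/-- An orientation of each unordered pair. -/
def eSrc (i : Sym2 V) : V := (Quot.out i).1
/-- An orientation of each unordered pair. -/
def eTgt (i : Sym2 V) : V := (Quot.out i).2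

lemma s_out (i : Sym2 V) : s(eSrc i, eTgt i) = i := Quot.out_eq i

lemma src_mem (i : Sym2 V) : eSrc i ∈ i := by
  have : eSrc i ∈ s(eSrc i, eTgt i) := Sym2.mem_mk_left _ _
  rwa [s_out] at this

lemma tgt_mem (i : Sym2 V) : eTgt i ∈ i := by
  have : eTgt i ∈ s(eSrc i, eTgt i) := Sym2.mem_mk_right _ _
  rwa [s_out] at this

variable (W : Finset V) (r : V)

/-- The reduced incidence matrix, with integer entries. -/
def incZ (u : W.erase r) (i : Sym2 V) : ℤ :=
  (if (u : V) = eSrc i then 1 else 0) - (if (u : V) = eTgt i then 1 else 0)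

/-- The reduced incidence matrix, with real entries. -/
def incR (u : W.erase r) (i : Sym2 V) : ℝ := (incZ W r u i : ℝ)

/-- The integer matrix formed by a choice of columns. -/
def colZ (g : W.erase r → Sym2 V) : Matrix (W.erase r) (W.erase r) ℤ :=
  Matrix.of fun u v => incZ W r u (g v)

lemma colDet_eq_cast (g : W.erase r → Sym2 V) :
    colDet (incR W r) g = ((colZ W r g).det : ℝ) := by
  have := (Int.castRingHom ℝ).map_det (colZ W r g)
  simp only [eq_intCast] at this
  rw [this]
  unfold colDet
  congr 1

/-- The coordinate vector of a vertex in the reduced space. -/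
def eVec (x : V) : W.erase r → ℤ := fun u => if (u : V) = x then 1 else 0

lemma inc_eq (i : Sym2 V) : (fun u => incZ W r u i) = eVec W r (eSrc i) - eVec W r (eTgt i) := by
  ext u; simp [incZ, eVec]

variable {W r}

/-- Columns of a spanning tree generate the coordinate vectors. -/
lemma eVec_mem_span {T : Finset (Sym2 V)} (hr : r ∈ W) (h : IsSpT W T)
    (g : W.erase r → Sym2 V) (hg : ∀ i ∈ T, ∃ v, g v = i) (x : (W : Set V)) :
    eVec W r x.1 ∈ Submodule.span ℤ (Set.range fun v => fun u => incZ W r u (g v)) := by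
  set N := Submodule.span ℤ (Set.range fun v => fun u => incZ W r u (g v)) with hN
  have hcol : ∀ i ∈ T, (fun u => incZ W r u i) ∈ N := by
    intro i hi
    obtain ⟨v, rfl⟩ := hg i hi
    exact Submodule.subset_span ⟨v, rfl⟩
  have hstep : ∀ a b : (W : Set V), (grW W T).Adj a b →
      eVec W r a.1 ∈ N → eVec W r b.1 ∈ N := by
    intro a b hab ha
    rw [grW_adj] at hab
    have hc := hcol _ hab.1
    rw [inc_eq] at hc
    have hs := s_out s(a.1, b.1)
    rcases Sym2.eq_iff.mp hs with ⟨h1, h2⟩ | ⟨h1, h2⟩
    · rw [h1, h2] at hc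
      have := N.sub_mem ha hc
      simpa using this
    · rw [h1, h2] at hc
      have := N.add_mem ha hc
      simpa using this
  have hr0 : eVec W r r ∈ N := by
    have : eVec W r r = 0 := by
      ext u
      have : (u : V) ≠ r := (Finset.mem_erase.mp u.2).1
      simp [eVec, this]
    rw [this]
    exact N.zero_mem
  have hconn := h.2.connected
  have hreach := hconn.preconnected (⟨r, hr⟩ : (W : Set V)) x
  rw [SimpleGraph.reachable_iff_reflTransGen] at hreach
  induction hreach with
  | refl => exact hr0
  | tail _ hbc ih => exact hstep _ _ hbc ih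

/-- A spanning tree gives a unimodular matrix. -/
lemma det_sq_of_tree {T : Finset (Sym2 V)} (hr : r ∈ W) (h : IsSpT W T)
    (g : W.erase r → Sym2 V) (hg : ∀ i ∈ T, ∃ v, g v = i) :
    (colDet (incR W r) g) ^ 2 = 1 := by
  have hmem : ∀ u : W.erase r, ∃ c : W.erase r → ℤ,
      ∑ v, c v • (fun u => incZ W r u (g v)) = eVec W r u.1 := by
    intro u
    have huW : (u : V) ∈ W := Finset.mem_of_mem_erase u.2
    have := eVec_mem_span hr h g hg ⟨u.1, huW⟩
    exact (Submodule.mem_span_range_iff_exists_fun ℤ).mp this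
  choose c hc using hmem
  let X : Matrix (W.erase r) (W.erase r) ℤ := Matrix.of fun v u => c u v
  have hX : colZ W r g * X = 1 := by
    ext a u
    have h1 := congrFun (hc u) a
    simp only [Finset.sum_apply, Pi.smul_apply, smul_eq_mul] at h1
    rw [Matrix.mul_apply]
    simp only [colZ, X, Matrix.of_apply]
    have h2 : ∑ j, incZ W r a (g j) * c u j = eVec W r u.1 a := by
      rw [← h1]
      exact Finset.sum_congr rfl fun j _ => mul_comm _ _
    rw [h2, Matrix.one_apply]
    by_cases hau : a = u
    · subst hau; simp [eVec]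
    · have : (a : V) ≠ u := fun h => hau (Subtype.ext h)
      simp [eVec, this, hau]
  have hdet : (colZ W r g).det * X.det = 1 := by
    rw [← Matrix.det_mul, hX, Matrix.det_one]
  rw [colDet_eq_cast]
  rcases Int.eq_one_or_neg_one_of_mul_eq_one hdet with h1 | h1 <;> rw [h1] <;> simp

/-- A non connected set of columns has vanishing determinant. -/
lemma det_zero_of_not_connected {S : Finset (Sym2 V)} (hr : r ∈ W) (hS : Inside W S)
    (hconn : ¬ (grW W S).Connected) (g : W.erase r → Sym2 V) (hg : ∀ v, g v ∈ S) :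
    colDet (incR W r) g = 0 := by
  -- find a vertex not reachable from `r`
  have hex : ∃ x₀ : (W : Set V), ¬ (grW W S).Reachable ⟨r, hr⟩ x₀ := by
    by_contra hno
    push Not at hno
    apply hconn
    exact SimpleGraph.connected_iff_exists_forall_reachable _ |>.mpr ⟨⟨r, hr⟩, hno⟩
  obtain ⟨x₀, hx₀⟩ := hex
  set Y : V → ℤ := fun x => if h : x ∈ W then
    (if (grW W S).Reachable x₀ ⟨x, h⟩ then 1 else 0) else 0 with hY
  have hYr : Y r = 0 := by
    simp only [hY, dif_pos hr]
    rw [if_neg]
    intro h
    exact hx₀ h.symm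
  have hx₀r : x₀.1 ≠ r := by
    intro h
    apply hx₀
    have : (⟨r, hr⟩ : (W : Set V)) = x₀ := Subtype.ext h.symm
    rw [this]
  have hsum : ∀ a, a ∈ W → ∑ u : W.erase r, Y u.1 * eVec W r a u = Y a := by
    intro a ha
    by_cases har : a = r
    · subst har
      rw [hYr]
      refine Finset.sum_eq_zero fun u _ => ?_
      have : (u : V) ≠ a := (Finset.mem_erase.mp u.2).1
      simp [eVec, this]
    · have hmem : a ∈ W.erase r := Finset.mem_erase.mpr ⟨har, ha⟩
      rw [Finset.sum_eq_single (⟨a, hmem⟩ : W.erase r)]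
      · simp [eVec]
      · intro u _ hne
        have : (u : V) ≠ a := fun h => hne (Subtype.ext h)
        simp [eVec, this]
      · intro h
        exact absurd (Finset.mem_univ _) h
  have hzero : (colZ W r g).det = 0 := by
    rw [← Matrix.exists_vecMul_eq_zero_iff]
    refine ⟨fun u => Y u.1, ?_, ?_⟩
    · intro h
      have hmem : x₀.1 ∈ W.erase r := Finset.mem_erase.mpr ⟨hx₀r, x₀.2⟩
      have := congrFun h ⟨x₀.1, hmem⟩
      simp only [hY, Pi.zero_apply] at this
      rw [dif_pos (Finset.mem_coe.mp x₀.2)] at this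
      simp at this
    · ext v
      simp only [Matrix.vecMul, dotProduct, colZ, Matrix.of_apply, Pi.zero_apply]
      set i := g v with hi
      have hiS : i ∈ S := hg v
      have hs := s_out i
      have ha : eSrc i ∈ W := hS.1 i hiS _ (src_mem i)
      have hb : eTgt i ∈ W := hS.1 i hiS _ (tgt_mem i)
      have hne : eSrc i ≠ eTgt i := by
        intro h
        apply hS.2 i hiS
        rw [← hs, h]
        simp
      have hadj : (grW W S).Adj ⟨eSrc i, ha⟩ ⟨eTgt i, hb⟩ := by
        rw [grW_adj]
        exact ⟨by simpa [hs] using hiS, hne⟩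
      have hYab : Y (eSrc i) = Y (eTgt i) := by
        simp only [hY, dif_pos ha, dif_pos hb]
        have : (grW W S).Reachable x₀ ⟨eSrc i, ha⟩ ↔ (grW W S).Reachable x₀ ⟨eTgt i, hb⟩ :=
          ⟨fun h => h.trans hadj.reachable, fun h => h.trans hadj.reachable.symm⟩
        simp only [this]
      have hinc : ∀ u, incZ W r u i = eVec W r (eSrc i) u - eVec W r (eTgt i) u := by
        intro u
        exact congrFun (inc_eq W r i) u
      simp_rw [hinc, mul_sub]
      rw [Finset.sum_sub_distrib, hsum _ ha, hsum _ hb, hYab, sub_self]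
  rw [colDet_eq_cast, hzero]
  simp


/-- Cardinality of the reduced index set. -/
lemma card_reduced (hr : r ∈ W) : Fintype.card ↥(W.erase r) + 1 = W.card := by
  rw [Fintype.card_coe, Finset.card_erase_add_one hr]

lemma Nonempty_sym2 (r : V) : Nonempty (Sym2 V) := ⟨s(r, r)⟩

/-- The matrix-tree theorem with arbitrary real weights. -/
theorem matrix_tree (F : Finset (Sym2 V)) (hF : Inside W F) (hr : r ∈ W) :
    DetRep (treesOf W F) F (incR W r) := by
  intro w
  have := Nonempty_sym2 r
  obtain ⟨pick, hpick⟩ := exists_pick (R := ↥(W.erase r)) F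
  rw [cauchy_binet F (incR W r) w pick hpick]
  have hval : ∀ S ∈ F.powersetCard (Fintype.card ↥(W.erase r)),
      (∏ i ∈ S, w i) * (colDet (incR W r) (pick S)) ^ 2 =
        if IsSpT W S then wtp w S else 0 := by
    intro S hS
    obtain ⟨hinj, him⟩ := hpick S hS
    have hSF := (Finset.mem_powersetCard.mp hS).1
    have hSc := (Finset.mem_powersetCard.mp hS).2
    have hIn : Inside W S := hF.mono hSF
    by_cases hT : IsSpT W S
    · rw [if_pos hT, det_sq_of_tree (W := W) hr hT (pick S), mul_one]
      · rfl
      · intro i hi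
        have hi' : i ∈ (Finset.univ : Finset ↥(W.erase r)).image (pick S) := by rwa [him]
        simpa using hi'
    · rw [if_neg hT]
      have hnc : ¬ (grW W S).Connected := by
        intro hc
        apply hT
        rw [isSpT_iff hIn]
        exact ⟨hc, by rw [hSc]; exact card_reduced hr⟩
      rw [det_zero_of_not_connected hr hIn hnc (pick S)]
      · simp
      · intro v
        have := Finset.mem_image_of_mem (pick S) (Finset.mem_univ v)
        rwa [him] at this
  refine (Finset.sum_congr rfl hval).trans ?_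
  rw [← Finset.sum_filter]
  refine Finset.sum_congr ?_ fun _ _ => rfl
  ext T
  simp only [Finset.mem_filter, Finset.mem_powersetCard, treesOf, Finset.mem_powerset]
  constructor
  · rintro ⟨⟨h1, _⟩, h2⟩
    exact ⟨h1, h2⟩
  · rintro ⟨h1, h2⟩
    refine ⟨⟨h1, ?_⟩, h2⟩
    have := ((isSpT_iff (hF.mono h1)).mp h2).2
    have h3 := card_reduced (W := W) hr
    omega

lemma treesOf_sub {F T : Finset (Sym2 V)} (hT : T ∈ treesOf W F) : T ⊆ F :=
  Finset.mem_powerset.mp (Finset.mem_filter.mp hT).1

lemma treesOf_isSpT {F T : Finset (Sym2 V)} (hT : T ∈ treesOf W F) : IsSpT W T :=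
  (Finset.mem_filter.mp hT).2

lemma mem_treesOf {F T : Finset (Sym2 V)} : T ∈ treesOf W F ↔ T ⊆ F ∧ IsSpT W T := by
  simp [treesOf]

/-- The spanning trees have the Rayleigh property. -/
theorem ray_trees (F : Finset (Sym2 V)) (hF : Inside W F) : Ray (treesOf W F) := by
  by_cases hW : W.Nonempty
  · obtain ⟨r, hr⟩ := hW
    intro w hw e f hef
    exact rayleigh (matrix_tree (W := W) F hF hr) (fun T hT => treesOf_sub hT) w hw e f hef
  · have hempty : treesOf W F = ∅ := by
      apply Finset.eq_empty_of_forall_notMem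
      intro T hT
      have h := (treesOf_isSpT hT).2.connected.nonempty
      obtain ⟨x⟩ := h
      exact hW ⟨x.1, x.2⟩
    intro w _ e f _
    simp [hempty]

/-- All spanning trees have the same size. -/
lemma card_of_mem_trees {F T : Finset (Sym2 V)} (hF : Inside W F) (hT : T ∈ treesOf W F) :
    T.card + 1 = W.card :=
  ((isSpT_iff (hF.mono (treesOf_sub hT))).mp (treesOf_isSpT hT)).2

/-- **U1**: the tilted mean is Lipschitz. -/
theorem tmean_lip (W : Finset V) (F : Finset (Sym2 V)) (hF : ∀ e ∈ F, ¬ e.IsDiag)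
    (hWF : ∀ e ∈ F, ∀ v ∈ e, v ∈ W) (hne : (treesOf W F).Nonempty) (S : Finset (Sym2 V))
    (a a' : Sym2 V → ℝ) (e : Sym2 V) (M : ℝ) (hM : 0 ≤ M) (h : ∀ f ∈ S, |a f - a' f| ≤ M) :
    |tmean (treesOf W F) S a e - tmean (treesOf W F) S a' e| ≤ 2 * M := by
  have hIn : Inside W F := ⟨hWF, hF⟩
  have hc : ∀ T ∈ treesOf W F, T.card = W.card - 1 := by
    intro T hT
    have := card_of_mem_trees hIn hT
    omega
  have hsp : ∀ (f : Sym2 V) (T : Finset (Sym2 V)), spT f T = sp f T := by
    intro f T
    unfold spT sp
    congr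
  have hwt : ∀ (a : Sym2 V → ℝ) (T : Finset (Sym2 V)), wtT S a T = wE S a T := by
    intro a T
    unfold wtT wE
    simp only [hsp]
  have heq : ∀ a : Sym2 V → ℝ, tmean (treesOf W F) S a e = ex (treesOf W F) S a (sp e) := by
    intro a
    unfold tmean ex
    simp only [hsp, hwt]
  rw [heq, heq]
  exact ex_lip (ray_trees (W := W) F hIn) hne (fun T hT => treesOf_sub hT) hc S a a' e M hM h

end Vale.Agent.P143
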