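import Vale.Agent.P143.UstGraph

set_option autoImplicit false

/-! Monotonicity of the uniform spanning tree under enlarging the graph (**U2**). -/

noncomputable section
open scoped Classical

namespace Vale.Agent.P143

open Finset

variable {V : Type*}

/-- The inclusion probability of `A` under the uniform measure on a family. -/
def incP (𝒯 : Finset (Finset (Sym2 V))) (A : Finset (Sym2 V)) : ℝ :=
  ((𝒯.filter (fun T => A ⊆ T)).card : ℝ) / (𝒯.card : ℝ)

lemma trees_erase_edge (W : Finset V) (F : Finset (Sym2 V)) (g : Sym2 V) (hg : g ∉ F) :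
    treesOf W F = (treesOf W (insert g F)).filter (fun T => g ∉ T) := by
  ext T
  simp only [mem_treesOf, Finset.mem_filter]
  constructor
  · rintro ⟨h1, h2⟩
    exact ⟨⟨h1.trans (Finset.subset_insert _ _), h2⟩, fun h => hg (h1 h)⟩
  · rintro ⟨⟨h1, h2⟩, h3⟩
    refine ⟨fun e he => ?_, h2⟩
    rcases Finset.mem_insert.mp (h1 he) with rfl | h
    · exact absurd he h3
    · exact h

/-- Adding an edge between existing vertices lowers inclusion probabilities. -/
lemma edge_step {W : Finset V} {F : Finset (Sym2 V)} {g : Sym2 V} (hg : g ∉ F)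
    (hIn : Inside W (insert g F)) (hne : (treesOf W F).Nonempty) (A : Finset (Sym2 V))
    (hgA : g ∉ A) :
    incP (treesOf W (insert g F)) A ≤ incP (treesOf W F) A := by
  set 𝒯 := treesOf W (insert g F) with h𝒯
  have hR : Ray 𝒯 := ray_trees (W := W) _ hIn
  have hNA := neg_assoc hR g A hgA
  have hEq := trees_erase_edge W F g hg
  set N : ℝ := ((treesOf W F).card : ℝ) with hN
  set NA : ℝ := (((treesOf W F).filter (fun T => A ⊆ T)).card : ℝ) with hNA'
  have hNsum : N = ∑ T ∈ 𝒯, if g ∉ T then (1 : ℝ) else 0 := by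
    rw [hN, hEq, Finset.sum_boole]
  have hNAsum : NA = ∑ T ∈ 𝒯, if g ∉ T ∧ A ⊆ T then (1 : ℝ) else 0 := by
    rw [hNA', hEq, Finset.filter_filter, Finset.sum_boole]
  have e0 : Zr 𝒯 ∅ = N + Zr 𝒯 {g} := by
    rw [hNsum]
    unfold Zr
    rw [← Finset.sum_add_distrib]
    refine Finset.sum_congr rfl fun T _ => ?_
    by_cases h : g ∈ T <;> simp [h]
  have e1 : Zr 𝒯 A = NA + Zr 𝒯 (insert g A) := by
    rw [hNAsum]
    unfold Zr
    rw [← Finset.sum_add_distrib]
    refine Finset.sum_congr rfl fun T _ => ?_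
    by_cases h : g ∈ T <;> by_cases h2 : A ⊆ T <;> simp [h, h2, Finset.insert_subset_iff]
  have hcard : (𝒯.card : ℝ) = Zr 𝒯 ∅ := by
    unfold Zr
    simp
  have hcardA : ((𝒯.filter (fun T => A ⊆ T)).card : ℝ) = Zr 𝒯 A := by
    unfold Zr
    rw [Finset.sum_boole]
  have hNpos : 0 < N := by
    rw [hN]
    exact_mod_cast Finset.card_pos.mpr hne
  have hG := Zr_nonneg 𝒯 ({g} : Finset (Sym2 V))
  unfold incP
  rw [hcard, hcardA, ← hN, ← hNA', e0, e1]
  rw [e0, e1] at hNA
  rw [div_le_div_iff₀ (by linarith) hNpos]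
  nlinarith

/-- Adding a pendant vertex: the trees are in bijection. -/
lemma trees_leaf {W : Finset V} {F : Finset (Sym2 V)} {x y : V} (hx : x ∈ W) (hy : y ∉ W)
    (hF : Inside W F) :
    treesOf (insert y W) (insert s(x, y) F) = (treesOf W F).image (insert s(x, y)) := by
  have hxy : x ≠ y := fun h => hy (h ▸ hx)
  have hgF : s(x, y) ∉ F := fun h => hy (hF.1 _ h y (by simp))
  have hxW' : x ∈ insert y W := Finset.mem_insert_of_mem hx
  have hyW' : y ∈ insert y W := Finset.mem_insert_self _ _
  have hIn' : Inside (insert y W) (insert s(x, y) F) := by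
    constructor
    · intro e he v hv
      rcases Finset.mem_insert.mp he with rfl | he
      · rcases Sym2.mem_iff.mp hv with rfl | rfl
        · exact hxW'
        · exact hyW'
      · exact Finset.mem_insert_of_mem (hF.1 e he v hv)
    · intro e he
      rcases Finset.mem_insert.mp he with rfl | he
      · simpa using hxy
      · exact hF.2 e he
  ext T
  simp only [Finset.mem_image, mem_treesOf]
  constructor
  · rintro ⟨hTsub, hTsp⟩
    have hInT : Inside (insert y W) T := hIn'.mono hTsub
    obtain ⟨hconn, hcard⟩ := (isSpT_iff hInT).mp hTsp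
    -- `g ∈ T`
    have hgT : s(x, y) ∈ T := by
      by_contra hno
      have hclosed : ∀ z : ((insert y W : Finset V) : Set V),
          (grW (insert y W) T).Reachable ⟨x, hxW'⟩ z → z.1 ∈ W := by
        intro z hz
        rw [SimpleGraph.reachable_iff_reflTransGen] at hz
        induction hz with
        | refl => exact hx
        | tail _ hbc ih =>
          rw [grW_adj] at hbc
          rcases Finset.mem_insert.mp (hTsub hbc.1) with h | h
          · exact absurd (h ▸ hbc.1) hno
          · exact hF.1 _ h _ (by simp)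
      exact hy (hclosed ⟨y, hyW'⟩ (hconn.preconnected _ _))
    refine ⟨T.erase s(x, y), ⟨?_, ?_⟩, Finset.insert_erase hgT⟩
    · intro e he
      rcases Finset.mem_insert.mp (hTsub (Finset.mem_of_mem_erase he)) with h | h
      · exact absurd h (Finset.ne_of_mem_erase he)
      · exact h
    · have hsub0 : T.erase s(x, y) ⊆ F := by
        intro e he
        rcases Finset.mem_insert.mp (hTsub (Finset.mem_of_mem_erase he)) with h | h
        · exact absurd h (Finset.ne_of_mem_erase he)
        · exact h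
      have hIn0 : Inside W (T.erase s(x, y)) := hF.mono hsub0
      rw [isSpT_iff hIn0]
      refine ⟨?_, ?_⟩
      · rw [SimpleGraph.connected_iff_exists_forall_reachable]
        refine ⟨⟨x, hx⟩, fun z => ?_⟩
        have hQ : ∀ a : ((insert y W : Finset V) : Set V),
            (grW (insert y W) T).Reachable ⟨x, hxW'⟩ a →
            ∀ ha : a.1 ∈ W, (grW W (T.erase s(x, y))).Reachable ⟨x, hx⟩ ⟨a.1, ha⟩ := by
          intro a hra
          rw [SimpleGraph.reachable_iff_reflTransGen] at hra
          induction hra with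
          | refl => intro _; exact SimpleGraph.Reachable.refl _
          | @tail b c _ hbc ih =>
            intro hc
            rw [grW_adj] at hbc
            by_cases heq : s(b.1, c.1) = s(x, y)
            · rcases Sym2.eq_iff.mp heq with ⟨_, h2⟩ | ⟨_, h2⟩
              · exact absurd (h2 ▸ hc) hy
              · have : (⟨c.1, hc⟩ : (W : Set V)) = ⟨x, hx⟩ := Subtype.ext h2
                rw [this]
            · have hmem : s(b.1, c.1) ∈ T.erase s(x, y) :=
                Finset.mem_erase.mpr ⟨heq, hbc.1⟩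
              have hb : b.1 ∈ W := hIn0.1 _ hmem _ (by simp)
              refine (ih hb).trans (SimpleGraph.Adj.reachable ?_)
              rw [grW_adj]
              exact ⟨hmem, hbc.2⟩
        have hzW' : z.1 ∈ insert y W := Finset.mem_insert_of_mem z.2
        exact hQ ⟨z.1, hzW'⟩ (hconn.preconnected _ _) z.2
      · rw [Finset.card_erase_of_mem hgT]
        rw [Finset.card_insert_of_notMem hy] at hcard
        have : 0 < T.card := Finset.card_pos.mpr ⟨_, hgT⟩
        omega
  · rintro ⟨T₀, ⟨hsub, hsp⟩, rfl⟩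
    have hg0 : s(x, y) ∉ T₀ := fun h => hgF (hsub h)
    refine ⟨Finset.insert_subset_insert _ hsub, ?_⟩
    have hInT : Inside (insert y W) (insert s(x, y) T₀) :=
      hIn'.mono (Finset.insert_subset_insert _ hsub)
    obtain ⟨hconn0, hcard0⟩ := (isSpT_iff (hF.mono hsub)).mp hsp
    rw [isSpT_iff hInT]
    refine ⟨?_, ?_⟩
    · rw [SimpleGraph.connected_iff_exists_forall_reachable]
      refine ⟨⟨x, hxW'⟩, fun z => ?_⟩
      let φ : (grW W T₀) →g (grW (insert y W) (insert s(x, y) T₀)) :=
        { toFun := fun a => ⟨a.1, Finset.mem_coe.mpr (Finset.mem_insert_of_mem a.2)⟩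
          map_rel' := by
            intro a b hab
            rw [grW_adj] at hab ⊢
            exact ⟨Finset.mem_insert_of_mem hab.1, hab.2⟩ }
      rcases Finset.mem_insert.mp (Finset.mem_coe.mp z.2) with hz | hz
      · have : z = ⟨y, hyW'⟩ := Subtype.ext hz
        rw [this]
        apply SimpleGraph.Adj.reachable
        rw [grW_adj]
        exact ⟨Finset.mem_insert_self _ _, hxy⟩
      · have hr := (hconn0.preconnected (⟨x, hx⟩ : (W : Set V)) ⟨z.1, hz⟩).map φ
        exact hr
    · rw [Finset.card_insert_of_notMem hg0, Finset.card_insert_of_notMem hy]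
      omega

/-- Adding a pendant vertex does not change inclusion probabilities of sets of old edges. -/
lemma leaf_step {W : Finset V} {F : Finset (Sym2 V)} {x y : V} (hx : x ∈ W) (hy : y ∉ W)
    (hF : Inside W F) (A : Finset (Sym2 V)) (hA : A ⊆ F) :
    incP (treesOf (insert y W) (insert s(x, y) F)) A = incP (treesOf W F) A := by
  have hgF : s(x, y) ∉ F := fun h => hy (hF.1 _ h y (by simp))
  rw [trees_leaf hx hy hF]
  have hinj : Set.InjOn (insert s(x, y)) ((treesOf W F : Finset _) : Set (Finset (Sym2 V))) := by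
    intro T hT T' hT' h
    have h1 : s(x, y) ∉ T := fun hm => hgF (treesOf_sub (Finset.mem_coe.mp hT) hm)
    have h2 : s(x, y) ∉ T' := fun hm => hgF (treesOf_sub (Finset.mem_coe.mp hT') hm)
    rw [← Finset.erase_insert h1, ← Finset.erase_insert h2, h]
  unfold incP
  rw [Finset.card_image_of_injOn hinj]
  congr 2
  have hfil : ((treesOf W F).image (insert s(x, y))).filter (fun T => A ⊆ T) =
      ((treesOf W F).filter (fun T => A ⊆ T)).image (insert s(x, y)) := by
    rw [Finset.filter_image]
    congr 1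
    ext T
    simp only [Finset.mem_filter, and_congr_right_iff]
    intro _
    have hgA : s(x, y) ∉ A := fun h => hgF (hA h)
    constructor
    · intro h e he
      have := h he
      rcases Finset.mem_insert.mp this with rfl | h'
      · exact absurd he hgA
      · exact h'
    · intro h
      exact h.trans (Finset.subset_insert _ _)
  rw [hfil, Finset.card_image_of_injOn]
  intro T hT T' hT' h
  exact hinj (Finset.mem_coe.mpr (Finset.mem_filter.mp (Finset.mem_coe.mp hT)).1)
    (Finset.mem_coe.mpr (Finset.mem_filter.mp (Finset.mem_coe.mp hT')).1) h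

/-- One step towards the larger graph. -/
lemma step_exists {W W' : Finset V} {F F' : Finset (Sym2 V)} (hWW' : W ⊆ W') (hFF' : F ⊆ F')
    (hIn : Inside W F) (hIn' : Inside W' F') (hne : (treesOf W F).Nonempty)
    (hne' : (treesOf W' F').Nonempty) (A : Finset (Sym2 V)) (hA : A ⊆ F)
    (hdiff : ¬ (W = W' ∧ F = F')) :
    ∃ (W₁ : Finset V) (F₁ : Finset (Sym2 V)), (F' \ F₁).card < (F' \ F).card ∧ W₁ ⊆ W' ∧ F₁ ⊆ F' ∧
      Inside W₁ F₁ ∧ (treesOf W₁ F₁).Nonempty ∧ A ⊆ F₁ ∧ incP (treesOf W₁ F₁) A ≤ incP (treesOf W F) A := by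
  have hdec : ∀ g, g ∈ F' → g ∉ F → (F' \ insert g F).card < (F' \ F).card := by
    intro g hg hgF
    apply Finset.card_lt_card
    refine ⟨fun e he => ?_, fun h => ?_⟩
    · simp only [Finset.mem_sdiff, Finset.mem_insert, not_or] at he ⊢
      exact ⟨he.1, he.2.2⟩
    · have : g ∈ F' \ insert g F := h (Finset.mem_sdiff.mpr ⟨hg, hgF⟩)
      simp at this
  by_cases hW : W = W'
  · subst hW
    have hF : F ≠ F' := fun h => hdiff ⟨rfl, h⟩
    obtain ⟨g, hgF', hgF⟩ : ∃ g, g ∈ F' ∧ g ∉ F := by
      by_contra hno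
      push Not at hno
      exact hF (Finset.Subset.antisymm hFF' hno)
    have hIn1 : Inside W (insert g F) := hIn'.mono (Finset.insert_subset hgF' hFF')
    obtain ⟨T, hT⟩ := hne
    refine ⟨W, insert g F, hdec g hgF' hgF, Finset.Subset.refl _,
      Finset.insert_subset hgF' hFF', hIn1, ⟨T, ?_⟩, hA.trans (Finset.subset_insert _ _), ?_⟩
    · rw [mem_treesOf] at hT ⊢
      exact ⟨hT.1.trans (Finset.subset_insert _ _), hT.2⟩
    · exact edge_step hgF hIn1 ⟨T, hT⟩ A (fun h => hgF (hA h))
  · -- a new vertex: find a crossing edge of a tree of the larger graph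
    obtain ⟨y, hyW', hyW⟩ : ∃ y, y ∈ W' ∧ y ∉ W := by
      by_contra hno
      push Not at hno
      exact hW (Finset.Subset.antisymm hWW' hno)
    obtain ⟨T', hT'⟩ := hne'
    obtain ⟨hT'sub, hT'sp⟩ := mem_treesOf.mp hT'
    obtain ⟨T, hT⟩ := hne
    obtain ⟨x₀, hx₀⟩ : ∃ x₀, x₀ ∈ W := by
      obtain ⟨x⟩ := (treesOf_isSpT hT).2.connected.nonempty
      exact ⟨x.1, x.2⟩
    have hconn := hT'sp.2.connected
    obtain ⟨p⟩ := hconn.preconnected (⟨x₀, hWW' hx₀⟩ : (W' : Set V)) ⟨y, hyW'⟩
    obtain ⟨d, _, hd1, hd2⟩ := p.exists_boundary_dart {a | a.1 ∈ W} hx₀ hyW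
    have hadj := d.adj
    rw [grW_adj] at hadj
    set a := d.fst with ha
    set b := d.snd with hb
    have hg : s(a.1, b.1) ∈ F' := hT'sub hadj.1
    have hgF : s(a.1, b.1) ∉ F := fun h => hd2 (hIn.1 _ h b.1 (by simp))
    have hbW' : b.1 ∈ W' := b.2
    refine ⟨insert b.1 W, insert s(a.1, b.1) F, hdec _ hg hgF, Finset.insert_subset hbW' hWW',
      Finset.insert_subset hg hFF', ?_, ?_, hA.trans (Finset.subset_insert _ _), ?_⟩
    · constructor
      · intro e he v hv
        rcases Finset.mem_insert.mp he with rfl | he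
        · rcases Sym2.mem_iff.mp hv with rfl | rfl
          · exact Finset.mem_insert_of_mem hd1
          · exact Finset.mem_insert_self _ _
        · exact Finset.mem_insert_of_mem (hIn.1 e he v hv)
      · intro e he
        rcases Finset.mem_insert.mp he with rfl | he
        · simpa using hadj.2
        · exact hIn.2 e he
    · rw [trees_leaf hd1 hd2 hIn]
      exact ⟨_, Finset.mem_image_of_mem _ hT⟩
    · exact (leaf_step hd1 hd2 hIn A hA).le

/-- **U2**: enlarging the graph lowers the inclusion probabilities of sets of edges. -/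
theorem ust_mono (W W' : Finset V) (F F' : Finset (Sym2 V)) (hWW' : W ⊆ W') (hFF' : F ⊆ F')
    (hF' : ∀ e ∈ F', ¬ e.IsDiag)
    (hWF : ∀ e ∈ F, ∀ v ∈ e, v ∈ W) (hWF' : ∀ e ∈ F', ∀ v ∈ e, v ∈ W')
    (hne : (treesOf W F).Nonempty) (hne' : (treesOf W' F').Nonempty)
    (A : Finset (Sym2 V)) (hA : A ⊆ F) :
    (((treesOf W' F').filter (fun T => A ⊆ T)).card : ℝ) / ((treesOf W' F').card : ℝ) ≤
      (((treesOf W F).filter (fun T => A ⊆ T)).card : ℝ) / ((treesOf W F).card : ℝ) := by
  have hIn' : Inside W' F' := ⟨hWF', hF'⟩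
  have key : ∀ n : ℕ, ∀ (W₀ : Finset V) (F₀ : Finset (Sym2 V)), (F' \ F₀).card = n → W₀ ⊆ W' →
      F₀ ⊆ F' → Inside W₀ F₀ → (treesOf W₀ F₀).Nonempty → A ⊆ F₀ →
      incP (treesOf W' F') A ≤ incP (treesOf W₀ F₀) A := by
    intro n
    induction n using Nat.strong_induction_on with
    | _ n ih =>
      intro W₀ F₀ hn h1 h2 h3 h4 h5
      by_cases hdone : W₀ = W' ∧ F₀ = F'
      · rw [hdone.1, hdone.2]
      · obtain ⟨W₁, F₁, hlt, h1', h2', h3', h4', h5', hle⟩ :=
          step_exists h1 h2 h3 hIn' h4 hne' A h5 hdone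
        exact (ih _ (hn ▸ hlt) W₁ F₁ rfl h1' h2' h3' h4' h5').trans hle
  exact key _ W F rfl hWW' hFF' ⟨hWF, fun e he => hF' e (hFF' he)⟩ hne hA

end Vale.Agent.P143
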