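import Vale.Agent.P143.UstCB

set_option autoImplicit false

/-! The Rayleigh inequality for families with a determinantal generating polynomial. -/

noncomputable section

namespace Vale.Agent.P143

open Finset Matrix

variable {R ι : Type*} [Fintype R] [DecidableEq R] [DecidableEq ι]

/-- The product weight of a set. -/
def wtp (w : ι → ℝ) (T : Finset ι) : ℝ := ∏ i ∈ T, w i

lemma wtp_pos {w : ι → ℝ} (hw : ∀ i, 0 < w i) (T : Finset ι) : 0 < wtp w T :=
  Finset.prod_pos fun i _ => hw i

/-- The generating polynomial of the family is the determinant of the weighted Gram matrix. -/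
def DetRep (𝒯 : Finset (Finset ι)) (F : Finset ι) (B : R → ι → ℝ) : Prop :=
  ∀ w : ι → ℝ, (lapM F B w).det = ∑ T ∈ 𝒯, wtp w T

omit [DecidableEq ι] in
lemma lapM_transpose (F : Finset ι) (B : R → ι → ℝ) (w : ι → ℝ) :
    (lapM F B w)ᵀ = lapM F B w := by
  ext u v
  simp only [Matrix.transpose_apply, lapM, Matrix.of_apply]
  refine Finset.sum_congr rfl fun i _ => ?_
  ring

/-- Rank two update of a symmetric invertible matrix. -/
lemma det_two_update (A : Matrix R R ℝ) (hA : IsUnit A.det) (hs : Aᵀ = A) (a b : R → ℝ) :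
    ∃ α β γ : ℝ, ∀ s t : ℝ,
      (A + Matrix.of fun u v => s * (a u * a v) + t * (b u * b v)).det =
        A.det * ((1 + s * α) * (1 + t * β) - s * t * γ ^ 2) := by
  classical
  set M := A⁻¹ with hM
  have hMs : Mᵀ = M := by rw [hM, Matrix.transpose_nonsing_inv, hs]
  have hsym : b ⬝ᵥ (M *ᵥ a) = a ⬝ᵥ (M *ᵥ b) := by
    rw [Matrix.dotProduct_mulVec, ← hMs, Matrix.vecMul_transpose, hMs, dotProduct_comm]
  refine ⟨a ⬝ᵥ (M *ᵥ a), b ⬝ᵥ (M *ᵥ b), a ⬝ᵥ (M *ᵥ b), fun s t => ?_⟩
  let U : Matrix R (Fin 2) ℝ := Matrix.of fun u j => ![s * a u, t * b u] j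
  let V : Matrix (Fin 2) R ℝ := Matrix.of fun j v => ![a v, b v] j
  have hUV : (Matrix.of fun u v => s * (a u * a v) + t * (b u * b v)) = U * V := by
    ext u v
    simp [U, V, Matrix.mul_apply, Fin.sum_univ_two]
    ring
  rw [hUV, Matrix.det_add_mul U V hA, ← hM]
  congr 1
  have hC : ∀ i j, (V * M * U) i j = (V i) ⬝ᵥ (M *ᵥ (fun y => U y j)) := by
    intro i j
    rw [Matrix.mul_assoc, Matrix.mul_apply]
    simp [Matrix.mul_apply, Matrix.mulVec, dotProduct]
  have hU0 : (fun y => U y 0) = s • a := by ext y; simp [U]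
  have hU1 : (fun y => U y 1) = t • b := by ext y; simp [U]
  have hV0 : V 0 = a := by ext y; simp [V]
  have hV1 : V 1 = b := by ext y; simp [V]
  rw [Matrix.det_fin_two]
  simp only [Matrix.add_apply, Matrix.one_apply_eq, hC, hU0, hU1, hV0, hV1,
    Matrix.mulVec_smul, dotProduct_smul, smul_eq_mul, hsym]
  simp only [Matrix.one_apply]
  simp
  ring

omit [Fintype R] [DecidableEq R] in
lemma wtp_update (w : ι → ℝ) (e f : ι) (hef : e ≠ f) (s t : ℝ) (T : Finset ι) :
    wtp (fun i => if i = e then s else if i = f then t else w i) T =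
      (if e ∈ T then s else 1) * (if f ∈ T then t else 1) *
        wtp (fun i => if i = e ∨ i = f then 1 else w i) T := by
  unfold wtp
  have h : ∀ i, (if i = e then s else if i = f then t else w i) =
      (if i = e then s else 1) * (if i = f then t else 1) *
        (if i = e ∨ i = f then 1 else w i) := by
    intro i
    by_cases h1 : i = e
    · subst h1; simp [hef]
    · by_cases h2 : i = f
      · subst h2; simp [h1]
      · simp [h1, h2]
  simp_rw [h]
  rw [Finset.prod_mul_distrib, Finset.prod_mul_distrib, Finset.prod_ite_eq', Finset.prod_ite_eq']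

lemma lapM_update (F : Finset ι) (B : R → ι → ℝ) (w : ι → ℝ) (e f : ι) (hef : e ≠ f)
    (he : e ∈ F) (hf : f ∈ F) (s t : ℝ) :
    lapM F B (fun i => if i = e then s else if i = f then t else w i) =
      lapM F B (fun i => if i = e then 0 else if i = f then 0 else w i) +
        Matrix.of fun u v => s * (B u e * B v e) + t * (B u f * B v f) := by
  ext u v
  simp only [lapM, Matrix.of_apply, Matrix.add_apply]
  have h : ∀ i, (if i = e then s else if i = f then t else w i) * (B u i * B v i) =
      (if i = e then 0 else if i = f then 0 else w i) * (B u i * B v i) +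
        ((if i = e then s * (B u i * B v i) else 0) +
          (if i = f then t * (B u i * B v i) else 0)) := by
    intro i
    by_cases h1 : i = e
    · subst h1; simp [hef]
    · by_cases h2 : i = f
      · subst h2; simp [h1]
      · simp [h1, h2]
  simp_rw [h]
  rw [Finset.sum_add_distrib, Finset.sum_add_distrib, Finset.sum_ite_eq', Finset.sum_ite_eq']
  simp [he, hf]

/-- **Rayleigh inequality** (negative correlation, in the form of the four classes). -/
theorem rayleigh {𝒯 : Finset (Finset ι)} {F : Finset ι} {B : R → ι → ℝ} (hrep : DetRep 𝒯 F B)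
    (hT : ∀ T ∈ 𝒯, T ⊆ F) (w : ι → ℝ) (hw : ∀ i, 0 < w i) (e f : ι) (hef : e ≠ f) :
    (∑ T ∈ 𝒯.filter (fun T => e ∈ T ∧ f ∈ T), wtp w T) *
        (∑ T ∈ 𝒯.filter (fun T => e ∉ T ∧ f ∉ T), wtp w T) ≤
      (∑ T ∈ 𝒯.filter (fun T => e ∈ T ∧ f ∉ T), wtp w T) *
        (∑ T ∈ 𝒯.filter (fun T => e ∉ T ∧ f ∈ T), wtp w T) := by
  classical
  have hnn : ∀ P : Finset ι → Prop, ∀ [DecidablePred P],
      0 ≤ ∑ T ∈ 𝒯.filter P, wtp w T :=
    fun P _ => Finset.sum_nonneg fun T _ => (wtp_pos hw T).le
  by_cases he : e ∈ F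
  swap
  · have : 𝒯.filter (fun T => e ∈ T ∧ f ∈ T) = ∅ := by
      apply Finset.filter_eq_empty_iff.mpr
      intro T hTm h
      exact he (hT T hTm h.1)
    rw [this, Finset.sum_empty, zero_mul]
    exact mul_nonneg (hnn _) (hnn _)
  by_cases hf : f ∈ F
  swap
  · have : 𝒯.filter (fun T => e ∈ T ∧ f ∈ T) = ∅ := by
      apply Finset.filter_eq_empty_iff.mpr
      intro T hTm h
      exact hf (hT T hTm h.2)
    rw [this, Finset.sum_empty, zero_mul]
    exact mul_nonneg (hnn _) (hnn _)
  set v : ι → ℝ := fun i => if i = e ∨ i = f then 1 else w i with hv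
  have hvpos : ∀ i, 0 < v i := by
    intro i
    simp only [hv]
    split_ifs
    · exact one_pos
    · exact hw i
  set Z11 := ∑ T ∈ 𝒯.filter (fun T => e ∈ T ∧ f ∈ T), wtp v T with hZ11
  set Z10 := ∑ T ∈ 𝒯.filter (fun T => e ∈ T ∧ f ∉ T), wtp v T with hZ10
  set Z01 := ∑ T ∈ 𝒯.filter (fun T => e ∉ T ∧ f ∈ T), wtp v T with hZ01
  set Z00 := ∑ T ∈ 𝒯.filter (fun T => e ∉ T ∧ f ∉ T), wtp v T with hZ00
  have hZnn : ∀ P : Finset ι → Prop, ∀ [DecidablePred P],
      0 ≤ ∑ T ∈ 𝒯.filter P, wtp v T :=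
    fun P _ => Finset.sum_nonneg fun T _ => (wtp_pos hvpos T).le
  -- the generating polynomial in `s, t`
  have hgen : ∀ s t : ℝ,
      ∑ T ∈ 𝒯, wtp (fun i => if i = e then s else if i = f then t else w i) T =
        Z00 + s * Z10 + t * Z01 + s * t * Z11 := by
    intro s t
    simp only [hZ11, hZ10, hZ01, hZ00, Finset.sum_filter, Finset.mul_sum]
    rw [← Finset.sum_add_distrib, ← Finset.sum_add_distrib, ← Finset.sum_add_distrib]
    refine Finset.sum_congr rfl fun T _ => ?_
    rw [wtp_update w e f hef]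
    by_cases h1 : e ∈ T <;> by_cases h2 : f ∈ T <;> simp [h1, h2, hv] <;> ring
  -- the four classes of `w`
  have hclass : ∀ (P : Finset ι → Prop) [DecidablePred P] (c : ℝ),
      (∀ T, P T → (if e ∈ T then w e else 1) * (if f ∈ T then w f else 1) = c) →
      ∑ T ∈ 𝒯.filter P, wtp w T = c * ∑ T ∈ 𝒯.filter P, wtp v T := by
    intro P _ c hc
    rw [Finset.mul_sum]
    refine Finset.sum_congr rfl fun T hTm => ?_
    have hP := (Finset.mem_filter.mp hTm).2
    have hw' : w = fun i => if i = e then w e else if i = f then w f else w i := by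
      funext i
      by_cases h1 : i = e
      · subst h1; simp
      · by_cases h2 : i = f
        · subst h2; simp [h1]
        · simp [h1, h2]
    conv_lhs => rw [hw']
    rw [wtp_update w e f hef, hc T hP]
  have h11 : ∑ T ∈ 𝒯.filter (fun T => e ∈ T ∧ f ∈ T), wtp w T = (w e * w f) * Z11 :=
    hclass _ _ (fun T h => by simp [h.1, h.2])
  have h10 : ∑ T ∈ 𝒯.filter (fun T => e ∈ T ∧ f ∉ T), wtp w T = w e * Z10 :=
    hclass _ _ (fun T h => by simp [h.1, h.2])
  have h01 : ∑ T ∈ 𝒯.filter (fun T => e ∉ T ∧ f ∈ T), wtp w T = w f * Z01 :=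
    hclass _ _ (fun T h => by simp [h.1, h.2])
  have h00 : ∑ T ∈ 𝒯.filter (fun T => e ∉ T ∧ f ∉ T), wtp w T = 1 * Z00 :=
    hclass _ _ (fun T h => by simp [h.1, h.2])
  rw [h11, h10, h01, h00]
  have hcore : Z11 * Z00 ≤ Z10 * Z01 := by
    set A := lapM F B (fun i => if i = e then 0 else if i = f then 0 else w i) with hA
    have hdetA : A.det = Z00 := by
      have := hgen 0 0
      rw [← hrep] at this
      rw [hA, this]
      ring
    by_cases hu : IsUnit A.det
    · obtain ⟨α, β, γ, hform⟩ := det_two_update A hu (lapM_transpose F B _)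
        (fun u => B u e) (fun u => B u f)
      have hval : ∀ s t : ℝ, Z00 + s * Z10 + t * Z01 + s * t * Z11 =
          Z00 * ((1 + s * α) * (1 + t * β) - s * t * γ ^ 2) := by
        intro s t
        rw [← hgen, ← hrep, lapM_update F B w e f hef he hf, ← hA, hform, hdetA]
      have h10' := hval 1 0
      have h01' := hval 0 1
      have h11' := hval 1 1
      have e10 : Z10 = Z00 * α := by nlinarith
      have e01 : Z01 = Z00 * β := by nlinarith
      have e11 : Z11 = Z00 * (α * β - γ ^ 2) := by nlinarith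
      rw [e10, e01, e11]
      nlinarith [sq_nonneg (Z00 * γ)]
    · have h0 : Z00 = 0 := by
        rw [← hdetA]
        by_contra hne
        exact hu (isUnit_iff_ne_zero.mpr hne)
      rw [h0, mul_zero]
      exact mul_nonneg (hZnn _) (hZnn _)
  have hwe := hw e
  have hwf := hw f
  have : w e * w f * Z11 * (1 * Z00) = w e * w f * (Z11 * Z00) := by ring
  rw [this]
  have h2 : w e * Z10 * (w f * Z01) = w e * w f * (Z10 * Z01) := by ring
  rw [h2]
  exact mul_le_mul_of_nonneg_left hcore (mul_pos hwe hwf).le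

end Vale.Agent.P143
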